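import Vale.Agent.P088.R2.H558.E2

/-!
# P088, second derivatives of `u`, algebra at a point
-/

open MeasureTheory Set Filter
open scoped ContDiff Matrix Topology

noncomputable section

namespace Vale.Agent.P088.HY

open Vale.Agent.P088.LR

variable {n : ℕ}

/-- Kronecker delta. -/
def kd (i j : Fin n) : ℝ := if i = j then 1 else 0

lemma kd_self (i : Fin n) : kd i i = 1 := if_pos rfl

lemma kd_comm (i j : Fin n) : kd i j = kd j i := by
  unfold kd
  by_cases h : i = j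
  · simp [h]
  · rw [if_neg h, if_neg (fun h' => h h'.symm)]

lemma sum_kd (i : Fin n) (f : Fin n → ℝ) : ∑ j, kd i j * f j = f i := by
  unfold kd
  simp

lemma sum_kd' (i : Fin n) (f : Fin n → ℝ) : ∑ j, kd j i * f j = f i := by
  unfold kd
  simp

lemma Ax_x' (i j : Fin n) (z : VV n) : Ax i (fun z => z.1 j) z = kd i j * r1 z := by
  rw [Ax_x]; unfold kd; split_ifs <;> simp

lemma By_y' (i j : Fin n) (z : VV n) : By i (fun z => z.2 j) z = kd i j * r2 z := by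
  rw [By_y]; unfold kd; split_ifs <;> simp

/-- `x · y`. -/
def xy (z : VV n) : ℝ := ∑ j, z.1 j * z.2 j

lemma sum_xx (z : VV n) : ∑ j, z.1 j * z.1 j = 1 - 2 * r1 z := by
  unfold r1 rr sq
  simp only [pow_two]
  ring

lemma sum_yy (z : VV n) : ∑ j, z.2 j * z.2 j = 1 - 2 * r2 z := by
  unfold r2 rr sq
  simp only [pow_two]
  ring

lemma qq_eq' (z : VV n) : qq z = 2 - 2 * r1 z - 2 * r2 z - 2 * xy z := by
  have h : qq z = ∑ j, z.1 j * z.1 j + ∑ j, z.2 j * z.2 j - 2 * xy z := by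
    unfold qq xy sq
    rw [Finset.mul_sum, ← Finset.sum_add_distrib, ← Finset.sum_sub_distrib]
    refine Finset.sum_congr rfl fun j _ => ?_
    simp only [Pi.sub_apply]
    ring
  rw [h, sum_xx, sum_yy]
  ring

lemma qq_eq {z : VV n} (hz : z ∈ Un n) : qq z = 2 * r1 z * r2 z * (uu z - 1) := by
  have h1 := (r1_pos hz).ne'
  have h2 := (r2_pos hz).ne'
  rw [uu_eq]
  field_simp
  ring

lemma xy_eq {z : VV n} (hz : z ∈ Un n) :
    xy z = 1 - r1 z - r2 z - r1 z * r2 z * (uu z - 1) := by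
  have h1 := qq_eq' z
  have h2 := qq_eq hz
  linarith

lemma qq_nonneg (z : VV n) : 0 ≤ qq z := sq_nonneg' _

lemma one_le_uu {z : VV n} (hz : z ∈ Un n) : 1 ≤ uu z := by
  rw [uu_eq]
  have h1 := r1_pos hz
  have h2 := r2_pos hz
  have h3 := qq_nonneg z
  have : 0 ≤ 1 / 2 * (qq z * ((r1 z)⁻¹ * (r2 z)⁻¹)) := by positivity
  linarith

/-- Inner products of combinations of `x` and `y`. -/
lemma sum_lin (z : VV n) (p q p' q' : ℝ) :
    ∑ j, (p * z.1 j + q * z.2 j) * (p' * z.1 j + q' * z.2 j) =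
      p * p' * (1 - 2 * r1 z) + (p * q' + q * p') * xy z + q * q' * (1 - 2 * r2 z) := by
  rw [← sum_xx, ← sum_yy]
  unfold xy
  rw [Finset.mul_sum, Finset.mul_sum, Finset.mul_sum, ← Finset.sum_add_distrib,
    ← Finset.sum_add_distrib]
  refine Finset.sum_congr rfl fun j _ => ?_
  ring

lemma al_lin {z : VV n} (hz : z ∈ Un n) (i : Fin n) :
    al i z = ((r2 z)⁻¹ + (uu z - 1)) * z.1 i + -(r2 z)⁻¹ * z.2 i := by
  rw [al_eq hz]; ring

lemma be_lin {z : VV n} (hz : z ∈ Un n) (i : Fin n) :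
    be i z = -(r1 z)⁻¹ * z.1 i + ((r1 z)⁻¹ + (uu z - 1)) * z.2 i := by
  rw [be_eq hz]; ring

lemma sum_al_sq {z : VV n} (hz : z ∈ Un n) : ∑ i, al i z * al i z = uu z ^ 2 - 1 := by
  have h1 := (r1_pos hz).ne'
  have h2 := (r2_pos hz).ne'
  simp only [al_lin hz]
  rw [sum_lin, xy_eq hz]
  field_simp
  ring

lemma sum_be_sq {z : VV n} (hz : z ∈ Un n) : ∑ i, be i z * be i z = uu z ^ 2 - 1 := by
  have h1 := (r1_pos hz).ne'
  have h2 := (r2_pos hz).ne'
  simp only [be_lin hz]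
  rw [sum_lin, xy_eq hz]
  field_simp
  ring

/-- `x · α`. -/
def xa (z : VV n) : ℝ := ∑ i, z.1 i * al i z

/-- `y · β`. -/
def yb (z : VV n) : ℝ := ∑ i, z.2 i * be i z

lemma xa_eq {z : VV n} (hz : z ∈ Un n) : xa z = uu z - r1 z * (r2 z)⁻¹ - r1 z * (uu z - 1) := by
  have h1 := (r1_pos hz).ne'
  have h2 := (r2_pos hz).ne'
  have h3 : xa z = ∑ i, (1 * z.1 i + 0 * z.2 i) *
      (((r2 z)⁻¹ + (uu z - 1)) * z.1 i + -(r2 z)⁻¹ * z.2 i) := by
    unfold xa
    refine Finset.sum_congr rfl fun i _ => ?_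
    rw [al_lin hz]; ring
  rw [h3, sum_lin, xy_eq hz]
  field_simp
  ring

lemma yb_eq {z : VV n} (hz : z ∈ Un n) : yb z = uu z - r2 z * (r1 z)⁻¹ - r2 z * (uu z - 1) := by
  have h1 := (r1_pos hz).ne'
  have h2 := (r2_pos hz).ne'
  have h3 : yb z = ∑ i, (0 * z.1 i + 1 * z.2 i) *
      (-(r1 z)⁻¹ * z.1 i + ((r1 z)⁻¹ + (uu z - 1)) * z.2 i) := by
    unfold yb
    refine Finset.sum_congr rfl fun i _ => ?_
    rw [be_lin hz]; ring
  rw [h3, sum_lin, xy_eq hz]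
  field_simp
  ring

lemma Ax_uu (i : Fin n) (z : VV n) : Ax i uu z = al i z := rfl

lemma By_uu (i : Fin n) (z : VV n) : By i uu z = be i z := rfl

lemma su_um : SU (fun z : VV n => uu z - 1) := su_uu.sub (su_const 1)

/-- `A_i α_j = u δ_ij + x_j α_i - δ_ij x·α`. -/
lemma Ax_al {z : VV n} (hz : z ∈ Un n) (i j : Fin n) :
    Ax i (al j) z = kd i j * (uu z - xa z) + z.1 j * al i z := by
  have h2 := (r2_pos hz).ne'
  have e1 : Ax i (al j) z = Ax i (fun z => (z.1 j - z.2 j) * (r2 z)⁻¹ + (uu z - 1) * z.1 j) z := by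
    rw [Ax_eq]
    exact Dr_congr (fun z hz => al_eq hz j) hz
  have e2 : Ax i (fun z => (z.1 j - z.2 j) * (r2 z)⁻¹ + (uu z - 1) * z.1 j) z =
      ((Ax i (fun z => z.1 j) z - Ax i (fun z => z.2 j) z) * (r2 z)⁻¹ +
        (z.1 j - z.2 j) * (-Ax i r2 z / r2 z ^ 2)) +
      ((Ax i uu z - 0) * z.1 j + (uu z - 1) * Ax i (fun z => z.1 j) z) := by
    rw [Ax_eq, Dr_add (((su_x j).sub (su_y j)).mul su_r2i) (su_um.mul (su_x j)) hz,
      Dr_mul ((su_x j).sub (su_y j)) su_r2i hz, Dr_mul su_um (su_x j) hz,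
      Dr_sub (su_x j) (su_y j) hz, Dr_inv su_r2 hz h2, Dr_sub su_uu (su_const 1) hz, Dr_const]
  rw [e1, e2, Ax_x', Ax_y, Ax_r2, Ax_uu, xa_eq hz]
  ring

lemma By_be {z : VV n} (hz : z ∈ Un n) (i j : Fin n) :
    By i (be j) z = kd i j * (uu z - yb z) + z.2 j * be i z := by
  have h1 := (r1_pos hz).ne'
  have e1 : By i (be j) z = By i (fun z => (z.2 j - z.1 j) * (r1 z)⁻¹ + (uu z - 1) * z.2 j) z := by
    rw [By_eq]
    exact Dr_congr (fun z hz => be_eq hz j) hz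
  have e2 : By i (fun z => (z.2 j - z.1 j) * (r1 z)⁻¹ + (uu z - 1) * z.2 j) z =
      ((By i (fun z => z.2 j) z - By i (fun z => z.1 j) z) * (r1 z)⁻¹ +
        (z.2 j - z.1 j) * (-By i r1 z / r1 z ^ 2)) +
      ((By i uu z - 0) * z.2 j + (uu z - 1) * By i (fun z => z.2 j) z) := by
    rw [By_eq, Dr_add (((su_y j).sub (su_x j)).mul su_r1i) (su_um.mul (su_y j)) hz,
      Dr_mul ((su_y j).sub (su_x j)) su_r1i hz, Dr_mul su_um (su_y j) hz,
      Dr_sub (su_y j) (su_x j) hz, Dr_inv su_r1 hz h1, Dr_sub su_uu (su_const 1) hz, Dr_const]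
  rw [e1, e2, By_y', By_x, By_r1, By_uu, yb_eq hz]
  ring

/-- `m_ij = -δ_ij + x_i β_j + y_j α_i - (u-1) x_i y_j`. -/
lemma mm_eq {z : VV n} (hz : z ∈ Un n) (i j : Fin n) :
    mm i j z = -kd i j + z.1 i * be j z + z.2 j * al i z - (uu z - 1) * z.1 i * z.2 j := by
  have h1 := (r1_pos hz).ne'
  have e1 : mm i j z = Ax i (fun z => (z.2 j - z.1 j) * (r1 z)⁻¹ + (uu z - 1) * z.2 j) z := by
    unfold mm
    rw [Ax_eq]
    exact Dr_congr (fun z hz => be_eq hz j) hz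
  have e2 : Ax i (fun z => (z.2 j - z.1 j) * (r1 z)⁻¹ + (uu z - 1) * z.2 j) z =
      ((Ax i (fun z => z.2 j) z - Ax i (fun z => z.1 j) z) * (r1 z)⁻¹ +
        (z.2 j - z.1 j) * (-Ax i r1 z / r1 z ^ 2)) +
      ((Ax i uu z - 0) * z.2 j + (uu z - 1) * Ax i (fun z => z.2 j) z) := by
    rw [Ax_eq, Dr_add (((su_y j).sub (su_x j)).mul su_r1i) (su_um.mul (su_y j)) hz,
      Dr_mul ((su_y j).sub (su_x j)) su_r1i hz, Dr_mul su_um (su_y j) hz,
      Dr_sub (su_y j) (su_x j) hz, Dr_inv su_r1 hz h1, Dr_sub su_uu (su_const 1) hz, Dr_const]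
  rw [e1, e2, Ax_x', Ax_y, Ax_r1, Ax_uu, be_eq hz]
  field_simp
  ring

/-! ### Commutators -/

lemma Ax_By_comm {f : VV n → ℝ} (hf : SU f) {z : VV n} (hz : z ∈ Un n) (i j : Fin n) :
    Ax i (By j f) z = By j (Ax i f) z := by
  have e1 : Ax i (By j f) z = r1 z * (0 * dy j f z + r2 z * dx i (dy j f) z) := by
    show r1 z * dd (Pi.single i 1, 0) (fun z => r2 z * dy j f z) z = _
    rw [dd_mul (SU.d su_r2 hz) (SU.d (SU.dy hf j) hz), dd_rr2]
    simp [dx_eq]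
  have e2 : By j (Ax i f) z = r2 z * (0 * dx i f z + r1 z * dy j (dx i f) z) := by
    show r2 z * dd (0, Pi.single j 1) (fun z => r1 z * dx i f z) z = _
    rw [dd_mul (SU.d su_r1 hz) (SU.d (SU.dx hf i) hz), dd_rr1]
    simp [dy_eq]
  have hc : dx i (dy j f) z = dy j (dx i f) z := dd_comm (SO.at isOpen_Un hf hz) _ _
  rw [e1, e2, hc]
  ring

lemma Ax_Ax {f : VV n → ℝ} (hf : SU f) {z : VV n} (hz : z ∈ Un n) (i j : Fin n) :
    Ax i (Ax j f) z = r1 z ^ 2 * dx i (dx j f) z - z.1 i * Ax j f z := by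
  show r1 z * dd (Pi.single i 1, 0) (fun z => r1 z * dx j f z) z = _
  rw [dd_mul (SU.d su_r1 hz) (SU.d (SU.dx hf j) hz), dd_rr1, sum_single_mul i fun j => z.1 j,
    dx_eq]
  show _ = r1 z ^ 2 * dd (Pi.single i 1, 0) (dd (Pi.single j 1, 0) f) z -
    z.1 i * (r1 z * dd (Pi.single j 1, 0) f z)
  ring

lemma By_By {f : VV n → ℝ} (hf : SU f) {z : VV n} (hz : z ∈ Un n) (i j : Fin n) :
    By i (By j f) z = r2 z ^ 2 * dy i (dy j f) z - z.2 i * By j f z := by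
  show r2 z * dd (0, Pi.single i 1) (fun z => r2 z * dy j f z) z = _
  rw [dd_mul (SU.d su_r2 hz) (SU.d (SU.dy hf j) hz), dd_rr2, sum_single_mul i fun j => z.2 j,
    dy_eq]
  show _ = r2 z ^ 2 * dd (0, Pi.single i 1) (dd (0, Pi.single j 1) f) z -
    z.2 i * (r2 z * dd (0, Pi.single j 1) f z)
  ring

lemma Ax_comm {f : VV n → ℝ} (hf : SU f) {z : VV n} (hz : z ∈ Un n) (i j : Fin n) :
    Ax i (Ax j f) z = Ax j (Ax i f) z + z.1 j * Ax i f z - z.1 i * Ax j f z := by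
  have hc : dx i (dx j f) z = dx j (dx i f) z := dd_comm (SO.at isOpen_Un hf hz) _ _
  rw [Ax_Ax hf hz, Ax_Ax hf hz, hc]
  ring

lemma By_comm {f : VV n → ℝ} (hf : SU f) {z : VV n} (hz : z ∈ Un n) (i j : Fin n) :
    By i (By j f) z = By j (By i f) z + z.2 j * By i f z - z.2 i * By j f z := by
  have hc : dy i (dy j f) z = dy j (dy i f) z := dd_comm (SO.at isOpen_Un hf hz) _ _
  rw [By_By hf hz, By_By hf hz, hc]
  ring

lemma By_al {z : VV n} (hz : z ∈ Un n) (i j : Fin n) : By j (al i) z = mm i j z :=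
  (Ax_By_comm su_uu hz i j).symm

lemma Ax_be (i j : Fin n) (z : VV n) : Ax i (be j) z = mm i j z := rfl

/-- `A_k m_ij = δ_ki (β_j - (mᵀx)_j) + x_i m_kj`. -/
lemma Ax_mm {z : VV n} (hz : z ∈ Un n) (k i j : Fin n) :
    Ax k (mm i j) z = kd k i * (be j z - ∑ l, z.1 l * mm l j z) + z.1 i * mm k j z := by
  have e1 : Ax k (mm i j) z = Ax k (fun z => -kd i j + (z.1 i * be j z + z.2 j * al i z -
      (uu z - 1) * z.1 i * z.2 j)) z := by
    rw [Ax_eq]
    exact Dr_congr (fun z hz => by rw [mm_eq hz]; ring) hz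
  have e2 : Ax k (fun z => -kd i j + (z.1 i * be j z + z.2 j * al i z -
      (uu z - 1) * z.1 i * z.2 j)) z =
      0 + ((Ax k (fun z => z.1 i) z * be j z + z.1 i * Ax k (be j) z) +
      (Ax k (fun z => z.2 j) z * al i z + z.2 j * Ax k (al i) z) -
      (((Ax k uu z - 0) * z.1 i + (uu z - 1) * Ax k (fun z => z.1 i) z) * z.2 j +
        (uu z - 1) * z.1 i * Ax k (fun z => z.2 j) z)) := by
    rw [Ax_eq, Dr_add (su_const _) ((((su_x i).mul (su_be j)).add ((su_y j).mul (su_al i))).sub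
      ((su_um.mul (su_x i)).mul (su_y j))) hz, Dr_const,
      Dr_sub (((su_x i).mul (su_be j)).add ((su_y j).mul (su_al i)))
      ((su_um.mul (su_x i)).mul (su_y j)) hz,
      Dr_add ((su_x i).mul (su_be j)) ((su_y j).mul (su_al i)) hz, Dr_mul (su_x i) (su_be j) hz,
      Dr_mul (su_y j) (su_al i) hz, Dr_mul (su_um.mul (su_x i)) (su_y j) hz,
      Dr_mul su_um (su_x i) hz, Dr_sub su_uu (su_const 1) hz, Dr_const]
  have e3 : ∑ l, z.1 l * mm l j z = -z.1 j + (1 - 2 * r1 z) * be j z + z.2 j * xa z -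
      (uu z - 1) * (1 - 2 * r1 z) * z.2 j := by
    have h1 : ∀ l, z.1 l * mm l j z = -(kd l j * z.1 l) + be j z * (z.1 l * z.1 l) +
        z.2 j * (z.1 l * al l z) - (uu z - 1) * z.2 j * (z.1 l * z.1 l) := by
      intro l
      rw [mm_eq hz]
      ring
    simp only [h1, Finset.sum_add_distrib, Finset.sum_sub_distrib, Finset.sum_neg_distrib,
      ← Finset.mul_sum]
    rw [sum_kd' j fun l => z.1 l, sum_xx]
    unfold xa
    ring
  rw [e1, e2, e3, Ax_x', Ax_y, Ax_uu, Ax_be, Ax_al hz, mm_eq hz, be_eq hz]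
  have h1 := (r1_pos hz).ne'
  field_simp
  ring

end Vale.Agent.P088.HY
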