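import Vale.Agent.P088.R2.H558.Spec
import Vale.Agent.P088.R2.H558.E3

/-!
# P088, sub-rows of the basic estimate RowEST
-/

open MeasureTheory Set
open scoped ContDiff Matrix

noncomputable section

namespace Vale.Agent.P088.HY

open Vale.Agent.P088.LR

variable {n : ℕ}

/-- `∫ θ f`. -/
def EE (f : VV n → ℝ) : ℝ := ∫ z in Un n, th z * f z

/-- `Γ_x(f, h) = ∑ s_ij A_i f A_j h`. -/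
def Gax (s : MF n) (f h : VV n → ℝ) (z : VV n) : ℝ :=
  ∑ i, ∑ j, s z.1 i j * Ax i f z * Ax j h z

/-- `Γ_y(f, h)`. -/
def Gay (s : MF n) (f h : VV n → ℝ) (z : VV n) : ℝ :=
  ∑ i, ∑ j, s z.2 i j * By i f z * By j h z

/-- `𝖣_x - v`. -/
def L0x (s : MF n) (f : VV n → ℝ) (z : VV n) : ℝ :=
  ∑ i, ∑ j, s z.1 i j * (Ax i (Ax j f) z + (n - 1) * z.1 i * Ax j f z)

/-- `𝖣_y - v`. -/
def L0y (s : MF n) (f : VV n → ℝ) (z : VV n) : ℝ :=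
  ∑ i, ∑ j, s z.2 i j * (By i (By j f) z + (n - 1) * z.2 i * By j f z)

/-- `Γ(f, Γ(u, h)) + Γ(h, Γ(u, f)) - Γ(u, Γ(f, h))`, first factor. -/
def Gx (s : MF n) (f h : VV n → ℝ) (z : VV n) : ℝ :=
  Gax s f (Gax s uu h) z + Gax s h (Gax s uu f) z - Gax s uu (Gax s f h) z

/-- The same, second factor. -/
def Gy (s : MF n) (f h : VV n → ℝ) (z : VV n) : ℝ :=
  Gay s f (Gay s uu h) z + Gay s h (Gay s uu f) z - Gay s uu (Gay s f h) z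

/-- `(s₁ A f) · m (s₂ B h)`. -/
def Gm (s₁ s₂ : MF n) (f h : VV n → ℝ) (z : VV n) : ℝ :=
  ∑ i, ∑ j, ∑ k, ∑ l, s₁ z.1 i j * Ax j f z * mm i k z * s₂ z.2 k l * By l h z

/-- The potentials as functions of `z`. -/
def vx (s : MF n) (z : VV n) : ℝ := vp s z.1

/-- The potentials as functions of `z`. -/
def vy (s : MF n) (z : VV n) : ℝ := vp s z.2

/-- `|A f|² + |B f|²`. -/
def g2 (f : VV n → ℝ) (z : VV n) : ℝ := ∑ i, Ax i f z ^ 2 + ∑ i, By i f z ^ 2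

/-- `A f · m B f`. -/
def cr (f : VV n → ℝ) (z : VV n) : ℝ := ∑ i, ∑ j, Ax i f z * mm i j z * By j f z

/-- `H_-`. -/
def Hm (f : VV n → ℝ) (z : VV n) : ℝ := uu z * g2 f z - 2 * cr f z

/-- `H_+`. -/
def Hp (f : VV n → ℝ) (z : VV n) : ℝ := uu z * g2 f z + 2 * cr f z

/-- `ψ = u - 1/u`, so `u² - 1 = u ψ`. -/
def ps (z : VV n) : ℝ := uu z - (uu z)⁻¹

/-- The weight for `b`. -/
def Nb (τ : ℝ) (f : VV n → ℝ) (z : VV n) : ℝ :=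
  τ ^ 3 * (uu z ^ 2 * ps z) * f z ^ 2 + τ ^ 2 * uu z ^ 2 * f z ^ 2 + τ * uu z * g2 f z

/-- The weight for `c`. -/
def Nc (τ : ℝ) (f : VV n → ℝ) (z : VV n) : ℝ :=
  τ ^ 3 * (uu z * ps z ^ 2) * f z ^ 2 + τ * f z ^ 2 + τ * ps z * g2 f z + g2 f z + τ * Hm f z

/-- The commutator form for `b`. -/
def qB (s₁ s₂ : MF n) (τ : ℝ) (f : VV n → ℝ) (z : VV n) : ℝ :=
  τ * (Gx s₁ f f z + Gy s₂ f f z + 4 * Gm s₁ s₂ f f z)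
    + τ * (-(1 / 2) * (L0x s₁ (kax s₁) z + L0y s₂ (kay s₂) z + L0x s₁ (kay s₂) z
      + L0y s₂ (kax s₁) z) + Gax s₁ uu (vx s₁) z + Gay s₂ uu (vy s₂) z) * f z ^ 2
    + τ ^ 3 * (Gax s₁ uu (fun z => Fxs s₁ z + Fys s₂ z) z
      + Gay s₂ uu (fun z => Fxs s₁ z + Fys s₂ z) z) * f z ^ 2

/-- The commutator form for `c`. -/
def qC (s₁ s₂ : MF n) (τ : ℝ) (f : VV n → ℝ) (z : VV n) : ℝ :=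
  τ * (Gx s₁ f f z + Gy s₂ f f z - 4 * Gm s₁ s₂ f f z)
    + τ * (-(1 / 2) * (L0x s₁ (kax s₁) z + L0y s₂ (kay s₂) z - L0x s₁ (kay s₂) z
      - L0y s₂ (kax s₁) z) + Gax s₁ uu (vx s₁) z + Gay s₂ uu (vy s₂) z) * f z ^ 2
    + τ ^ 3 * (Gax s₁ uu (fun z => Fxs s₁ z - Fys s₂ z) z
      - Gay s₂ uu (fun z => Fxs s₁ z - Fys s₂ z) z) * f z ^ 2

/-- The mixed form. -/
def qX (s₁ s₂ : MF n) (τ : ℝ) (b c : VV n → ℝ) (z : VV n) : ℝ :=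
  2 * τ * (Gx s₁ b c z - Gy s₂ b c z)
    + τ * (-(L0x s₁ (kax s₁) z - L0y s₂ (kay s₂) z)
      + 2 * (Gax s₁ uu (vx s₁) z - Gay s₂ uu (vy s₂) z)) * (b z * c z)
    + 2 * τ ^ 3 * (Gax s₁ uu (Fxs s₁) z - Gay s₂ uu (Fys s₂) z) * (b z * c z)
    + 2 * τ ^ 2 * (b z * (Kxs s₁ (Kys s₂ c) z - Kys s₂ (Kxs s₁ c) z))

/-- The quadratic form of the estimate. -/
def TT (s₁ s₂ : MF n) (τ : ℝ) (a₁ a₂ : VV n → ℝ) : ℝ :=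
  EE fun z => (Px s₁ (-τ) a₁ z + Py s₂ (-τ) a₂ z) ^ 2 + (Py s₂ τ a₁ z - Px s₁ τ a₂ z) ^ 2

/-- (EID) the exact identity, `a₁ = (b + c) / 2`, `a₂ = (b - c) / 2`. -/
def RowEID : Prop := ∀ (n : ℕ) (ε : ℝ) (s₁ s₂ : MF n), TS n 3 ε s₁ → TS n 3 ε s₂ →
  ∀ (τ : ℝ) (b c : VV n → ℝ), TF (Un n) b → TF (Un n) c →
  TT s₁ s₂ τ (fun z => (b z + c z) / 2) (fun z => (b z - c z) / 2) =
    1 / 4 * EE (fun z => (Px s₁ τ b z + Py s₂ τ b z) ^ 2 + (Px s₁ τ b z - Py s₂ τ b z) ^ 2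
      + (Px s₁ τ c z + Py s₂ τ c z) ^ 2 + (Px s₁ τ c z - Py s₂ τ c z) ^ 2)
    + EE (qB s₁ s₂ τ b) + EE (qC s₁ s₂ τ c) + EE (qX s₁ s₂ τ b c)

/-- The symmetric part of `(P₁ + P₂) / 2`. -/
def S0 (s₁ s₂ : MF n) (τ : ℝ) (f : VV n → ℝ) (z : VV n) : ℝ :=
  (Dxs s₁ f z + Dys s₂ f z) / 2 + τ ^ 2 * ((Fxs s₁ z + Fys s₂ z) / 2) * f z

/-- The antisymmetric part of `(P₁ + P₂) / 2`. -/
def S1 (s₁ s₂ : MF n) (τ : ℝ) (f : VV n → ℝ) (z : VV n) : ℝ :=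
  τ * ((Kxs s₁ f z + Kys s₂ f z) / 2)

/-- (EIK) the identity for `(P₁ + P₂) / 2` alone. -/
def RowEIK : Prop := ∀ (n : ℕ) (ε : ℝ) (s₁ s₂ : MF n), TS n 3 ε s₁ → TS n 3 ε s₂ →
  ∀ (τ : ℝ) (f : VV n → ℝ), TF (Un n) f →
  EE (fun z => S0 s₁ s₂ τ f z ^ 2) + EE (fun z => S1 s₁ s₂ τ f z ^ 2) =
    1 / 4 * EE (fun z => (Px s₁ τ f z + Py s₂ τ f z) ^ 2) + 1 / 2 * EE (qB s₁ s₂ τ f)

/-- (EBD) bounds of the coefficients. -/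
def RowEBD : Prop := ∀ n : ℕ, ∃ C : ℝ, 0 < C ∧ ∀ (ε : ℝ) (s₁ s₂ : MF n), 0 ≤ ε → ε ≤ 1 →
  TS n 3 ε s₁ → TS n 3 ε s₂ → ∀ z ∈ Un n,
  |kax s₁ z - n * uu z| ≤ C * ε * uu z ∧ |kay s₂ z - n * uu z| ≤ C * ε * uu z ∧
  (∀ i, |Ax i (kax s₁) z - n * al i z| ≤ C * ε * uu z) ∧
  (∀ i, |By i (kax s₁) z - n * be i z| ≤ C * ε * uu z) ∧
  (∀ i, |Ax i (kay s₂) z - n * al i z| ≤ C * ε * uu z) ∧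
  (∀ i, |By i (kay s₂) z - n * be i z| ≤ C * ε * uu z) ∧
  |L0x s₁ (kax s₁) z - n ^ 2 * uu z| ≤ C * ε * uu z ∧
  |L0y s₂ (kay s₂) z - n ^ 2 * uu z| ≤ C * ε * uu z ∧
  |L0x s₁ (kay s₂) z - n ^ 2 * uu z| ≤ C * ε * uu z ∧
  |L0y s₂ (kax s₁) z - n ^ 2 * uu z| ≤ C * ε * uu z ∧
  |Gax s₁ uu (vx s₁) z| ≤ C * ε * uu z ∧ |Gay s₂ uu (vy s₂) z| ≤ C * ε * uu z

/-- (EQB) pointwise comparison of `qB` with the model. -/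
def RowEQB : Prop := ∀ n : ℕ, ∃ C : ℝ, 0 < C ∧ ∀ (ε : ℝ) (s₁ s₂ : MF n), 0 ≤ ε → ε ≤ 1 →
  TS n 3 ε s₁ → TS n 3 ε s₂ → ∀ τ : ℝ, 1 ≤ τ → ∀ f : VV n → ℝ, SU f → ∀ z ∈ Un n,
  |qB s₁ s₂ τ f z - (2 * τ * Hp f z + 8 * τ ^ 3 * (uu z ^ 2 * ps z) * f z ^ 2)| ≤
    C * ε * (τ * uu z * g2 f z + τ ^ 3 * (uu z ^ 2 * ps z) * f z ^ 2)
      + C * τ * uu z * f z ^ 2

/-- (EQC) pointwise comparison of `qC` with the model; `τ |s₁ - s₂| ≤ ε`. -/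
def RowEQC : Prop := ∀ n : ℕ, ∃ C : ℝ, 0 < C ∧ ∀ (ε η : ℝ) (s₁ s₂ : MF n), 0 ≤ ε → ε ≤ 1 →
  TS n 3 ε s₁ → TS n 3 ε s₂ → DB 3 η s₁ s₂ → ∀ τ : ℝ, 1 ≤ τ → τ * η ≤ ε →
  ∀ f : VV n → ℝ, SU f → ∀ z ∈ Un n,
  2 * τ * Hm f z - C * ε * Nc τ f z ≤ qC s₁ s₂ τ f z

/-- (EQX) the mixed term. -/
def RowEQX : Prop := ∀ n : ℕ, ∃ C : ℝ, 0 < C ∧ ∀ (ε η : ℝ) (s₁ s₂ : MF n), 0 ≤ ε → ε ≤ 1 →
  TS n 3 ε s₁ → TS n 3 ε s₂ → DB 3 η s₁ s₂ → ∀ τ : ℝ, 1 ≤ τ → τ * η ≤ ε →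
  ∀ b c : VV n → ℝ, TF (Un n) b → TF (Un n) c →
  |EE (qX s₁ s₂ τ b c) + 4 * τ * EE (fun z => uu z * b z * (Px s₁ τ c z - Py s₂ τ c z))| ≤
    C * (ε + 1 / √τ) * (EE (Nb τ b) + EE (Nc τ c))

/-- (EGAP) the gap. -/
def RowEGAP : Prop := ∀ (n : ℕ), 2 ≤ n → ∀ c : VV n → ℝ, TF (Un n) c →
  EE (fun z => c z ^ 2) ≤ 4 / ((n : ℝ) - 1) ^ 2 * EE (Hm c)

/-- (EOS) the oscillator bound. -/
def RowEOS : Prop := ∀ (n : ℕ) (τ : ℝ), 0 < τ → ∀ b : VV n → ℝ, TF (Un n) b →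
  8 * τ ^ 2 * EE (fun z => ((n + 1) * uu z ^ 2 - 1) * b z ^ 2) ≤
    EE (fun z => 2 * τ * Hp b z + 8 * τ ^ 3 * (uu z ^ 2 * ps z) * b z ^ 2)

/-- (EN1) control of `b`. -/
def RowEN1 : Prop := ∀ n : ℕ, 1 ≤ n → ∃ C ε₀ τ₀ : ℝ, 0 < C ∧ 0 < ε₀ ∧ 1 ≤ τ₀ ∧
  ∀ (s₁ s₂ : MF n), TS n 3 ε₀ s₁ → TS n 3 ε₀ s₂ → ∀ τ : ℝ, τ₀ ≤ τ → ∀ b : VV n → ℝ,
  TF (Un n) b → EE (Nb τ b) ≤
    C * (EE (fun z => 2 * τ * Hp b z + 8 * τ ^ 3 * (uu z ^ 2 * ps z) * b z ^ 2)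
      + EE (fun z => (Px s₁ τ b z + Py s₂ τ b z) ^ 2))

/-- (EN2) control of `c`. -/
def RowEN2 : Prop := ∀ n : ℕ, 2 ≤ n → ∃ C ε₀ τ₀ : ℝ, 0 < C ∧ 0 < ε₀ ∧ 1 ≤ τ₀ ∧
  ∀ (s₁ s₂ : MF n), TS n 3 ε₀ s₁ → TS n 3 ε₀ s₂ → ∀ τ : ℝ, τ₀ ≤ τ → ∀ c : VV n → ℝ,
  TF (Un n) c → EE (Nc τ c) ≤
    C * (τ * EE (Hm c) + EE (fun z => (Px s₁ τ c z + Py s₂ τ c z) ^ 2))

/-!
## Dependencies

* `rowEN2 : RowEGAP → RowEIK → RowEQB → RowEN2`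
* `rowEN1 : RowEOS → RowEN1`
* `rowEST : RowEID → RowEQB → RowEQC → RowEQX → RowEGAP → RowEOS → RowEN1 → RowEN2 → RowEST`
-/

end Vale.Agent.P088.HY
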