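import Vale.Agent.P088.R2.H558.Defs

/-!
# P088, two metrics near the flat one: the rows

Rows are literal statements; the owner of a row proves `theorem rowX : RowX` in an own file.
-/

open MeasureTheory Set
open scoped ContDiff Matrix

noncomputable section

namespace Vale.Agent.P088.HY

open Vale.Agent.P088.LR

variable {n : ℕ}

/-- (EST) the basic estimate. -/
def RowEST : Prop := ∀ n : ℕ, 3 ≤ n → ∃ C ε τ₀ : ℝ, 0 < C ∧ 0 < ε ∧ 0 < τ₀ ∧ ∀ s₁ s₂ : MF n,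
  TS n 3 ε s₁ → TS n 3 ε s₂ → ∀ η τ : ℝ, 0 ≤ η → DB 3 η s₁ s₂ → τ₀ ≤ τ → τ * η ≤ ε →
  ∀ a₁ a₂ : VV n → ℝ, TF (Un n) a₁ → TF (Un n) a₂ →
  ∫ z in Un n, th z * (τ ^ 2 * (a₁ z + a₂ z) ^ 2 + τ * (a₁ z - a₂ z) ^ 2) ≤
    C * ∫ z in Un n, th z * ((Px s₁ (-τ) a₁ z + Py s₂ (-τ) a₂ z) ^ 2
      + (Py s₂ τ a₁ z - Px s₁ τ a₂ z) ^ 2)

/-- (TOP) vanishing in the top degree. -/
def RowTOP : Prop := ∀ n : ℕ, 3 ≤ n → ∃ ε τ₀ : ℝ, 0 < ε ∧ 0 < τ₀ ∧ ∀ s₁ s₂ : MF n,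
  TS n 3 ε s₁ → TS n 3 ε s₂ → ∀ τ : ℝ, τ₀ ≤ τ → ∀ g : VV n → ℝ, ContDiffOn ℝ ∞ g (Un n) →
  IntegrableOn (fun z => th z * g z ^ 2) (Un n) →
  (∀ z ∈ Un n, Px s₁ τ (Px s₁ (-τ) g) z + Py s₂ τ (Py s₂ (-τ) g) z = 0) → ∀ z ∈ Un n, g z = 0

/-- The derivative of `f` in the direction `b i`. -/
def db {J E : Type} [NormedAddCommGroup E] [NormedSpace ℝ E] (b : J → E) (i : J) (f : E → ℝ)
    (z : E) : ℝ := fderiv ℝ f z (b i)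

/-- A second order operator in the directions `b i`. -/
def op2 {J E : Type} [Fintype J] [NormedAddCommGroup E] [NormedSpace ℝ E] (b : J → E)
    (c : J → J → E → ℝ) (d : J → E → ℝ) (e : E → ℝ) (f : E → ℝ) (z : E) : ℝ :=
  ∑ i, ∑ j, c i j z * db b i (db b j f) z + ∑ i, d i z * db b i f z + e z * f z

/-- (HYP) locally square integrable weak solutions of second order elliptic systems are smooth.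
`b` is a basis of `E`, e.g. the standard basis of `V n` or of `V n × V n`. -/
def RowHYP : Prop := ∀ (J E : Type) [Fintype J] [NormedAddCommGroup E] [NormedSpace ℝ E]
  [FiniteDimensional ℝ E] [MeasurableSpace E] [BorelSpace E] (μ : Measure E)
  [μ.IsAddHaarMeasure] (b : Module.Basis J ℝ E) (m : ℕ) (O : Set E), IsOpen O →
  ∀ (c : Fin m → Fin m → J → J → E → ℝ) (d : Fin m → Fin m → J → E → ℝ)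
    (e : Fin m → Fin m → E → ℝ),
  (∀ p q i j, ContDiffOn ℝ ∞ (c p q i j) O) → (∀ p q i, ContDiffOn ℝ ∞ (d p q i) O) →
  (∀ p q, ContDiffOn ℝ ∞ (e p q) O) →
  (∀ z ∈ O, ∀ ξ : J → ℝ, ξ ≠ 0 →
    (Matrix.of fun p q => ∑ i, ∑ j, c p q i j z * ξ i * ξ j).det ≠ 0) →
  ∀ w G : Fin m → E → ℝ, (∀ q, AEStronglyMeasurable (w q) μ) →
  (∀ q, ∀ k : Set E, IsCompact k → k ⊆ O → IntegrableOn (fun z => w q z ^ 2) k μ) →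
  (∀ p, ContDiffOn ℝ ∞ (G p) O) →
  (∀ φ : Fin m → E → ℝ, (∀ p, ContDiff ℝ ∞ (φ p) ∧ HasCompactSupport (φ p) ∧
    tsupport (φ p) ⊆ O) →
    ∫ z, ∑ q, w q z * ∑ p, op2 b (c p q) (d p q) (e p q) (φ p) z ∂μ = ∫ z, ∑ p, G p z * φ p z ∂μ) →
  ∃ w' : Fin m → E → ℝ, (∀ q, ContDiffOn ℝ ∞ (w' q) O) ∧ ∀ q, ∀ᵐ z ∂μ, z ∈ O → w' q z = w q z

/-- (SOL) solution of the overdetermined system with the weight `e^{-2τ(u-1)}`. -/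
def RowSOL : Prop := ∀ n : ℕ, 3 ≤ n → ∃ C ε τ₀ : ℝ, 0 < C ∧ 0 < ε ∧ 0 < τ₀ ∧ ∀ s₁ s₂ : MF n,
  TS n 3 ε s₁ → TS n 3 ε s₂ → ∀ η τ : ℝ, 0 ≤ η → DB 3 η s₁ s₂ → τ₀ ≤ τ → τ * η ≤ ε →
  ∀ F₁ F₂ : VV n → ℝ, ContDiffOn ℝ ∞ F₁ (Un n) → ContDiffOn ℝ ∞ F₂ (Un n) →
  (∀ z ∈ Un n, Ly s₂ F₁ z = Lx s₁ F₂ z) →
  IntegrableOn (fun z => (rr z.1 ^ 4 * F₁ z ^ 2 + rr z.2 ^ 4 * F₂ z ^ 2) *
    Real.exp (-(2 * τ * (uu z - 1))) / (rr z.1 * rr z.2) ^ 2) (Un n) →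
  ∃ w : VV n → ℝ, ContDiffOn ℝ ∞ w (Un n) ∧ (∀ z ∈ Un n, Lx s₁ w z = F₁ z) ∧
    (∀ z ∈ Un n, Ly s₂ w z = F₂ z) ∧
    IntegrableOn (fun z => w z ^ 2 * Real.exp (-(2 * τ * (uu z - 1))) / (rr z.1 * rr z.2) ^ 2)
      (Un n) ∧
    ∫ z in Un n, w z ^ 2 * Real.exp (-(2 * τ * (uu z - 1))) / (rr z.1 * rr z.2) ^ 2 ≤
      C / τ * ∫ z in Un n, (rr z.1 ^ 4 * F₁ z ^ 2 + rr z.2 ^ 4 * F₂ z ^ 2) *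
        Real.exp (-(2 * τ * (uu z - 1))) / (rr z.1 * rr z.2) ^ 2

/-- (DIR) the Dirichlet problem on the unit ball. -/
def RowDIR : Prop := ∀ n : ℕ, 3 ≤ n → ∃ C ε : ℝ, 0 < C ∧ 0 < ε ∧ ∀ s : MF n, TS n 1 ε s →
  ∀ F : V n → ℝ, ContDiffOn ℝ ∞ F (Bn n) → IntegrableOn (fun x => F x ^ 2) (Bn n) →
  ∃ w : V n → ℝ, ContDiffOn ℝ ∞ w (Bn n) ∧ (∀ x ∈ Bn n, Lv s w x = F x) ∧
    IntegrableOn (fun x => w x ^ 2 / rr x ^ 2 + ∑ i, pd i w x ^ 2) (Bn n) ∧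
    ∫ x in Bn n, (w x ^ 2 / rr x ^ 2 + ∑ i, pd i w x ^ 2) ≤ C * ∫ x in Bn n, F x ^ 2

/-- (INV) uniform interior estimate, `V n`, all derivatives. -/
def RowINV : Prop := ∀ n L : ℕ, ∃ (K : ℕ) (C ε : ℝ), 0 < C ∧ 0 < ε ∧ ∀ a : MF n,
  (∀ i j, ContDiffOn ℝ ∞ (fun x => a x i j) (Metric.ball 0 2)) →
  (∀ i j, ∀ l ≤ K, ∀ x ∈ Metric.ball (0 : V n) 2, ‖iteratedFDeriv ℝ l
    (fun x => a x i j - (1 : Matrix (Fin n) (Fin n) ℝ) i j) x‖ ≤ ε) →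
  ∀ w F : V n → ℝ, ContDiffOn ℝ ∞ w (Metric.ball 0 2) → ContDiffOn ℝ ∞ F (Metric.ball 0 2) →
  (∀ x ∈ Metric.ball (0 : V n) 2, Lv a w x = F x) →
  IntegrableOn (fun x => w x ^ 2) (Metric.ball 0 2) →
  ∀ M : ℝ, (∀ l ≤ K, ∀ x ∈ Metric.ball (0 : V n) 2, ‖iteratedFDeriv ℝ l F x‖ ≤ M) →
  ∀ l ≤ L, ‖iteratedFDeriv ℝ l w 0‖ ≤ C * (√(∫ x in Metric.ball (0 : V n) 2, w x ^ 2) + M)

/-- (INP) uniform interior estimate on pairs at the scale `1/λ`. -/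
def RowINP : Prop := ∀ n : ℕ, ∃ (K : ℕ) (C ε : ℝ), 0 < C ∧ 0 < ε ∧ ∀ s₁ s₂ : MF n,
  SmM s₁ → SmM s₂ →
  (∀ i j, Cl K ε (fun x => s₁ x i j - (1 : Matrix (Fin n) (Fin n) ℝ) i j)) →
  (∀ i j, Cl K ε (fun x => s₂ x i j - (1 : Matrix (Fin n) (Fin n) ℝ) i j)) →
  ∀ (p : V n) (lam : ℝ), 1 ≤ lam → ∀ w F : VV n → ℝ,
  ContDiffOn ℝ ∞ w (Metric.ball (p, p) (2 / lam)) →
  ContDiffOn ℝ ∞ F (Metric.ball (p, p) (2 / lam)) →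
  (∀ z ∈ Metric.ball (p, p) (2 / lam), Lx s₁ w z + Ly s₂ w z = F z) →
  IntegrableOn (fun z => w z ^ 2) (Metric.ball (p, p) (2 / lam)) →
  ∀ M : ℝ, (∀ l ≤ K, ∀ z ∈ Metric.ball (p, p) (2 / lam), ‖iteratedFDeriv ℝ l F z‖ ≤ M * lam ^ l) →
  ∀ i j, |dx i (dy j w) (p, p)| ≤
    C * (lam ^ (n + 2) * √(∫ z in Metric.ball (p, p) (2 / lam), w z ^ 2) + M)

/-- `⟨s, h⟩ = ∑ s_ij h_ij`. -/
def ipm (s h : MF n) (x : V n) : ℝ := ∑ i, ∑ j, s x i j * h x i j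

/-- The part of `h` orthogonal to `s`. -/
def tfp (s h : MF n) : MF n := fun x => h x - (ipm s h x / ipm s s x) • s x

/-- (QM) the approximate solution. -/
def RowQM : Prop := ∀ n K₀ : ℕ, 3 ≤ n → ∃ (K : ℕ) (C ε τ₀ : ℝ), 0 < C ∧ 0 < ε ∧ 0 < τ₀ ∧
  ∀ s₁ s₂ : MF n, TS n K ε s₁ → TS n K ε s₂ → (∀ x ∉ Bs n (1 / 2), s₂ x = s₁ x) →
  ∀ H τ : ℝ, DB K H s₁ s₂ → τ₀ ≤ τ → ∃ k : VV n → ℝ, ContDiffOn ℝ ∞ k (Un n) ∧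
    IntegrableOn (fun z => (rr z.1 ^ 4 * Lx s₁ k z ^ 2 + rr z.2 ^ 4 * Ly s₂ k z ^ 2) *
      Real.exp (-(2 * τ * (uu z - 1))) / (rr z.1 * rr z.2) ^ 2) (Un n) ∧
    ∫ z in Un n, (rr z.1 ^ 4 * Lx s₁ k z ^ 2 + rr z.2 ^ 4 * Ly s₂ k z ^ 2) *
      Real.exp (-(2 * τ * (uu z - 1))) / (rr z.1 * rr z.2) ^ 2 ≤ C * H ^ 2 / √τ ^ (n + 4) ∧
    (∀ p ∈ Bs n (1 / 2), Metric.ball (p, p) (2 / √τ) ⊆ Un n ∧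
      ∀ l ≤ K₀, ∀ z ∈ Metric.ball (p, p) (2 / √τ),
        ‖iteratedFDeriv ℝ l (fun z => Lx s₁ k z + Ly s₂ k z) z‖ ≤ C * H / τ * √τ ^ l) ∧
    ∫ p in Bs n (1 / 2), ∑ i, ∑ j, (s₂ p i j - s₁ p i j) * dx i (dy j k) (p, p) =
      ∫ p in Bs n (1 / 2), ∑ i, ∑ j, (s₂ p i j - s₁ p i j) *
        tfp s₁ (fun x => s₂ x - s₁ x) p i j

/-- (ORT) the orthogonality identity for doubly harmonic functions. -/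
def RowORT : Prop := ∀ n : ℕ, ∃ (K : ℕ) (ε : ℝ), 0 < ε ∧ ∀ s₁ s₂ : MF n, TS n K ε s₁ →
  TS n K ε s₂ → ∀ Ω : Set (V n), IsOpen Ω → Ω ⊆ Bs n (1 / 2) → (∀ x ∉ Ω, s₂ x = s₁ x) →
  CF.St2 Ω s₁ s₂ → ∀ k : VV n → ℝ, ContDiffOn ℝ ∞ k (Un n) →
  (∀ z ∈ Un n, Lx s₁ k z = 0) → (∀ z ∈ Un n, Ly s₂ k z = 0) →
  ∫ p in Bs n (1 / 2), ∑ i, ∑ j, (s₂ p i j - s₁ p i j) * dx i (dy j k) (p, p) = 0

/-- (TFR) the trace is controlled by the trace free part. -/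
def RowTFR : Prop := ∀ n : ℕ, 3 ≤ n → ∃ C ε : ℝ, 0 < C ∧ 0 < ε ∧ ∀ s₁ s₂ : MF n, TS n 0 ε s₁ →
  TS n 0 ε s₂ → (∀ x ∉ Bs n (1 / 2), s₂ x = s₁ x) →
  ∫ p, ∑ i, ∑ j, (s₂ p i j - s₁ p i j) ^ 2 ≤
    C * ∫ p, ∑ i, ∑ j, (s₂ p i j - s₁ p i j) * tfp s₁ (fun x => s₂ x - s₁ x) p i j

/-- (ITP) interpolation. -/
def RowITP : Prop := ∀ n k : ℕ, ∃ (K : ℕ) (C : ℝ), 0 < C ∧ ∀ f : V n → ℝ, ContDiff ℝ ∞ f →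
  (∀ x ∉ Bn n, f x = 0) → ∀ B : ℝ, Cl K B f →
  Cl k (C * (∫ x, f x ^ 2) ^ (3 / 8 : ℝ) * B ^ (1 / 4 : ℝ)) f

/-- (CO2) rigidity of two divergence free tensors near `1`. -/
def RowCO2 : Prop := ∀ n : ℕ, 3 ≤ n → ∃ (K : ℕ) (ε : ℝ), 0 < ε ∧ ∀ s₁ s₂ : MF n, TS n K ε s₁ →
  TS n K ε s₂ → ∀ Ω : Set (V n), IsOpen Ω → Ω ⊆ Bs n (1 / 2) → (∀ x ∉ Ω, s₂ x = s₁ x) →
  CF.St2 Ω s₁ s₂ → ∀ x, s₂ x = s₁ x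

/-- The small ball `∑ (x_j - 1/2)² ≤ 1/64` is used as a container. -/
def bls (n : ℕ) : Set (V n) := {x | ∑ j, (x j - 1 / 2) ^ 2 ≤ 1 / 1024}

/-- (LOG) local rigidity of two general tensors near `1`. -/
def RowLOG : Prop := ∀ n : ℕ, 3 ≤ n → ∃ (k : ℕ) (ε : ℝ), 0 < ε ∧ ∀ (Ω : Set (V n)), IsOpen Ω →
  interior (closure Ω) = Ω → Ω ⊆ bls n → ∀ s₁ s₂ : MF n, SmM s₁ → SmM s₂ →
  (∀ x, (s₁ x).IsSymm) → (∀ x, (s₂ x).IsSymm) → (∀ x ∉ CF.bal n, s₁ x = 1) →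
  (∀ x ∉ Ω, s₂ x = s₁ x) →
  (∀ i j, Cl k ε (fun x => s₁ x i j - (1 : Matrix (Fin n) (Fin n) ℝ) i j)) →
  (∀ i j, Cl k ε (fun x => s₂ x i j - (1 : Matrix (Fin n) (Fin n) ℝ) i j)) →
  CF.St2 Ω s₁ s₂ → ∃ w K, Dif Ω w K ∧ ∀ x, psh s₂ w K x = s₁ x

/-! ## Dependencies (to be proved as theorems)

* `rowSOL : RowEST → RowTOP → RowHYP → RowSOL`
* `rowDIR : RowHYP → RowDIR`
* `rowQM : RowDIR → RowINV → RowQM`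
* `rowORT : RowHYP → RowINV → RowORT`
* `rowCO2 : RowSOL → RowINP → RowQM → RowORT → RowTFR → RowITP → RowCO2`
* `rowLOG : RowCO2 → (old rows G2, PHI, PU2, ...) → RowLOG`
-/

end Vale.Agent.P088.HY
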