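import Vale.Agent.P088.H442.Defs3

/-!
# P088, two metrics near the flat one: definitions for the `L²` method on the hyperbolic ball
-/

open MeasureTheory Set
open scoped ContDiff Matrix

noncomputable section

namespace Vale.Agent.P088.HY

open Vale.Agent.P088.LR

variable {n : ℕ}

/-- Pairs of points. -/
abbrev VV (n : ℕ) := V n × V n

/-- `∂_{x_i} f`. -/
def dx (i : Fin n) (f : VV n → ℝ) (z : VV n) : ℝ := fderiv ℝ f z (Pi.single i 1, 0)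

/-- `∂_{y_i} f`. -/
def dy (i : Fin n) (f : VV n → ℝ) (z : VV n) : ℝ := fderiv ℝ f z (0, Pi.single i 1)

/-- The square of the Euclidean length. -/
def sq (x : V n) : ℝ := ∑ j, x j ^ 2

/-- The open Euclidean ball of radius `ρ` about `0`. -/
def Bs (n : ℕ) (ρ : ℝ) : Set (V n) := {x | sq x < ρ ^ 2}

/-- The open unit ball. -/
def Bn (n : ℕ) : Set (V n) := {x | sq x < 1}

/-- Pairs of points of the unit ball. -/
def Un (n : ℕ) : Set (VV n) := Bn n ×ˢ Bn n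

/-- `r = (1 - |x|²) / 2`. -/
def rr (x : V n) : ℝ := (1 - sq x) / 2

/-- `cosh` of the hyperbolic distance. -/
def uu (z : VV n) : ℝ := 1 + sq (z.1 - z.2) / (2 * rr z.1 * rr z.2)

/-- `∑ s_ij(x) ∂_{x_i} ∂_{x_j} f`. -/
def Lx (s : MF n) (f : VV n → ℝ) (z : VV n) : ℝ := ∑ i, ∑ j, s z.1 i j * dx i (dx j f) z

/-- `∑ s_ij(y) ∂_{y_i} ∂_{y_j} f`. -/
def Ly (s : MF n) (f : VV n → ℝ) (z : VV n) : ℝ := ∑ i, ∑ j, s z.2 i j * dy i (dy j f) z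

/-- `∑ s_ij ∂_i ∂_j f`. -/
def Lv (s : MF n) (f : V n → ℝ) (x : V n) : ℝ := ∑ i, ∑ j, s x i j * pd i (pd j f) x

/-- Smooth symmetric tensors, `C^K`-near to `1`, divergence free on the unit ball. -/
structure TS (n K : ℕ) (ε : ℝ) (s : MF n) : Prop where
  sm : SmM s
  sy : ∀ x, (s x).IsSymm
  cl : ∀ i j, Cl K ε (fun x => s x i j - (1 : Matrix (Fin n) (Fin n) ℝ) i j)
  dv : ∀ x ∈ Bn n, ∀ j, ∑ i, pd i (fun y => s y i j) x = 0

/-- The difference is bounded with derivatives up to order `K`. -/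
def DB (K : ℕ) (η : ℝ) (s₁ s₂ : MF n) : Prop := ∀ i j, Cl K η (fun x => s₁ x i j - s₂ x i j)

/-! ## Frames on the hyperbolic ball (for the estimate) -/

/-- `A_i = r(x) ∂_{x_i}`. -/
def Ax (i : Fin n) (f : VV n → ℝ) (z : VV n) : ℝ := rr z.1 * dx i f z

/-- `B_i = r(y) ∂_{y_i}`. -/
def By (i : Fin n) (f : VV n → ℝ) (z : VV n) : ℝ := rr z.2 * dy i f z

/-- The hyperbolic volume `(r(x) r(y))^{-n}`. -/
def th (z : VV n) : ℝ := ((rr z.1 * rr z.2) ^ n)⁻¹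

/-- `α_i = A_i u`. -/
def al (i : Fin n) (z : VV n) : ℝ := Ax i uu z

/-- `β_i = B_i u`. -/
def be (i : Fin n) (z : VV n) : ℝ := By i uu z

/-- `m_ij = A_i B_j u`. -/
def mm (i j : Fin n) (z : VV n) : ℝ := Ax i (be j) z

/-- `(n - 2) / 2`. -/
def ga (n : ℕ) : ℝ := ((n : ℝ) - 2) / 2

/-- The potential `γ r tr s + γ (γ + 1) s(x, x)`. -/
def vp (s : MF n) (x : V n) : ℝ :=
  ga n * rr x * ∑ i, s x i i + ga n * (ga n + 1) * ∑ i, ∑ j, s x i j * x i * x j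

/-- `𝖣_x f = r^{γ+2} L r^{-γ} f`. -/
def Dxs (s : MF n) (f : VV n → ℝ) (z : VV n) : ℝ :=
  ∑ i, ∑ j, s z.1 i j * (Ax i (Ax j f) z + (n - 1) * z.1 i * Ax j f z) + vp s z.1 * f z

/-- `𝖣_y f`. -/
def Dys (s : MF n) (f : VV n → ℝ) (z : VV n) : ℝ :=
  ∑ i, ∑ j, s z.2 i j * (By i (By j f) z + (n - 1) * z.2 i * By j f z) + vp s z.2 * f z

/-- `κ_x = 𝖣_x u - v u`. -/
def kax (s : MF n) (z : VV n) : ℝ := Dxs s uu z - vp s z.1 * uu z

/-- `κ_y`. -/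
def kay (s : MF n) (z : VV n) : ℝ := Dys s uu z - vp s z.2 * uu z

/-- `K_x f = [𝖣_x, u] f`. -/
def Kxs (s : MF n) (f : VV n → ℝ) (z : VV n) : ℝ :=
  2 * (∑ i, ∑ j, s z.1 i j * al i z * Ax j f z) + kax s z * f z

/-- `K_y f = [𝖣_y, u] f`. -/
def Kys (s : MF n) (f : VV n → ℝ) (z : VV n) : ℝ :=
  2 * (∑ i, ∑ j, s z.2 i j * be i z * By j f z) + kay s z * f z

/-- `F_x = s(α, α)`. -/
def Fxs (s : MF n) (z : VV n) : ℝ := ∑ i, ∑ j, s z.1 i j * al i z * al j z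

/-- `F_y = s(β, β)`. -/
def Fys (s : MF n) (z : VV n) : ℝ := ∑ i, ∑ j, s z.2 i j * be i z * be j z

/-- `P = e^{-τu} 𝖣_x e^{τu}`; the adjoint is obtained with `-τ`. -/
def Px (s : MF n) (τ : ℝ) (f : VV n → ℝ) (z : VV n) : ℝ :=
  Dxs s f z + τ * Kxs s f z + τ ^ 2 * Fxs s z * f z

/-- `P = e^{-τu} 𝖣_y e^{τu}`. -/
def Py (s : MF n) (τ : ℝ) (f : VV n → ℝ) (z : VV n) : ℝ :=
  Dys s f z + τ * Kys s f z + τ ^ 2 * Fys s z * f z

/-- Test functions: smooth with compact support in `O`. -/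
def TF (O : Set (VV n)) (f : VV n → ℝ) : Prop :=
  ContDiff ℝ ∞ f ∧ HasCompactSupport f ∧ tsupport f ⊆ O

end Vale.Agent.P088.HY
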