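import Vale.Agent.P088.R2.H558.Defs

/-!
# P088, calculus on pairs of points of the ball
-/

open MeasureTheory Set Filter
open scoped ContDiff Matrix Topology

noncomputable section

namespace Vale.Agent.P088.HY

open Vale.Agent.P088.LR

variable {n : ℕ}

/-! ### Sets -/

lemma continuous_sq : Continuous (sq : V n → ℝ) := by
  unfold sq
  exact continuous_finsetSum _ fun j _ => (continuous_apply j).pow 2

lemma isOpen_Bn : IsOpen (Bn n) := isOpen_lt continuous_sq continuous_const

lemma isOpen_Un : IsOpen (Un n) := isOpen_Bn.prod isOpen_Bn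

lemma rr_pos {x : V n} (h : x ∈ Bn n) : 0 < rr x := by
  have : sq x < 1 := h
  unfold rr; linarith

lemma sq_nonneg' (x : V n) : 0 ≤ sq x := Finset.sum_nonneg fun j _ => by positivity

lemma rr_le (x : V n) : rr x ≤ 1 / 2 := by
  have := sq_nonneg' x
  unfold rr; linarith

lemma sq_eq (x : V n) : sq x = 1 - 2 * rr x := by unfold rr; ring

/-! ### Derivatives in a direction -/

/-- The derivative in the direction `e`. -/
def dd (e : VV n) (f : VV n → ℝ) (z : VV n) : ℝ := fderiv ℝ f z e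

lemma dx_eq (i : Fin n) (f : VV n → ℝ) : dx i f = dd (Pi.single i 1, 0) f := rfl

lemma dy_eq (i : Fin n) (f : VV n → ℝ) : dy i f = dd (0, Pi.single i 1) f := rfl

section dd

variable {e : VV n} {f g : VV n → ℝ} {z : VV n}

lemma dd_add (hf : DifferentiableAt ℝ f z) (hg : DifferentiableAt ℝ g z) :
    dd e (fun z => f z + g z) z = dd e f z + dd e g z := by
  unfold dd
  rw [show (fun z => f z + g z) = f + g from rfl, fderiv_add hf hg]
  rfl

lemma dd_sub (hf : DifferentiableAt ℝ f z) (hg : DifferentiableAt ℝ g z) :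
    dd e (fun z => f z - g z) z = dd e f z - dd e g z := by
  unfold dd
  rw [show (fun z => f z - g z) = f - g from rfl, fderiv_sub hf hg]
  rfl

lemma dd_mul (hf : DifferentiableAt ℝ f z) (hg : DifferentiableAt ℝ g z) :
    dd e (fun z => f z * g z) z = dd e f z * g z + f z * dd e g z := by
  unfold dd
  rw [show (fun z => f z * g z) = f * g from rfl, fderiv_mul hf hg]
  simp only [add_apply, smul_apply, smul_eq_mul]
  ring

lemma dd_const (c : ℝ) : dd e (fun _ => c) z = 0 := by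
  unfold dd
  rw [fderiv_fun_const]
  rfl

lemma dd_const_mul (c : ℝ) : dd e (fun z => c * f z) z = c * dd e f z := by
  unfold dd
  rw [show (fun z => c * f z) = c • f from rfl, fderiv_const_smul_field]
  rfl

lemma dd_neg : dd e (fun z => -f z) z = -dd e f z := by
  unfold dd
  rw [show (fun z => -f z) = -f from rfl, fderiv_neg]
  rfl

lemma dd_sum {ι : Type*} (t : Finset ι) {F : ι → VV n → ℝ}
    (h : ∀ i ∈ t, DifferentiableAt ℝ (F i) z) :
    dd e (fun z => ∑ i ∈ t, F i z) z = ∑ i ∈ t, dd e (F i) z := by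
  unfold dd
  rw [fderiv_fun_sum h]
  simp

lemma dd_inv (hf : DifferentiableAt ℝ f z) (h0 : f z ≠ 0) :
    dd e (fun z => (f z)⁻¹) z = -dd e f z / f z ^ 2 := by
  unfold dd
  have h := (hasDerivAt_inv h0).comp_hasFDerivAt z hf.hasFDerivAt
  have h2 : (fun z => (f z)⁻¹) = Inv.inv ∘ f := rfl
  rw [h2, h.fderiv]
  simp only [smul_apply, smul_eq_mul]
  field_simp

lemma dd_pow (hf : DifferentiableAt ℝ f z) (k : ℕ) :
    dd e (fun z => f z ^ k) z = k * f z ^ (k - 1) * dd e f z := by
  unfold dd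
  have h := (hasDerivAt_pow k (f z)).comp_hasFDerivAt z hf.hasFDerivAt
  have h2 : (fun z => f z ^ k) = (fun x : ℝ => x ^ k) ∘ f := rfl
  rw [h2, h.fderiv]
  simp only [smul_apply, smul_eq_mul]

lemma dd_comp {φ : ℝ → ℝ} {φ' : ℝ} (hφ : HasDerivAt φ φ' (f z)) (hf : DifferentiableAt ℝ f z) :
    dd e (fun z => φ (f z)) z = φ' * dd e f z := by
  unfold dd
  have h := hφ.comp_hasFDerivAt z hf.hasFDerivAt
  have h2 : (fun z => φ (f z)) = φ ∘ f := rfl
  rw [h2, h.fderiv]
  simp only [smul_apply, smul_eq_mul]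

lemma dd_congr (h : f =ᶠ[𝓝 z] g) : dd e f z = dd e g z := by
  unfold dd
  rw [h.fderiv_eq]

end dd

lemma dd_congrOn {O : Set (VV n)} (hO : IsOpen O) {f g : VV n → ℝ} (h : ∀ z ∈ O, f z = g z)
    {e : VV n} {z : VV n} (hz : z ∈ O) : dd e f z = dd e g z :=
  dd_congr (by filter_upwards [hO.mem_nhds hz] with w hw using h w hw)

/-- Smooth on `O`. -/
abbrev SO (O : Set (VV n)) (f : VV n → ℝ) : Prop := ContDiffOn ℝ ∞ f O

/-- Smooth on pairs of points of the ball. -/
abbrev SU (f : VV n → ℝ) : Prop := ContDiffOn ℝ ∞ f (Un n)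

lemma SO.dd {O : Set (VV n)} (hO : IsOpen O) {f : VV n → ℝ} (hf : SO O f) (e : VV n) :
    SO O (dd e f) := by
  have h : ContDiffOn ℝ ∞ (fderiv ℝ f) O := hf.fderiv_of_isOpen hO (by simp)
  exact h.clm_apply contDiffOn_const

lemma SO.at {O : Set (VV n)} (hO : IsOpen O) {f : VV n → ℝ} (hf : SO O f) {z : VV n}
    (hz : z ∈ O) : ContDiffAt ℝ ∞ f z := hf.contDiffAt (hO.mem_nhds hz)

lemma SO.diff {O : Set (VV n)} (hO : IsOpen O) {f : VV n → ℝ} (hf : SO O f) {z : VV n}
    (hz : z ∈ O) : DifferentiableAt ℝ f z := (hf.at hO hz).differentiableAt (by simp)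

lemma SU.d {f : VV n → ℝ} (hf : SU f) {z : VV n} (hz : z ∈ Un n) : DifferentiableAt ℝ f z :=
  SO.diff isOpen_Un hf hz

lemma SU.dx {f : VV n → ℝ} (hf : SU f) (i : Fin n) : SU (dx i f) := SO.dd isOpen_Un hf _

lemma SU.dy {f : VV n → ℝ} (hf : SU f) (i : Fin n) : SU (dy i f) := SO.dd isOpen_Un hf _

/-- Derivatives commute. -/
lemma dd_comm {f : VV n → ℝ} {z : VV n} (hf : ContDiffAt ℝ ∞ f z) (e e' : VV n) :
    dd e (dd e' f) z = dd e' (dd e f) z := by
  have h1 : DifferentiableAt ℝ (fderiv ℝ f) z := by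
    have h : ContDiffAt ℝ 1 (fderiv ℝ f) z := hf.fderiv_right (m := 1) (by
      rw [one_add_one_eq_two]; exact WithTop.coe_le_coe.2 le_top)
    exact h.differentiableAt (by simp)
  have h2 : ∀ a b : VV n, dd a (dd b f) z = fderiv ℝ (fderiv ℝ f) z a b := by
    intro a b
    unfold dd
    rw [fderiv_clm_apply h1 (differentiableAt_const _)]
    simp
  rw [h2, h2]
  have hs : IsSymmSndFDerivAt ℝ f z := hf.isSymmSndFDerivAt (by
    simp only [minSmoothness_of_isRCLikeNormedField]; exact WithTop.coe_le_coe.2 le_top)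
  exact hs.eq e e'

/-! ### Coordinates -/

lemma dd_fst (e : VV n) (j : Fin n) (z : VV n) : dd e (fun z => z.1 j) z = e.1 j := by
  unfold dd
  have h : (fun z : VV n => z.1 j) =
      ((ContinuousLinearMap.proj (R := ℝ) (φ := fun _ : Fin n => ℝ) j) ∘L
        (ContinuousLinearMap.fst ℝ (V n) (V n))) := rfl
  rw [h, ContinuousLinearMap.fderiv]
  rfl

lemma dd_snd (e : VV n) (j : Fin n) (z : VV n) : dd e (fun z => z.2 j) z = e.2 j := by
  unfold dd
  have h : (fun z : VV n => z.2 j) =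
      ((ContinuousLinearMap.proj (R := ℝ) (φ := fun _ : Fin n => ℝ) j) ∘L
        (ContinuousLinearMap.snd ℝ (V n) (V n))) := rfl
  rw [h, ContinuousLinearMap.fderiv]
  rfl

lemma contDiff_fst' (j : Fin n) : ContDiff ℝ ∞ (fun z : VV n => z.1 j) :=
  (contDiff_apply ℝ ℝ j).comp contDiff_fst

lemma contDiff_snd' (j : Fin n) : ContDiff ℝ ∞ (fun z : VV n => z.2 j) :=
  (contDiff_apply ℝ ℝ j).comp contDiff_snd

/-- A function of the first variable. -/
lemma dd_comp_fst {g : V n → ℝ} {z : VV n} (hg : DifferentiableAt ℝ g z.1) (e : VV n) :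
    dd e (fun z => g z.1) z = fderiv ℝ g z.1 e.1 := by
  unfold dd
  have h : (fun z : VV n => g z.1) = g ∘ Prod.fst := rfl
  rw [h, fderiv_comp z hg differentiableAt_fst, fderiv_fst]
  rfl

lemma dd_comp_snd {g : V n → ℝ} {z : VV n} (hg : DifferentiableAt ℝ g z.2) (e : VV n) :
    dd e (fun z => g z.2) z = fderiv ℝ g z.2 e.2 := by
  unfold dd
  have h : (fun z : VV n => g z.2) = g ∘ Prod.snd := rfl
  rw [h, fderiv_comp z hg differentiableAt_snd, fderiv_snd]
  rfl

lemma dx_comp_fst {g : V n → ℝ} {z : VV n} (hg : DifferentiableAt ℝ g z.1) (i : Fin n) :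
    dx i (fun z => g z.1) z = pd i g z.1 := dd_comp_fst hg _

lemma dy_comp_snd {g : V n → ℝ} {z : VV n} (hg : DifferentiableAt ℝ g z.2) (i : Fin n) :
    dy i (fun z => g z.2) z = pd i g z.2 := dd_comp_snd hg _

lemma dy_comp_fst (g : V n → ℝ) (z : VV n) (i : Fin n) : dy i (fun z => g z.1) z = 0 := by
  unfold dy
  by_cases h : DifferentiableAt ℝ (fun z : VV n => g z.1) z
  · have h1 : HasFDerivAt (fun t : ℝ => z + t • ((0 : V n), (Pi.single i 1 : V n)))
        ((ContinuousLinearMap.id ℝ ℝ).smulRight ((0 : V n), (Pi.single i 1 : V n))) 0 := by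
      exact (((ContinuousLinearMap.id ℝ ℝ).smulRight
        ((0 : V n), (Pi.single i 1 : V n))).hasFDerivAt (x := (0 : ℝ))).const_add z
    have h2 : HasFDerivAt (fun z : VV n => g z.1) (fderiv ℝ (fun z : VV n => g z.1) z)
        (z + (0 : ℝ) • ((0 : V n), (Pi.single i 1 : V n))) := by
      simpa using h.hasFDerivAt
    have h3 := h2.comp (0 : ℝ) h1
    have h4 : ((fun z : VV n => g z.1) ∘
        fun t : ℝ => z + t • ((0 : V n), (Pi.single i 1 : V n))) = fun _ => g z.1 := by
      funext t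
      simp
    rw [h4] at h3
    have h5 := h3.unique (hasFDerivAt_const (g z.1) (0 : ℝ))
    have h6 := congrArg (fun L : ℝ →L[ℝ] ℝ => L 1) h5
    simpa using h6
  · rw [fderiv_zero_of_not_differentiableAt h]
    rfl

lemma dx_comp_snd (g : V n → ℝ) (z : VV n) (i : Fin n) : dx i (fun z => g z.2) z = 0 := by
  unfold dx
  by_cases h : DifferentiableAt ℝ (fun z : VV n => g z.2) z
  · have h1 : HasFDerivAt (fun t : ℝ => z + t • ((Pi.single i 1 : V n), (0 : V n)))
        ((ContinuousLinearMap.id ℝ ℝ).smulRight ((Pi.single i 1 : V n), (0 : V n))) 0 := by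
      exact (((ContinuousLinearMap.id ℝ ℝ).smulRight
        ((Pi.single i 1 : V n), (0 : V n))).hasFDerivAt (x := (0 : ℝ))).const_add z
    have h2 : HasFDerivAt (fun z : VV n => g z.2) (fderiv ℝ (fun z : VV n => g z.2) z)
        (z + (0 : ℝ) • ((Pi.single i 1 : V n), (0 : V n))) := by
      simpa using h.hasFDerivAt
    have h3 := h2.comp (0 : ℝ) h1
    have h4 : ((fun z : VV n => g z.2) ∘
        fun t : ℝ => z + t • ((Pi.single i 1 : V n), (0 : V n))) = fun _ => g z.2 := by
      funext t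
      simp
    rw [h4] at h3
    have h5 := h3.unique (hasFDerivAt_const (g z.2) (0 : ℝ))
    have h6 := congrArg (fun L : ℝ →L[ℝ] ℝ => L 1) h5
    simpa using h6
  · rw [fderiv_zero_of_not_differentiableAt h]
    rfl

end Vale.Agent.P088.HY
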