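import Vale.Agent.P088.R2.H558.E9

/-!
# P088, the row (EID)
-/

open MeasureTheory Set Filter
open scoped ContDiff Matrix Topology

noncomputable section

namespace Vale.Agent.P088.HY

open Vale.Agent.P088.LR

variable {n : ℕ}

lemma Kxs_cmul (s : MF n) (c : ℝ) (f : VV n → ℝ) (z : VV n) :
    Kxs s (fun z => c * f z) z = c * Kxs s f z := by
  rw [Kxs_eq, Gax_cmul, Kxs_eq]; ring

lemma Kys_cmul (s : MF n) (c : ℝ) (f : VV n → ℝ) (z : VV n) :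
    Kys s (fun z => c * f z) z = c * Kys s f z := by
  rw [Kys_eq, Gay_cmul, Kys_eq]; ring

lemma X1Y1 (s₁ s₂ : MF n) (τ : ℝ) (c : VV n → ℝ) (z : VV n) :
    X1 s₁ τ (Y1 s₂ τ c) z = τ ^ 2 * Kxs s₁ (Kys s₂ c) z := by
  unfold X1 Y1
  rw [show (fun z => τ * Kys s₂ c z) = fun z => τ * (Kys s₂ c) z from rfl, Kxs_cmul]
  ring

lemma Y1X1 (s₁ s₂ : MF n) (τ : ℝ) (c : VV n → ℝ) (z : VV n) :
    Y1 s₂ τ (X1 s₁ τ c) z = τ ^ 2 * Kys s₂ (Kxs s₁ c) z := by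
  unfold X1 Y1
  rw [Kys_cmul]
  ring

/-- The mixed term. -/
lemma EE_qX {s₁ s₂ : MF n} (h1 : TD s₁) (h2 : TD s₂) (τ : ℝ) {b c : VV n → ℝ}
    (hb : TF (Un n) b) (hc : TF (Un n) c) :
    EE (qX s₁ s₂ τ b c) =
      EE (fun z => Y0 s₂ τ b z * X0 s₁ τ c z - X0 s₁ τ b z * Y0 s₂ τ c z)
      + EE (fun z => Y1 s₂ τ b z * X1 s₁ τ c z - X1 s₁ τ b z * Y1 s₂ τ c z)
      - EE (fun z => X0 s₁ τ b z * X1 s₁ τ c z + X1 s₁ τ b z * X0 s₁ τ c z)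
      + EE (fun z => Y0 s₂ τ b z * Y1 s₂ τ c z + Y1 s₂ τ b z * Y0 s₂ τ c z) := by
  have x0b := tf_X0 h1.sm τ hb
  have x1b := tf_X1 h1.sm τ hb
  have y0b := tf_Y0 h2.sm τ hb
  have y1b := tf_Y1 h2.sm τ hb
  have x0c := tf_X0 h1.sm τ hc
  have x1c := tf_X1 h1.sm τ hc
  have y0c := tf_Y0 h2.sm τ hc
  have y1c := tf_Y1 h2.sm τ hc
  have hbc := hb.mul hc
  -- part A
  have a1 := EE_Y0_symm h2 τ hb x0c
  have a2 := EE_X0_symm h1 τ hb y0c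
  have a3 := EE_Y1_anti h2 τ hb x1c
  have a4 := EE_X1_anti h1 τ hb y1c
  have t1 := hb.mul (tf_Y0 h2.sm τ x0c)
  have t2 := hb.mul (tf_X0 h1.sm τ y0c)
  have t3 := hb.mul (tf_Y1 h2.sm τ x1c)
  have t4 := hb.mul (tf_X1 h1.sm τ y1c)
  have a5 : EE (fun z => b z * Y0 s₂ τ (X0 s₁ τ c) z) - EE (fun z => b z * X0 s₁ τ (Y0 s₂ τ c) z) =
      EE (fun z => b z * X1 s₁ τ (Y1 s₂ τ c) z) - EE (fun z => b z * Y1 s₂ τ (X1 s₁ τ c) z) := by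
    rw [← EE_sub t1 t2, ← EE_sub t4 t3]
    refine EE_congr fun z hz => ?_
    have h := XY_comm h1 h2 τ hc.su hz
    have h' : Y0 s₂ τ (X0 s₁ τ c) z - X0 s₁ τ (Y0 s₂ τ c) z =
        X1 s₁ τ (Y1 s₂ τ c) z - Y1 s₂ τ (X1 s₁ τ c) z := by linarith
    calc b z * Y0 s₂ τ (X0 s₁ τ c) z - b z * X0 s₁ τ (Y0 s₂ τ c) z =
        b z * (Y0 s₂ τ (X0 s₁ τ c) z - X0 s₁ τ (Y0 s₂ τ c) z) := by ring
      _ = _ := by rw [h']; ring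
  have kk : TF (Un n) (fun z => b z * (Kxs s₁ (Kys s₂ c) z - Kys s₂ (Kxs s₁ c) z)) :=
    hb.mul ((tf_Kxs h1.sm (tf_Kys h2.sm hc)).sub (tf_Kys h2.sm (tf_Kxs h1.sm hc)))
  have a6 : EE (fun z => b z * X1 s₁ τ (Y1 s₂ τ c) z) -
      EE (fun z => b z * Y1 s₂ τ (X1 s₁ τ c) z) =
      τ ^ 2 * EE (fun z => b z * (Kxs s₁ (Kys s₂ c) z - Kys s₂ (Kxs s₁ c) z)) := by
    rw [← EE_sub t4 t3, ← EE_const_mul]
    refine EE_congr fun z _ => ?_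
    rw [X1Y1, Y1X1]
    ring
  have a7 : EE (fun z => Y0 s₂ τ b z * X0 s₁ τ c z - X0 s₁ τ b z * Y0 s₂ τ c z)
      + EE (fun z => Y1 s₂ τ b z * X1 s₁ τ c z - X1 s₁ τ b z * Y1 s₂ τ c z) =
      2 * τ ^ 2 * EE (fun z => b z * (Kxs s₁ (Kys s₂ c) z - Kys s₂ (Kxs s₁ c) z)) := by
    rw [EE_sub (y0b.mul x0c) (x0b.mul y0c), EE_sub (y1b.mul x1c) (x1b.mul y1c)]
    linarith
  -- part B
  have b1 := EE_XX h1 hb hc
  have b2 := EE_Kxs h1 hb hc (su_Fxs h1.sm)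
  have b3 := EE_YY h2 hb hc
  have b4 := EE_Kys h2 hb hc (su_Fys h2.sm)
  have kxb := tf_Kxs h1.sm hb
  have kxc := tf_Kxs h1.sm hc
  have kyb := tf_Kys h2.sm hb
  have kyc := tf_Kys h2.sm hc
  have u1 : TF (Un n) (fun z => Dxs s₁ b z * Kxs s₁ c z + Dxs s₁ c z * Kxs s₁ b z) :=
    ((tf_Dxs h1.sm hb).mul kxc).add ((tf_Dxs h1.sm hc).mul kxb)
  have u2 : TF (Un n) (fun z => Fxs s₁ z * (b z * Kxs s₁ c z + c z * Kxs s₁ b z)) :=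
    ((hb.mul kxc).add (hc.mul kxb)).smul (su_Fxs h1.sm)
  have u3 : TF (Un n) (fun z => Dys s₂ b z * Kys s₂ c z + Dys s₂ c z * Kys s₂ b z) :=
    ((tf_Dys h2.sm hb).mul kyc).add ((tf_Dys h2.sm hc).mul kyb)
  have u4 : TF (Un n) (fun z => Fys s₂ z * (b z * Kys s₂ c z + c z * Kys s₂ b z)) :=
    ((hb.mul kyc).add (hc.mul kyb)).smul (su_Fys h2.sm)
  have c1 : EE (fun z => X0 s₁ τ b z * X1 s₁ τ c z + X1 s₁ τ b z * X0 s₁ τ c z) =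
      τ * EE (fun z => Dxs s₁ b z * Kxs s₁ c z + Dxs s₁ c z * Kxs s₁ b z) +
      τ ^ 3 * EE (fun z => Fxs s₁ z * (b z * Kxs s₁ c z + c z * Kxs s₁ b z)) := by
    rw [← EE_const_mul, ← EE_const_mul, ← EE_add (u1.const_mul _) (u2.const_mul _)]
    exact EE_congr fun z _ => by unfold X0 X1; ring
  have c2 : EE (fun z => Y0 s₂ τ b z * Y1 s₂ τ c z + Y1 s₂ τ b z * Y0 s₂ τ c z) =
      τ * EE (fun z => Dys s₂ b z * Kys s₂ c z + Dys s₂ c z * Kys s₂ b z) +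
      τ ^ 3 * EE (fun z => Fys s₂ z * (b z * Kys s₂ c z + c z * Kys s₂ b z)) := by
    rw [← EE_const_mul, ← EE_const_mul, ← EE_add (u3.const_mul _) (u4.const_mul _)]
    exact EE_congr fun z _ => by unfold Y0 Y1; ring
  have R := EE_lc6 (g := qX s₁ s₂ τ b c) τ (-τ) (2 * τ ^ 3) (-(2 * τ ^ 3)) (2 * τ ^ 2) 0
    (F₁ := fun z => 2 * Gx s₁ b c z - L0x s₁ (kax s₁) z * (b z * c z) +
        2 * Gax s₁ uu (vx s₁) z * (b z * c z))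
    (F₂ := fun z => 2 * Gy s₂ b c z - L0y s₂ (kay s₂) z * (b z * c z) +
        2 * Gay s₂ uu (vy s₂) z * (b z * c z))
    (F₃ := fun z => Gax s₁ uu (Fxs s₁) z * (b z * c z))
    (F₄ := fun z => Gay s₂ uu (Fys s₂) z * (b z * c z))
    (F₅ := fun z => b z * (Kxs s₁ (Kys s₂ c) z - Kys s₂ (Kxs s₁ c) z))
    (F₆ := fun _ => 0)
    ((((tf_Gx h1.sm hb hc).const_mul 2).sub (hbc.smul (su_L0x h1.sm (su_kax h1.sm)))).add
      (hbc.smul (contDiffOn_const.mul (su_Gax h1.sm su_uu (su_vx h1.sm)))))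
    ((((tf_Gy h2.sm hb hc).const_mul 2).sub (hbc.smul (su_L0y h2.sm (su_kay h2.sm)))).add
      (hbc.smul (contDiffOn_const.mul (su_Gay h2.sm su_uu (su_vy h2.sm)))))
    (hbc.smul (su_Gax h1.sm su_uu (su_Fxs h1.sm))) (hbc.smul (su_Gay h2.sm su_uu (su_Fys h2.sm)))
    kk TF.zero
    (fun z _ => by unfold qX; ring)
  rw [R, c1, c2, b1, b2, b3, b4]
  linarith

/-- **(EID)** -/
theorem rowEID : RowEID := by
  intro n ε s₁ s₂ H1 H2 τ b c hb hc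
  have h1 := H1.td
  have h2 := H2.td
  have e1 := EE_qB h1 h2 τ hb
  have e2 := EE_qC h1 h2 τ hc
  have e3 := EE_qX h1 h2 τ hb hc
  have x0b := tf_X0 h1.sm τ hb
  have x1b := tf_X1 h1.sm τ hb
  have y0b := tf_Y0 h2.sm τ hb
  have y1b := tf_Y1 h2.sm τ hb
  have x0c := tf_X0 h1.sm τ hc
  have x1c := tf_X1 h1.sm τ hc
  have y0c := tf_Y0 h2.sm τ hc
  have y1c := tf_Y1 h2.sm τ hc
  have pxb := tf_Px h1.sm τ hb
  have pyb := tf_Py h2.sm τ hb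
  have pxc := tf_Px h1.sm τ hc
  have pyc := tf_Py h2.sm τ hc
  have L := EE_lc6 (g := fun z => (Px s₁ (-τ) (fun z => (b z + c z) / 2) z +
        Py s₂ (-τ) (fun z => (b z - c z) / 2) z) ^ 2 +
      (Py s₂ τ (fun z => (b z + c z) / 2) z - Px s₁ τ (fun z => (b z - c z) / 2) z) ^ 2)
    (1 / 4) (-1) (-1) 1 (-1) 1
    (F₁ := fun z => (Px s₁ τ b z + Py s₂ τ b z) ^ 2 + (Px s₁ τ b z - Py s₂ τ b z) ^ 2
      + (Px s₁ τ c z + Py s₂ τ c z) ^ 2 + (Px s₁ τ c z - Py s₂ τ c z) ^ 2)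
    (F₂ := fun z => (X0 s₁ τ b z + Y0 s₂ τ b z) * (X1 s₁ τ b z + Y1 s₂ τ b z))
    (F₃ := fun z => (X0 s₁ τ c z - Y0 s₂ τ c z) * (X1 s₁ τ c z - Y1 s₂ τ c z))
    (F₄ := fun z => (Y0 s₂ τ b z * X0 s₁ τ c z - X0 s₁ τ b z * Y0 s₂ τ c z) +
      (Y1 s₂ τ b z * X1 s₁ τ c z - X1 s₁ τ b z * Y1 s₂ τ c z))
    (F₅ := fun z => X0 s₁ τ b z * X1 s₁ τ c z + X1 s₁ τ b z * X0 s₁ τ c z)
    (F₆ := fun z => Y0 s₂ τ b z * Y1 s₂ τ c z + Y1 s₂ τ b z * Y0 s₂ τ c z)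
    ((((pxb.add pyb).pow2.add (pxb.sub pyb).pow2).add (pxc.add pyc).pow2).add
      (pxc.sub pyc).pow2)
    ((x0b.add y0b).mul (x1b.add y1b)) ((x0c.sub y0c).mul (x1c.sub y1c))
    (((y0b.mul x0c).sub (x0b.mul y0c)).add ((y1b.mul x1c).sub (x1b.mul y1c)))
    ((x0b.mul x1c).add (x1b.mul x0c)) ((y0b.mul y1c).add (y1b.mul y0c))
    (fun z hz => by
      have f1 : (fun z => (b z + c z) / 2) = fun z => 1 / 2 * b z + 1 / 2 * c z := by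
        funext w; ring
      have f2 : (fun z => (b z - c z) / 2) = fun z => 1 / 2 * b z + -(1 / 2) * c z := by
        funext w; ring
      simp only [f1, f2]
      rw [Px_lin s₁ hb.su hc.su _ _ hz, Py_lin s₂ hb.su hc.su _ _ hz,
        Py_lin s₂ hb.su hc.su _ _ hz, Px_lin s₁ hb.su hc.su _ _ hz]
      simp only [Px_neg, Py_neg]
      simp only [Px_eq, Py_eq]
      ring)
  have e4 : EE (fun z => (Y0 s₂ τ b z * X0 s₁ τ c z - X0 s₁ τ b z * Y0 s₂ τ c z) +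
      (Y1 s₂ τ b z * X1 s₁ τ c z - X1 s₁ τ b z * Y1 s₂ τ c z)) =
      EE (fun z => Y0 s₂ τ b z * X0 s₁ τ c z - X0 s₁ τ b z * Y0 s₂ τ c z)
      + EE (fun z => Y1 s₂ τ b z * X1 s₁ τ c z - X1 s₁ τ b z * Y1 s₂ τ c z) :=
    EE_add ((y0b.mul x0c).sub (x0b.mul y0c)) ((y1b.mul x1c).sub (x1b.mul y1c))
  unfold TT
  rw [L, e4, e1, e2, e3]
  ring

end Vale.Agent.P088.HY
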