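import Vale.Agent.P088.R2.H558.E1

/-!
# P088, the frames `A_i`, `B_i` and the geometry of `u`
-/

open MeasureTheory Set Filter
open scoped ContDiff Matrix Topology

noncomputable section

namespace Vale.Agent.P088.HY

open Vale.Agent.P088.LR

variable {n : ℕ}

/-- The derivation `ρ ∂_e`. -/
def Dr (ρ : VV n → ℝ) (e : VV n) (f : VV n → ℝ) (z : VV n) : ℝ := ρ z * dd e f z

section Dr

variable {ρ : VV n → ℝ} {e : VV n} {f g : VV n → ℝ} {z : VV n}

lemma Dr_add (hf : SU f) (hg : SU g) (hz : z ∈ Un n) :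
    Dr ρ e (fun z => f z + g z) z = Dr ρ e f z + Dr ρ e g z := by
  unfold Dr
  rw [dd_add (SU.d hf hz) (SU.d hg hz)]
  ring

lemma Dr_sub (hf : SU f) (hg : SU g) (hz : z ∈ Un n) :
    Dr ρ e (fun z => f z - g z) z = Dr ρ e f z - Dr ρ e g z := by
  unfold Dr
  rw [dd_sub (SU.d hf hz) (SU.d hg hz)]
  ring

lemma Dr_mul (hf : SU f) (hg : SU g) (hz : z ∈ Un n) :
    Dr ρ e (fun z => f z * g z) z = Dr ρ e f z * g z + f z * Dr ρ e g z := by
  unfold Dr
  rw [dd_mul (SU.d hf hz) (SU.d hg hz)]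
  ring

lemma Dr_const (c : ℝ) : Dr ρ e (fun _ => c) z = 0 := by
  unfold Dr
  rw [dd_const, mul_zero]

lemma Dr_cmul (c : ℝ) : Dr ρ e (fun z => c * f z) z = c * Dr ρ e f z := by
  unfold Dr
  rw [dd_const_mul]
  ring

lemma Dr_neg : Dr ρ e (fun z => -f z) z = -Dr ρ e f z := by
  unfold Dr
  rw [dd_neg]
  ring

lemma Dr_sum {ι : Type*} (t : Finset ι) {F : ι → VV n → ℝ}
    (h : ∀ i, SU (F i)) (hz : z ∈ Un n) :
    Dr ρ e (fun z => ∑ i ∈ t, F i z) z = ∑ i ∈ t, Dr ρ e (F i) z := by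
  unfold Dr
  rw [dd_sum t fun i _ => SU.d (h i) hz, Finset.mul_sum]

lemma Dr_pow (hf : SU f) (hz : z ∈ Un n) (k : ℕ) :
    Dr ρ e (fun z => f z ^ k) z = k * f z ^ (k - 1) * Dr ρ e f z := by
  unfold Dr
  rw [dd_pow (SU.d hf hz)]
  ring

lemma Dr_inv (hf : SU f) (hz : z ∈ Un n) (h0 : f z ≠ 0) :
    Dr ρ e (fun z => (f z)⁻¹) z = -Dr ρ e f z / f z ^ 2 := by
  unfold Dr
  rw [dd_inv (SU.d hf hz) h0]
  ring

lemma Dr_comp {φ : ℝ → ℝ} {φ' : ℝ} (hφ : HasDerivAt φ φ' (f z)) (hf : SU f) (hz : z ∈ Un n) :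
    Dr ρ e (fun z => φ (f z)) z = φ' * Dr ρ e f z := by
  unfold Dr
  rw [dd_comp hφ (SU.d hf hz)]
  ring

lemma Dr_congr (h : ∀ z ∈ Un n, f z = g z) (hz : z ∈ Un n) : Dr ρ e f z = Dr ρ e g z := by
  unfold Dr
  rw [dd_congrOn isOpen_Un h hz]

lemma SU.Dr (hρ : SU ρ) (hf : SU f) (e : VV n) : SU (Dr ρ e f) :=
  hρ.mul (SO.dd isOpen_Un hf e)

end Dr

/-- `r(x)`. -/
def r1 (z : VV n) : ℝ := rr z.1

/-- `r(y)`. -/
def r2 (z : VV n) : ℝ := rr z.2

lemma Ax_eq (i : Fin n) : (Ax i : (VV n → ℝ) → VV n → ℝ) = Dr r1 (Pi.single i 1, 0) := rfl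

lemma By_eq (i : Fin n) : (By i : (VV n → ℝ) → VV n → ℝ) = Dr r2 (0, Pi.single i 1) := rfl

lemma contDiff_sq : ContDiff ℝ ∞ (sq : V n → ℝ) := by
  unfold sq
  exact ContDiff.sum fun j _ => (contDiff_apply ℝ ℝ j).pow 2

lemma contDiff_rr : ContDiff ℝ ∞ (rr : V n → ℝ) := by
  unfold rr
  exact (contDiff_const.sub contDiff_sq).div_const 2

lemma contDiff_r1 : ContDiff ℝ ∞ (r1 : VV n → ℝ) := contDiff_rr.comp contDiff_fst

lemma contDiff_r2 : ContDiff ℝ ∞ (r2 : VV n → ℝ) := contDiff_rr.comp contDiff_snd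

lemma su_r1 : SU (r1 : VV n → ℝ) := contDiff_r1.contDiffOn

lemma su_r2 : SU (r2 : VV n → ℝ) := contDiff_r2.contDiffOn

lemma su_x (j : Fin n) : SU (fun z : VV n => z.1 j) := (contDiff_fst' j).contDiffOn

lemma su_y (j : Fin n) : SU (fun z : VV n => z.2 j) := (contDiff_snd' j).contDiffOn

lemma su_const (c : ℝ) : SU (fun _ : VV n => c) := contDiffOn_const

lemma r1_pos {z : VV n} (hz : z ∈ Un n) : 0 < r1 z := rr_pos hz.1

lemma r2_pos {z : VV n} (hz : z ∈ Un n) : 0 < r2 z := rr_pos hz.2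

lemma su_r1i : SU (fun z : VV n => (r1 z)⁻¹) := su_r1.inv fun _ hz => (r1_pos hz).ne'

lemma su_r2i : SU (fun z : VV n => (r2 z)⁻¹) := su_r2.inv fun _ hz => (r2_pos hz).ne'

/-- `|x - y|²`. -/
def qq (z : VV n) : ℝ := sq (z.1 - z.2)

lemma uu_eq (z : VV n) : uu z = 1 + 1 / 2 * (qq z * ((r1 z)⁻¹ * (r2 z)⁻¹)) := by
  unfold uu qq r1 r2
  rw [div_eq_mul_inv, mul_inv, mul_inv]
  ring

lemma contDiff_qq : ContDiff ℝ ∞ (qq : VV n → ℝ) :=
  contDiff_sq.comp (contDiff_fst.sub contDiff_snd)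

lemma su_uu : SU (uu : VV n → ℝ) := by
  have h : (uu : VV n → ℝ) = fun z => 1 + 1 / 2 * (qq z * ((r1 z)⁻¹ * (r2 z)⁻¹)) := by
    funext z; exact uu_eq z
  rw [h]
  exact contDiffOn_const.add (contDiffOn_const.mul
    (contDiff_qq.contDiffOn.mul (su_r1i.mul su_r2i)))

lemma su_Ax {f : VV n → ℝ} (hf : SU f) (i : Fin n) : SU (Ax i f) := SU.Dr su_r1 hf _

lemma su_By {f : VV n → ℝ} (hf : SU f) (i : Fin n) : SU (By i f) := SU.Dr su_r2 hf _

lemma su_al (i : Fin n) : SU (al i : VV n → ℝ) := su_Ax su_uu i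

lemma su_be (i : Fin n) : SU (be i : VV n → ℝ) := su_By su_uu i

lemma su_mm (i j : Fin n) : SU (mm i j : VV n → ℝ) := su_Ax (su_be j) i

/-! ### Derivatives of the coordinates -/

lemma dd_rr1 (e : VV n) (z : VV n) : dd e r1 z = -∑ j, z.1 j * e.1 j := by
  have h : (r1 : VV n → ℝ) = fun z => 1 / 2 + -(1 / 2) * ∑ j, z.1 j ^ 2 := by
    funext z; unfold r1 rr sq; ring
  rw [h, dd_add (differentiableAt_const _) (by
    apply DifferentiableAt.const_mul
    exact DifferentiableAt.fun_sum fun j _ =>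
      ((contDiff_fst' j).differentiable (by simp) z).pow 2), dd_const, dd_const_mul, dd_sum]
  · rw [zero_add, neg_mul, Finset.mul_sum]
    congr 1
    refine Finset.sum_congr rfl fun j _ => ?_
    rw [dd_pow ((contDiff_fst' j).differentiable (by simp) z), dd_fst]
    simp
    ring
  · intro j _
    exact ((contDiff_fst' j).differentiable (by simp) z).pow 2

lemma dd_rr2 (e : VV n) (z : VV n) : dd e r2 z = -∑ j, z.2 j * e.2 j := by
  have h : (r2 : VV n → ℝ) = fun z => 1 / 2 + -(1 / 2) * ∑ j, z.2 j ^ 2 := by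
    funext z; unfold r2 rr sq; ring
  rw [h, dd_add (differentiableAt_const _) (by
    apply DifferentiableAt.const_mul
    exact DifferentiableAt.fun_sum fun j _ =>
      ((contDiff_snd' j).differentiable (by simp) z).pow 2), dd_const, dd_const_mul, dd_sum]
  · rw [zero_add, neg_mul, Finset.mul_sum]
    congr 1
    refine Finset.sum_congr rfl fun j _ => ?_
    rw [dd_pow ((contDiff_snd' j).differentiable (by simp) z), dd_snd]
    simp
    ring
  · intro j _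
    exact ((contDiff_snd' j).differentiable (by simp) z).pow 2

lemma dd_qq (e : VV n) (z : VV n) :
    dd e qq z = 2 * ∑ j, (z.1 j - z.2 j) * (e.1 j - e.2 j) := by
  have h : (qq : VV n → ℝ) = fun z => ∑ j, (z.1 j - z.2 j) ^ 2 := by
    funext z; rfl
  have hd : ∀ j : Fin n, DifferentiableAt ℝ (fun z : VV n => z.1 j - z.2 j) z := fun j =>
    ((contDiff_fst' j).differentiable (by simp) z).sub
      ((contDiff_snd' j).differentiable (by simp) z)
  rw [h, dd_sum Finset.univ (F := fun j (z : VV n) => (z.1 j - z.2 j) ^ 2)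
    fun j _ => (hd j).pow 2, Finset.mul_sum]
  refine Finset.sum_congr rfl fun j _ => ?_
  rw [dd_pow (hd j), dd_sub ((contDiff_fst' j).differentiable (by simp) z)
    ((contDiff_snd' j).differentiable (by simp) z), dd_fst, dd_snd]
  simp
  ring

lemma sum_single_mul (i : Fin n) (f : Fin n → ℝ) :
    ∑ j, f j * (Pi.single i (1 : ℝ) : V n) j = f i := by
  rw [Finset.sum_eq_single i]
  · simp
  · intro j _ hj
    rw [Pi.single_eq_of_ne hj, mul_zero]
  · simp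

lemma Ax_r1 (i : Fin n) (z : VV n) : Ax i r1 z = -(r1 z * z.1 i) := by
  show rr z.1 * dd (Pi.single i 1, 0) r1 z = _
  rw [dd_rr1, sum_single_mul i fun j => z.1 j]
  unfold r1
  ring

lemma Ax_r2 (i : Fin n) (z : VV n) : Ax i r2 z = 0 := by
  show rr z.1 * dd (Pi.single i 1, 0) r2 z = _
  rw [dd_rr2]
  simp

lemma By_r2 (i : Fin n) (z : VV n) : By i r2 z = -(r2 z * z.2 i) := by
  show rr z.2 * dd (0, Pi.single i 1) r2 z = _
  rw [dd_rr2, sum_single_mul i fun j => z.2 j]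
  unfold r2
  ring

lemma By_r1 (i : Fin n) (z : VV n) : By i r1 z = 0 := by
  show rr z.2 * dd (0, Pi.single i 1) r1 z = _
  rw [dd_rr1]
  simp

lemma Ax_x (i j : Fin n) (z : VV n) : Ax i (fun z => z.1 j) z = if i = j then r1 z else 0 := by
  show rr z.1 * dd (Pi.single i 1, 0) (fun z => z.1 j) z = _
  rw [dd_fst]
  simp only [Pi.single_apply]
  by_cases h : i = j
  · simp [h, r1]
  · rw [if_neg h, if_neg (fun h' => h h'.symm), mul_zero]

lemma Ax_y (i j : Fin n) (z : VV n) : Ax i (fun z => z.2 j) z = 0 := by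
  show rr z.1 * dd (Pi.single i 1, 0) (fun z => z.2 j) z = _
  rw [dd_snd]
  simp

lemma By_y (i j : Fin n) (z : VV n) : By i (fun z => z.2 j) z = if i = j then r2 z else 0 := by
  show rr z.2 * dd (0, Pi.single i 1) (fun z => z.2 j) z = _
  rw [dd_snd]
  simp only [Pi.single_apply]
  by_cases h : i = j
  · simp [h, r2]
  · rw [if_neg h, if_neg (fun h' => h h'.symm), mul_zero]

lemma By_x (i j : Fin n) (z : VV n) : By i (fun z => z.1 j) z = 0 := by
  show rr z.2 * dd (0, Pi.single i 1) (fun z => z.1 j) z = _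
  rw [dd_fst]
  simp

lemma Ax_qq (i : Fin n) (z : VV n) : Ax i qq z = 2 * r1 z * (z.1 i - z.2 i) := by
  show rr z.1 * dd (Pi.single i 1, 0) qq z = _
  rw [dd_qq]
  simp only [Pi.zero_apply, sub_zero]
  rw [sum_single_mul i fun j => z.1 j - z.2 j]
  unfold r1
  ring

lemma By_qq (i : Fin n) (z : VV n) : By i qq z = -(2 * r2 z * (z.1 i - z.2 i)) := by
  show rr z.2 * dd (0, Pi.single i 1) qq z = _
  rw [dd_qq]
  simp only [Pi.zero_apply, zero_sub, mul_neg, Finset.sum_neg_distrib]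
  rw [sum_single_mul i fun j => z.1 j - z.2 j]
  unfold r2
  ring

lemma al_eq {z : VV n} (hz : z ∈ Un n) (i : Fin n) :
    al i z = (z.1 i - z.2 i) * (r2 z)⁻¹ + (uu z - 1) * z.1 i := by
  have h1 := r1_pos hz
  have h2 := r2_pos hz
  have hu : (uu : VV n → ℝ) = fun z => 1 + 1 / 2 * (qq z * ((r1 z)⁻¹ * (r2 z)⁻¹)) := by
    funext z; exact uu_eq z
  have hq : SU (qq : VV n → ℝ) := contDiff_qq.contDiffOn
  have e1 : al i z = 1 / 2 * (Ax i qq z * ((r1 z)⁻¹ * (r2 z)⁻¹) +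
      qq z * ((-Ax i r1 z / r1 z ^ 2) * (r2 z)⁻¹ + (r1 z)⁻¹ * (-Ax i r2 z / r2 z ^ 2))) := by
    unfold al
    rw [hu, Ax_eq, Dr_add (su_const 1) (contDiffOn_const.mul (hq.mul (su_r1i.mul su_r2i))) hz,
      Dr_const, Dr_cmul, Dr_mul hq (su_r1i.mul su_r2i) hz, Dr_mul su_r1i su_r2i hz,
      Dr_inv su_r1 hz h1.ne', Dr_inv su_r2 hz h2.ne', zero_add]
  rw [e1, Ax_qq, Ax_r1, Ax_r2, uu_eq]
  field_simp
  ring

lemma be_eq {z : VV n} (hz : z ∈ Un n) (i : Fin n) :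
    be i z = (z.2 i - z.1 i) * (r1 z)⁻¹ + (uu z - 1) * z.2 i := by
  have h1 := r1_pos hz
  have h2 := r2_pos hz
  have hu : (uu : VV n → ℝ) = fun z => 1 + 1 / 2 * (qq z * ((r1 z)⁻¹ * (r2 z)⁻¹)) := by
    funext z; exact uu_eq z
  have hq : SU (qq : VV n → ℝ) := contDiff_qq.contDiffOn
  have e1 : be i z = 1 / 2 * (By i qq z * ((r1 z)⁻¹ * (r2 z)⁻¹) +
      qq z * ((-By i r1 z / r1 z ^ 2) * (r2 z)⁻¹ + (r1 z)⁻¹ * (-By i r2 z / r2 z ^ 2))) := by
    unfold be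
    rw [hu, By_eq, Dr_add (su_const 1) (contDiffOn_const.mul (hq.mul (su_r1i.mul su_r2i))) hz,
      Dr_const, Dr_cmul, Dr_mul hq (su_r1i.mul su_r2i) hz, Dr_mul su_r1i su_r2i hz,
      Dr_inv su_r1 hz h1.ne', Dr_inv su_r2 hz h2.ne', zero_add]
  rw [e1, By_qq, By_r1, By_r2, uu_eq]
  field_simp
  ring

end Vale.Agent.P088.HY
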