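import Vale.Agent.P088.R2.H558.Est

/-!
# P088, test functions on pairs of points of the ball, integration by parts, swap
-/

open MeasureTheory Set Filter
open scoped ContDiff Matrix Topology

noncomputable section

namespace Vale.Agent.P088.HY

open Vale.Agent.P088.LR

variable {n : ℕ}

/-! ### Test functions -/

lemma TF.su {f : VV n → ℝ} (h : TF (Un n) f) : SU f := h.1.contDiffOn

lemma TF.zero_off {f : VV n → ℝ} (h : TF (Un n) f) {z : VV n} (hz : z ∉ Un n) : f z = 0 :=
  image_eq_zero_of_notMem_tsupport fun h' => hz (h.2.2 h')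

/-- Smooth on `Un`, zero off a compact part of `Un`, gives a test function. -/
lemma TF.of_su {f g : VV n → ℝ} (hf : TF (Un n) f) (hg : SU g) (h : ∀ z ∉ tsupport f, g z = 0) :
    TF (Un n) g := by
  have hs : tsupport g ⊆ tsupport f := by
    refine closure_minimal ?_ (isClosed_tsupport f)
    intro z hz
    by_contra hc
    exact hz (h z hc)
  refine ⟨?_, ?_, hs.trans hf.2.2⟩
  · rw [contDiff_iff_contDiffAt]
    intro z
    by_cases hz : z ∈ Un n
    · exact hg.contDiffAt (isOpen_Un.mem_nhds hz)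
    · have hz' : z ∈ (tsupport f)ᶜ := fun h' => hz (hf.2.2 h')
      have he : g =ᶠ[𝓝 z] fun _ => 0 := by
        filter_upwards [(isClosed_tsupport f).isOpen_compl.mem_nhds hz'] with w hw
        exact h w hw
      exact contDiffAt_const.congr_of_eventuallyEq he
  · exact hf.2.1.of_isClosed_subset (isClosed_tsupport g) hs

lemma eq_zero_of_notMem {f : VV n → ℝ} {z : VV n} (h : z ∉ tsupport f) : f z = 0 :=
  image_eq_zero_of_notMem_tsupport h

lemma TF.smul {f g : VV n → ℝ} (hf : TF (Un n) f) (hg : SU g) :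
    TF (Un n) (fun z => g z * f z) :=
  hf.of_su (hg.mul hf.su) fun z hz => by rw [eq_zero_of_notMem hz, mul_zero]

lemma TF.mul_su {f g : VV n → ℝ} (hf : TF (Un n) f) (hg : SU g) :
    TF (Un n) (fun z => f z * g z) :=
  hf.of_su (hf.su.mul hg) fun z hz => by rw [eq_zero_of_notMem hz, zero_mul]

lemma TF.const_mul {f : VV n → ℝ} (hf : TF (Un n) f) (c : ℝ) :
    TF (Un n) (fun z => c * f z) := hf.smul (su_const c)

lemma TF.mul {f g : VV n → ℝ} (hf : TF (Un n) f) (hg : TF (Un n) g) :
    TF (Un n) (fun z => f z * g z) := hf.mul_su hg.su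

lemma TF.pow2 {f : VV n → ℝ} (hf : TF (Un n) f) : TF (Un n) (fun z => f z ^ 2) := by
  have h := hf.mul hf
  simpa only [pow_two] using h

lemma TF.zero : TF (Un n) (fun _ : VV n => (0 : ℝ)) := by
  refine ⟨contDiff_const, ?_, ?_⟩
  · exact HasCompactSupport.zero
  · have : tsupport (fun _ : VV n => (0 : ℝ)) = ∅ := tsupport_eq_empty_iff.2 rfl
    rw [this]
    exact empty_subset _

lemma TF.add {f g : VV n → ℝ} (hf : TF (Un n) f) (hg : TF (Un n) g) :
    TF (Un n) (fun z => f z + g z) :=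
  ⟨hf.1.add hg.1, hf.2.1.add hg.2.1, (tsupport_add f g).trans (union_subset hf.2.2 hg.2.2)⟩

lemma TF.neg {f : VV n → ℝ} (hf : TF (Un n) f) : TF (Un n) (fun z => -f z) := by
  simpa using hf.const_mul (-1)

lemma TF.sub {f g : VV n → ℝ} (hf : TF (Un n) f) (hg : TF (Un n) g) :
    TF (Un n) (fun z => f z - g z) := by
  simpa only [sub_eq_add_neg] using hf.add hg.neg

lemma TF.sum {ι : Type*} (t : Finset ι) {F : ι → VV n → ℝ} (h : ∀ i, TF (Un n) (F i)) :
    TF (Un n) (fun z => ∑ i ∈ t, F i z) := by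
  classical
  induction t using Finset.induction_on with
  | empty => simpa using TF.zero
  | insert a t ha ih =>
    simp only [Finset.sum_insert ha]
    exact (h a).add ih

lemma TF.Dr {ρ : VV n → ℝ} (hρ : SU ρ) {f : VV n → ℝ} (hf : TF (Un n) f) (e : VV n) :
    TF (Un n) (Dr ρ e f) :=
  hf.of_su (SU.Dr hρ hf.su e) fun z hz => by
    have h : f =ᶠ[𝓝 z] fun _ => 0 := by
      filter_upwards [(isClosed_tsupport f).isOpen_compl.mem_nhds hz] with w hw
      exact eq_zero_of_notMem hw
    unfold HY.Dr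
    rw [dd_congr h, dd_const, mul_zero]

lemma TF.Ax {f : VV n → ℝ} (hf : TF (Un n) f) (i : Fin n) : TF (Un n) (Ax i f) :=
  TF.Dr su_r1 hf _

lemma TF.By {f : VV n → ℝ} (hf : TF (Un n) f) (i : Fin n) : TF (Un n) (By i f) :=
  TF.Dr su_r2 hf _

/-! ### The integral `EE` -/

lemma su_th : SU (th : VV n → ℝ) := by
  have h : SU (fun z : VV n => (r1 z * r2 z) ^ n) := (su_r1.mul su_r2).pow n
  exact h.inv fun z hz => (pow_pos (mul_pos (r1_pos hz) (r2_pos hz)) n).ne'

lemma th_pos {z : VV n} (hz : z ∈ Un n) : 0 < th z :=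
  inv_pos.2 (pow_pos (mul_pos (r1_pos hz) (r2_pos hz)) n)

lemma TF.integrable {f : VV n → ℝ} (hf : TF (Un n) f) : Integrable f :=
  hf.1.continuous.integrable_of_hasCompactSupport hf.2.1

lemma TF.ion {f : VV n → ℝ} (hf : TF (Un n) f) :
    IntegrableOn (fun z => th z * f z) (Un n) := (hf.smul su_th).integrable.integrableOn

lemma EE_eq {f : VV n → ℝ} (hf : TF (Un n) f) : EE f = ∫ z, th z * f z := by
  unfold EE
  refine setIntegral_eq_integral_of_forall_compl_eq_zero fun z hz => ?_
  rw [hf.zero_off hz, mul_zero]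

lemma measurableSet_Un : MeasurableSet (Un n) := isOpen_Un.measurableSet

lemma EE_congr {f g : VV n → ℝ} (h : ∀ z ∈ Un n, f z = g z) : EE f = EE g :=
  setIntegral_congr_fun measurableSet_Un fun z hz => by
    show th z * f z = th z * g z
    rw [h z hz]

lemma EE_add {f g : VV n → ℝ} (hf : TF (Un n) f) (hg : TF (Un n) g) :
    EE (fun z => f z + g z) = EE f + EE g := by
  unfold EE
  rw [← integral_add hf.ion hg.ion]
  refine integral_congr_ae (ae_of_all _ fun z => ?_)
  show th z * (f z + g z) = th z * f z + th z * g z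
  ring

lemma EE_sub {f g : VV n → ℝ} (hf : TF (Un n) f) (hg : TF (Un n) g) :
    EE (fun z => f z - g z) = EE f - EE g := by
  unfold EE
  rw [← integral_sub hf.ion hg.ion]
  refine integral_congr_ae (ae_of_all _ fun z => ?_)
  show th z * (f z - g z) = th z * f z - th z * g z
  ring

lemma EE_const_mul (c : ℝ) (f : VV n → ℝ) : EE (fun z => c * f z) = c * EE f := by
  unfold EE
  rw [← integral_const_mul]
  refine integral_congr_ae (ae_of_all _ fun z => ?_)
  show th z * (c * f z) = c * (th z * f z)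
  ring

lemma EE_neg (f : VV n → ℝ) : EE (fun z => -f z) = -EE f := by
  have h := EE_const_mul (-1) f
  simpa using h

lemma EE_sum {ι : Type*} (t : Finset ι) {F : ι → VV n → ℝ} (h : ∀ i, TF (Un n) (F i)) :
    EE (fun z => ∑ i ∈ t, F i z) = ∑ i ∈ t, EE (F i) := by
  classical
  induction t using Finset.induction_on with
  | empty => simp [EE]
  | insert a t ha ih =>
    simp only [Finset.sum_insert ha]
    rw [EE_add (h a) (TF.sum t h), ih]

lemma EE_mono {f g : VV n → ℝ} (hf : TF (Un n) f) (hg : TF (Un n) g)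
    (h : ∀ z ∈ Un n, f z ≤ g z) : EE f ≤ EE g :=
  setIntegral_mono_on hf.ion hg.ion measurableSet_Un fun z hz =>
    mul_le_mul_of_nonneg_left (h z hz) (th_pos hz).le

lemma EE_nonneg {f : VV n → ℝ} (h : ∀ z ∈ Un n, 0 ≤ f z) : 0 ≤ EE f :=
  setIntegral_nonneg measurableSet_Un fun z hz => mul_nonneg (th_pos hz).le (h z hz)

/-! ### Integration by parts -/

lemma haar_VV : (volume : Measure (VV n)).IsAddHaarMeasure :=
  Measure.prod.instIsAddHaarMeasure _ _

lemma integral_dd {f : VV n → ℝ} (hf : ContDiff ℝ ∞ f) (hc : HasCompactSupport f) (e : VV n) :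
    ∫ z, dd e f z = 0 := by
  have := haar_VV (n := n)
  have h1 : Continuous (fun z => fderiv ℝ f z e) :=
    (hf.continuous_fderiv (by simp)).clm_apply continuous_const
  have h2 : HasCompactSupport (fun z => fderiv ℝ f z e) := hc.fderiv_apply (𝕜 := ℝ) e
  have h3 := integral_mul_fderiv_eq_neg_fderiv_mul_of_integrable (𝕜 := ℝ) (f := fun _ : VV n => 1)
    (g := f) (v := e) (μ := (volume : Measure (VV n))) (by simp)
    (by simpa using h1.integrable_of_hasCompactSupport h2)
    (by simpa using hf.continuous.integrable_of_hasCompactSupport hc)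
    (by intro x _; exact differentiableAt_const _)
    (by intro x _; exact hf.differentiable (by simp) x)
  simpa [dd] using h3

lemma Ax_th {z : VV n} (hz : z ∈ Un n) (i : Fin n) :
    Ax i th z = n * z.1 i * th z := by
  have h1 := r1_pos hz
  have h2 := r2_pos hz
  have h3 : (th : VV n → ℝ) = fun z => ((r1 z * r2 z) ^ n)⁻¹ := rfl
  have h4 : (r1 z * r2 z) ^ n ≠ 0 := (pow_pos (mul_pos h1 h2) n).ne'
  rcases Nat.eq_zero_or_pos n with h0 | h0
  · exact absurd i.2 (by omega)
  have h5 : (r1 z * r2 z) ^ n = (r1 z * r2 z) ^ (n - 1) * (r1 z * r2 z) := by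
    rw [← pow_succ]; congr 1; omega
  rw [h3, Ax_eq, Dr_inv ((su_r1.mul su_r2).pow n) hz h4, Dr_pow (su_r1.mul su_r2) hz,
    Dr_mul su_r1 su_r2 hz, ← Ax_eq, Ax_r1, Ax_r2]
  show _ = n * z.1 i * ((r1 z * r2 z) ^ n)⁻¹
  rw [div_eq_iff (pow_ne_zero 2 h4)]
  have h6 : ((r1 z * r2 z) ^ n)⁻¹ * ((r1 z * r2 z) ^ n) ^ 2 = (r1 z * r2 z) ^ n := by
    field_simp
  rw [mul_assoc (_ * _) _ _, h6, h5]
  ring

lemma By_th {z : VV n} (hz : z ∈ Un n) (i : Fin n) :
    By i th z = n * z.2 i * th z := by
  have h1 := r1_pos hz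
  have h2 := r2_pos hz
  have h3 : (th : VV n → ℝ) = fun z => ((r1 z * r2 z) ^ n)⁻¹ := rfl
  have h4 : (r1 z * r2 z) ^ n ≠ 0 := (pow_pos (mul_pos h1 h2) n).ne'
  rcases Nat.eq_zero_or_pos n with h0 | h0
  · exact absurd i.2 (by omega)
  have h5 : (r1 z * r2 z) ^ n = (r1 z * r2 z) ^ (n - 1) * (r1 z * r2 z) := by
    rw [← pow_succ]; congr 1; omega
  rw [h3, By_eq, Dr_inv ((su_r1.mul su_r2).pow n) hz h4, Dr_pow (su_r1.mul su_r2) hz,
    Dr_mul su_r1 su_r2 hz, ← By_eq, By_r1, By_r2]
  show _ = n * z.2 i * ((r1 z * r2 z) ^ n)⁻¹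
  rw [div_eq_iff (pow_ne_zero 2 h4)]
  have h6 : ((r1 z * r2 z) ^ n)⁻¹ * ((r1 z * r2 z) ^ n) ^ 2 = (r1 z * r2 z) ^ n := by
    field_simp
  rw [mul_assoc (_ * _) _ _, h6, h5]
  ring

/-- Integration by parts, `x`-frame. -/
lemma EE_Ax {f : VV n → ℝ} (hf : TF (Un n) f) (i : Fin n) :
    EE (Ax i f) = -((n - 1) * EE (fun z => z.1 i * f z)) := by
  have hg : TF (Un n) (fun z => (th z * r1 z) * f z) := hf.smul (su_th.mul su_r1)
  have h0 := integral_dd hg.1 hg.2.1 (Pi.single i 1, 0)
  have h1 : ∀ z, dd (Pi.single i 1, 0) (fun z => (th z * r1 z) * f z) z =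
      th z * (Ax i f z + (n - 1) * (z.1 i * f z)) := by
    intro z
    by_cases hz : z ∈ Un n
    · have e0 : r1 z * dd (Pi.single i 1, 0) (fun z => (th z * r1 z) * f z) z =
          Ax i (fun z => (th z * r1 z) * f z) z := rfl
      have e1 : Ax i (fun z => (th z * r1 z) * f z) z =
          (Ax i th z * r1 z + th z * Ax i r1 z) * f z + th z * r1 z * Ax i f z := by
        rw [Ax_eq, Dr_mul (su_th.mul su_r1) hf.su hz, Dr_mul su_th su_r1 hz]
      rw [e1, Ax_th hz, Ax_r1] at e0
      have h := (r1_pos hz).ne'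
      refine mul_left_cancel₀ h (e0.trans ?_)
      ring
    · have hz' : z ∉ tsupport f := fun h' => hz (hf.2.2 h')
      have he : (fun z => (th z * r1 z) * f z) =ᶠ[𝓝 z] fun _ => 0 := by
        filter_upwards [(isClosed_tsupport f).isOpen_compl.mem_nhds hz'] with w hw
        rw [eq_zero_of_notMem hw, mul_zero]
      rw [dd_congr he, dd_const, (hf.Ax i).zero_off hz, hf.zero_off hz]
      ring
  simp only [h1] at h0
  have h2 : EE (fun z => Ax i f z + (n - 1) * (z.1 i * f z)) = 0 := by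
    rw [EE_eq ((hf.Ax i).add ((hf.smul (su_x i)).const_mul _))]
    exact h0
  rw [EE_add (hf.Ax i) ((hf.smul (su_x i)).const_mul _), EE_const_mul] at h2
  have h3 : EE (fun z => Ax i f z) = EE (Ax i f) := rfl
  rw [h3] at h2
  linarith

/-- Integration by parts, `y`-frame. -/
lemma EE_By {f : VV n → ℝ} (hf : TF (Un n) f) (i : Fin n) :
    EE (By i f) = -((n - 1) * EE (fun z => z.2 i * f z)) := by
  have hg : TF (Un n) (fun z => (th z * r2 z) * f z) := hf.smul (su_th.mul su_r2)
  have h0 := integral_dd hg.1 hg.2.1 (0, Pi.single i 1)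
  have h1 : ∀ z, dd (0, Pi.single i 1) (fun z => (th z * r2 z) * f z) z =
      th z * (By i f z + (n - 1) * (z.2 i * f z)) := by
    intro z
    by_cases hz : z ∈ Un n
    · have e0 : r2 z * dd (0, Pi.single i 1) (fun z => (th z * r2 z) * f z) z =
          By i (fun z => (th z * r2 z) * f z) z := rfl
      have e1 : By i (fun z => (th z * r2 z) * f z) z =
          (By i th z * r2 z + th z * By i r2 z) * f z + th z * r2 z * By i f z := by
        rw [By_eq, Dr_mul (su_th.mul su_r2) hf.su hz, Dr_mul su_th su_r2 hz]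
      rw [e1, By_th hz, By_r2] at e0
      have h := (r2_pos hz).ne'
      refine mul_left_cancel₀ h (e0.trans ?_)
      ring
    · have hz' : z ∉ tsupport f := fun h' => hz (hf.2.2 h')
      have he : (fun z => (th z * r2 z) * f z) =ᶠ[𝓝 z] fun _ => 0 := by
        filter_upwards [(isClosed_tsupport f).isOpen_compl.mem_nhds hz'] with w hw
        rw [eq_zero_of_notMem hw, mul_zero]
      rw [dd_congr he, dd_const, (hf.By i).zero_off hz, hf.zero_off hz]
      ring
  simp only [h1] at h0
  have h2 : EE (fun z => By i f z + (n - 1) * (z.2 i * f z)) = 0 := by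
    rw [EE_eq ((hf.By i).add ((hf.smul (su_y i)).const_mul _))]
    exact h0
  rw [EE_add (hf.By i) ((hf.smul (su_y i)).const_mul _), EE_const_mul] at h2
  have h3 : EE (fun z => By i f z) = EE (By i f) := rfl
  rw [h3] at h2
  linarith

/-- Integration by parts for products. -/
lemma EE_Ax_mul {f g : VV n → ℝ} (hf : TF (Un n) f) (hg : SU g) (i : Fin n) :
    EE (fun z => Ax i f z * g z) =
      -EE (fun z => f z * (Ax i g z + (n - 1) * (z.1 i * g z))) := by
  have h1 := EE_Ax (hf.mul_su hg) i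
  have h2 : EE (Ax i (fun z => f z * g z)) =
      EE (fun z => Ax i f z * g z + f z * Ax i g z) :=
    EE_congr fun z hz => by rw [Ax_eq]; exact Dr_mul hf.su hg hz
  rw [h2, EE_add ((hf.Ax i).mul_su hg) (hf.mul_su (su_Ax hg i))] at h1
  have h3 : EE (fun z => f z * (Ax i g z + (n - 1) * (z.1 i * g z))) =
      EE (fun z => f z * Ax i g z) + (n - 1) * EE (fun z => z.1 i * (f z * g z)) := by
    rw [← EE_const_mul, ← EE_add (hf.mul_su (su_Ax hg i))
      (((hf.mul_su hg).smul (su_x i)).const_mul _)]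
    exact EE_congr fun z _ => by ring
  rw [h3]
  linarith

/-- Integration by parts for products. -/
lemma EE_By_mul {f g : VV n → ℝ} (hf : TF (Un n) f) (hg : SU g) (i : Fin n) :
    EE (fun z => By i f z * g z) =
      -EE (fun z => f z * (By i g z + (n - 1) * (z.2 i * g z))) := by
  have h1 := EE_By (hf.mul_su hg) i
  have h2 : EE (By i (fun z => f z * g z)) =
      EE (fun z => By i f z * g z + f z * By i g z) :=
    EE_congr fun z hz => by rw [By_eq]; exact Dr_mul hf.su hg hz
  rw [h2, EE_add ((hf.By i).mul_su hg) (hf.mul_su (su_By hg i))] at h1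
  have h3 : EE (fun z => f z * (By i g z + (n - 1) * (z.2 i * g z))) =
      EE (fun z => f z * By i g z) + (n - 1) * EE (fun z => z.2 i * (f z * g z)) := by
    rw [← EE_const_mul, ← EE_add (hf.mul_su (su_By hg i))
      (((hf.mul_su hg).smul (su_y i)).const_mul _)]
    exact EE_congr fun z _ => by ring
  rw [h3]
  linarith

end Vale.Agent.P088.HY
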