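import Vale.Agent.P088.R2.H558.E4

/-!
# P088, the energy identities
-/

open MeasureTheory Set Filter
open scoped ContDiff Matrix Topology

noncomputable section

namespace Vale.Agent.P088.HY

open Vale.Agent.P088.LR

variable {n : ℕ}

/-- Smooth, symmetric, divergence free on the ball. -/
structure TD (s : MF n) : Prop where
  sm : SmM s
  sy : ∀ x, (s x).IsSymm
  dv : ∀ x ∈ Bn n, ∀ j, ∑ i, pd i (fun y => s y i j) x = 0

lemma TS.td {K : ℕ} {ε : ℝ} {s : MF n} (h : TS n K ε s) : TD s := ⟨h.sm, h.sy, h.dv⟩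

lemma contDiffOn_sum {ι : Type*} (t : Finset ι) {F : ι → VV n → ℝ} (h : ∀ i, SU (F i)) :
    SU (fun z => ∑ i ∈ t, F i z) := ContDiffOn.sum fun i _ => h i


/-! ### The first factor -/

/-- The entries as functions of `z`. -/
def sx (s : MF n) (i j : Fin n) (z : VV n) : ℝ := s z.1 i j

lemma su_sx {s : MF n} (h : SmM s) (i j : Fin n) : SU (sx s i j) :=
  ((h i j).comp contDiff_fst).contDiffOn

lemma Ax_sx {s : MF n} (h : SmM s) (i j k : Fin n) (z : VV n) :
    Ax k (sx s i j) z = r1 z * pd k (fun x => s x i j) z.1 := by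
  show rr z.1 * dx k (fun z : VV n => s z.1 i j) z = _
  rw [dx_comp_fst (g := fun x => s x i j) ((h i j).differentiable (by simp) _)]
  rfl

lemma By_sx (s : MF n) (i j k : Fin n) (z : VV n) : By k (sx s i j) z = 0 := by
  show rr z.2 * dy k (fun z : VV n => s z.1 i j) z = _
  rw [dy_comp_fst (fun x => s x i j), mul_zero]

lemma Gax_eq (s : MF n) (f h : VV n → ℝ) :
    Gax s f h = fun z => ∑ i, ∑ j, sx s i j z * Ax i f z * Ax j h z := rfl

lemma L0x_eq (s : MF n) (f : VV n → ℝ) :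
    L0x s f = fun z => ∑ i, ∑ j, sx s i j z * (Ax i (Ax j f) z + (n - 1) * z.1 i * Ax j f z) :=
  rfl

lemma su_Gax {s : MF n} (hs : SmM s) {f h : VV n → ℝ} (hf : SU f) (hh : SU h) :
    SU (Gax s f h) :=
  contDiffOn_sum _ fun i => contDiffOn_sum _ fun j =>
    ((su_sx hs i j).mul (su_Ax hf i)).mul (su_Ax hh j)

lemma tf_Gax {s : MF n} (hs : SmM s) {f h : VV n → ℝ} (hf : SU f) (hh : TF (Un n) h) :
    TF (Un n) (Gax s f h) :=
  TF.sum _ fun i => TF.sum _ fun j => (hh.Ax j).smul ((su_sx hs i j).mul (su_Ax hf i))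

lemma Gax_comm {s : MF n} (hs : ∀ x, (s x).IsSymm) (f h : VV n → ℝ) (z : VV n) :
    Gax s f h z = Gax s h f z := by
  unfold Gax
  rw [Finset.sum_comm]
  refine Finset.sum_congr rfl fun i _ => Finset.sum_congr rfl fun j _ => ?_
  rw [(hs z.1).apply i j]
  ring

lemma tf_Gax' {s : MF n} (hs : SmM s) {f h : VV n → ℝ} (hf : TF (Un n) f) (hh : SU h) :
    TF (Un n) (Gax s f h) :=
  TF.sum _ fun i => TF.sum _ fun j =>
    TF.mul_su ((hf.Ax i).smul (su_sx hs i j)) (su_Ax hh j)

lemma su_L0x {s : MF n} (hs : SmM s) {f : VV n → ℝ} (hf : SU f) : SU (L0x s f) :=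
  contDiffOn_sum _ fun i => contDiffOn_sum _ fun j => (su_sx hs i j).mul
    ((su_Ax (su_Ax hf j) i).add ((contDiffOn_const.mul (su_x i)).mul (su_Ax hf j)))

lemma tf_L0x {s : MF n} (hs : SmM s) {f : VV n → ℝ} (hf : TF (Un n) f) :
    TF (Un n) (L0x s f) :=
  TF.sum _ fun i => TF.sum _ fun j => TF.smul (((hf.Ax j).Ax i).add
    ((hf.Ax j).smul (contDiffOn_const.mul (su_x i)))) (su_sx hs i j)

/-- The divergence vanishes. -/
lemma div_sx {s : MF n} (hs : TD s) {z : VV n} (hz : z ∈ Un n) (j : Fin n) :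
    ∑ i, Ax i (sx s i j) z = 0 := by
  simp only [Ax_sx hs.sm]
  rw [← Finset.mul_sum, hs.dv z.1 hz.1 j, mul_zero]

/-- The energy identity. -/
lemma EE_L0x {s : MF n} (hs : TD s) {f h : VV n → ℝ} (hf : SU f) (hh : TF (Un n) h) :
    EE (fun z => L0x s f z * h z) = -EE (Gax s f h) := by
  have hF : ∀ i, TF (Un n) (fun z => (∑ j, sx s i j z * Ax j f z) * h z) := fun i =>
    hh.smul (contDiffOn_sum _ fun j => (su_sx hs.sm i j).mul (su_Ax hf j))
  have h1 : ∑ i, EE (fun z => Ax i (fun z => (∑ j, sx s i j z * Ax j f z) * h z) z +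
      (n - 1) * (z.1 i * ((∑ j, sx s i j z * Ax j f z) * h z))) = 0 := by
    refine Finset.sum_eq_zero fun i _ => ?_
    rw [EE_add ((hF i).Ax i) (((hF i).smul (su_x i)).const_mul _), EE_const_mul, EE_Ax (hF i)]
    ring
  rw [← EE_sum _ fun i => ((hF i).Ax i).add (((hF i).smul (su_x i)).const_mul _)] at h1
  have h2 : EE (fun z => ∑ i, (Ax i (fun z => (∑ j, sx s i j z * Ax j f z) * h z) z +
      (n - 1) * (z.1 i * ((∑ j, sx s i j z * Ax j f z) * h z)))) =
      EE (fun z => L0x s f z * h z + Gax s f h z) := by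
    refine EE_congr fun z hz => ?_
    have e1 : ∀ i, Ax i (fun z => (∑ j, sx s i j z * Ax j f z) * h z) z =
        (∑ j, (Ax i (sx s i j) z * Ax j f z + sx s i j z * Ax i (Ax j f) z)) * h z +
          (∑ j, sx s i j z * Ax j f z) * Ax i h z := by
      intro i
      rw [Ax_eq, Dr_mul (contDiffOn_sum _ fun j => (su_sx hs.sm i j).mul (su_Ax hf j)) hh.su hz,
        Dr_sum _ (fun j => (su_sx hs.sm i j).mul (su_Ax hf j)) hz]
      congr 2
      exact Finset.sum_congr rfl fun j _ => Dr_mul (su_sx hs.sm i j) (su_Ax hf j) hz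
    have e2 : ∑ i, ∑ j, Ax i (sx s i j) z * Ax j f z = 0 := by
      rw [Finset.sum_comm]
      refine Finset.sum_eq_zero fun j _ => ?_
      rw [← Finset.sum_mul, div_sx hs hz, zero_mul]
    have e3 : ∀ i, (∑ j, (Ax i (sx s i j) z * Ax j f z + sx s i j z * Ax i (Ax j f) z)) * h z +
          (∑ j, sx s i j z * Ax j f z) * Ax i h z +
        (n - 1) * (z.1 i * ((∑ j, sx s i j z * Ax j f z) * h z)) =
        (∑ j, Ax i (sx s i j) z * Ax j f z) * h z +
        (∑ j, sx s i j z * (Ax i (Ax j f) z + (n - 1) * z.1 i * Ax j f z)) * h z +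
        ∑ j, sx s i j z * Ax i h z * Ax j f z := by
      intro i
      simp only [Finset.sum_mul, Finset.mul_sum, ← Finset.sum_add_distrib]
      refine Finset.sum_congr rfl fun j _ => ?_
      ring
    have e4 := fun i => (congrArg (fun t => t + (n - 1) *
      (z.1 i * ((∑ j, sx s i j z * Ax j f z) * h z))) (e1 i)).trans (e3 i)
    refine (Finset.sum_congr rfl fun i _ => e4 i).trans ?_
    rw [Finset.sum_add_distrib, Finset.sum_add_distrib, ← Finset.sum_mul, ← Finset.sum_mul,
      e2, zero_mul, zero_add, Gax_comm hs.sy f h]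
    rfl
  rw [h2, EE_add ((hh.smul (su_L0x hs.sm hf))) (tf_Gax hs.sm hf hh)] at h1
  have e4 : EE (fun z => Gax s f h z) = EE (Gax s f h) := rfl
  linarith

lemma Gax_mul (s : MF n) {f g h : VV n → ℝ} (hf : SU f) (hg : SU g) {z : VV n}
    (hz : z ∈ Un n) :
    Gax s h (fun z => f z * g z) z = f z * Gax s h g z + g z * Gax s h f z := by
  unfold Gax
  simp only [Finset.mul_sum, ← Finset.sum_add_distrib]
  refine Finset.sum_congr rfl fun i _ => Finset.sum_congr rfl fun j _ => ?_
  have e : Ax j (fun z => f z * g z) z = Ax j f z * g z + f z * Ax j g z := by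
    rw [Ax_eq]; exact Dr_mul hf hg hz
  rw [e]
  ring

lemma Gax_add (s : MF n) {f g h : VV n → ℝ} (hf : SU f) (hg : SU g) {z : VV n}
    (hz : z ∈ Un n) :
    Gax s h (fun z => f z + g z) z = Gax s h f z + Gax s h g z := by
  unfold Gax
  simp only [← Finset.sum_add_distrib]
  refine Finset.sum_congr rfl fun i _ => Finset.sum_congr rfl fun j _ => ?_
  have e : Ax j (fun z => f z + g z) z = Ax j f z + Ax j g z := by
    rw [Ax_eq]; exact Dr_add hf hg hz
  rw [e]
  ring

lemma Gax_sub (s : MF n) {f g h : VV n → ℝ} (hf : SU f) (hg : SU g) {z : VV n}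
    (hz : z ∈ Un n) :
    Gax s h (fun z => f z - g z) z = Gax s h f z - Gax s h g z := by
  unfold Gax
  simp only [← Finset.sum_sub_distrib]
  refine Finset.sum_congr rfl fun i _ => Finset.sum_congr rfl fun j _ => ?_
  have e : Ax j (fun z => f z - g z) z = Ax j f z - Ax j g z := by
    rw [Ax_eq]; exact Dr_sub hf hg hz
  rw [e]
  ring

lemma Gax_cmul (s : MF n) (c : ℝ) (f h : VV n → ℝ) (z : VV n) :
    Gax s h (fun z => c * f z) z = c * Gax s h f z := by
  unfold Gax
  simp only [Finset.mul_sum]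
  refine Finset.sum_congr rfl fun i _ => Finset.sum_congr rfl fun j _ => ?_
  have e : Ax j (fun z => c * f z) z = c * Ax j f z := by
    rw [Ax_eq]; exact Dr_cmul c
  rw [e]
  ring

lemma kax_eq (s : MF n) : kax s = L0x s uu := by
  funext z
  show L0x s uu z + vp s z.1 * uu z - vp s z.1 * uu z = _
  ring

lemma Kxs_eq (s : MF n) (f : VV n → ℝ) (z : VV n) :
    Kxs s f z = 2 * Gax s uu f z + L0x s uu z * f z := by
  rw [← kax_eq]; rfl

lemma Dxs_eq (s : MF n) (f : VV n → ℝ) (z : VV n) :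
    Dxs s f z = L0x s f z + vx s z * f z := rfl

lemma Fxs_eq (s : MF n) : Fxs s = Gax s uu uu := rfl

lemma contDiff_vp {s : MF n} (hs : SmM s) : ContDiff ℝ ∞ (vp s) := by
  unfold vp
  refine ContDiff.add ?_ ?_
  · exact (contDiff_const.mul contDiff_rr).mul (ContDiff.sum fun i _ => hs i i)
  · exact contDiff_const.mul (ContDiff.sum fun i _ => ContDiff.sum fun j _ =>
      ((hs i j).mul (contDiff_apply ℝ ℝ i)).mul (contDiff_apply ℝ ℝ j))

lemma su_vx {s : MF n} (hs : SmM s) : SU (vx s) :=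
  ((contDiff_vp hs).comp contDiff_fst).contDiffOn

lemma su_kax {s : MF n} (hs : SmM s) : SU (kax s) := by
  rw [kax_eq]; exact su_L0x hs su_uu

lemma su_Fxs {s : MF n} (hs : SmM s) : SU (Fxs s) := su_Gax hs su_uu su_uu

lemma tf_Kxs {s : MF n} (hs : SmM s) {f : VV n → ℝ} (hf : TF (Un n) f) :
    TF (Un n) (Kxs s f) := by
  have h : Kxs s f = fun z => 2 * Gax s uu f z + L0x s uu z * f z := by
    funext z; exact Kxs_eq s f z
  rw [h]
  exact ((tf_Gax hs su_uu hf).const_mul 2).add (hf.smul (su_L0x hs su_uu))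

lemma su_Kxs {s : MF n} (hs : SmM s) {f : VV n → ℝ} (hf : SU f) : SU (Kxs s f) := by
  have h : Kxs s f = fun z => 2 * Gax s uu f z + L0x s uu z * f z := by
    funext z; exact Kxs_eq s f z
  rw [h]
  exact (contDiffOn_const.mul (su_Gax hs su_uu hf)).add ((su_L0x hs su_uu).mul hf)

lemma tf_Dxs {s : MF n} (hs : SmM s) {f : VV n → ℝ} (hf : TF (Un n) f) :
    TF (Un n) (Dxs s f) := (tf_L0x hs hf).add (hf.smul (su_vx hs))

lemma su_Dxs {s : MF n} (hs : SmM s) {f : VV n → ℝ} (hf : SU f) :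
    SU (Dxs s f) := (su_L0x hs hf).add ((su_vx hs).mul hf)

/-- `K` is antisymmetric, with a weight. -/
lemma EE_Kxs {s : MF n} (hs : TD s) {f h φ : VV n → ℝ} (hf : TF (Un n) f) (hh : TF (Un n) h)
    (hφ : SU φ) :
    EE (fun z => φ z * (f z * Kxs s h z + h z * Kxs s f z)) =
      -2 * EE (fun z => Gax s uu φ z * (f z * h z)) := by
  have h1 := EE_L0x hs su_uu ((hf.mul hh).smul hφ)
  have h2 : EE (Gax s uu (fun z => φ z * (f z * h z))) =
      EE (fun z => φ z * (f z * Gax s uu h z + h z * Gax s uu f z) +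
        Gax s uu φ z * (f z * h z)) := by
    refine EE_congr fun z hz => ?_
    rw [Gax_mul s hφ (hf.su.mul hh.su) hz, Gax_mul s hf.su hh.su hz]
    ring
  have h3 : EE (fun z => φ z * (f z * Kxs s h z + h z * Kxs s f z)) =
      2 * EE (fun z => φ z * (f z * Gax s uu h z + h z * Gax s uu f z)) +
      2 * EE (fun z => L0x s uu z * (φ z * (f z * h z))) := by
    rw [← EE_const_mul, ← EE_const_mul, ← EE_add]
    · refine EE_congr fun z _ => ?_
      rw [Kxs_eq, Kxs_eq]
      ring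
    · exact ((((tf_Gax hs.sm su_uu hh).smul hf.su).add
        ((tf_Gax hs.sm su_uu hf).smul hh.su)).smul hφ).const_mul 2
    · exact (((hf.mul hh).smul hφ).smul (su_L0x hs.sm su_uu)).const_mul 2
  rw [h2, EE_add (((((tf_Gax hs.sm su_uu hh).smul hf.su).add
        ((tf_Gax hs.sm su_uu hf).smul hh.su)).smul hφ))
      ((hf.mul hh).smul (su_Gax hs.sm su_uu hφ))] at h1
  rw [h3, h1]
  ring

/-- The commutator `[𝖣_x, K_x]` as a form. -/
lemma EE_XX {s : MF n} (hs : TD s) {f h : VV n → ℝ} (hf : TF (Un n) f) (hh : TF (Un n) h) :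
    EE (fun z => Dxs s f z * Kxs s h z + Dxs s h z * Kxs s f z) =
      -EE (fun z => 2 * Gx s f h z - L0x s (kax s) z * (f z * h z) +
        2 * Gax s uu (vx s) z * (f z * h z)) := by
  have a1 := EE_L0x hs hf.su (tf_Gax hs.sm su_uu hh)
  have a2 := EE_L0x hs hh.su (tf_Gax hs.sm su_uu hf)
  have hk := su_kax hs.sm
  have a3 := EE_L0x hs hf.su (hh.smul hk)
  have a4 := EE_L0x hs hh.su (hf.smul hk)
  have a5 := EE_L0x hs su_uu (tf_Gax hs.sm hf.su hh)
  have a6 := EE_L0x hs hk (hf.mul hh)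
  have a7 := EE_Kxs hs hf hh (su_vx hs.sm)
  have b3 : EE (Gax s f (fun z => kax s z * h z)) =
      EE (fun z => L0x s uu z * Gax s f h z) + EE (fun z => h z * Gax s f (kax s) z) := by
    rw [← EE_add ((tf_Gax hs.sm hf.su hh).smul (su_L0x hs.sm su_uu))
      (hh.mul_su (su_Gax hs.sm hf.su hk))]
    refine EE_congr fun z hz => ?_
    rw [Gax_mul s hk hh.su hz, kax_eq]
  have b4 : EE (Gax s h (fun z => kax s z * f z)) =
      EE (fun z => L0x s uu z * Gax s f h z) + EE (fun z => f z * Gax s h (kax s) z) := by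
    rw [← EE_add ((tf_Gax hs.sm hf.su hh).smul (su_L0x hs.sm su_uu))
      (hf.mul_su (su_Gax hs.sm hh.su hk))]
    refine EE_congr fun z hz => ?_
    rw [Gax_mul s hk hf.su hz, kax_eq, Gax_comm hs.sy f h]
  have b6 : EE (Gax s (kax s) (fun z => f z * h z)) =
      EE (fun z => h z * Gax s f (kax s) z) + EE (fun z => f z * Gax s h (kax s) z) := by
    rw [← EE_add (hh.mul_su (su_Gax hs.sm hf.su hk)) (hf.mul_su (su_Gax hs.sm hh.su hk))]
    refine EE_congr fun z hz => ?_
    rw [Gax_mul s hf.su hh.su hz, Gax_comm hs.sy f (kax s), Gax_comm hs.sy h (kax s)]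
    ring
  have t1 : TF (Un n) (fun z => L0x s f z * Gax s uu h z) :=
    (tf_Gax hs.sm su_uu hh).smul (su_L0x hs.sm hf.su)
  have t2 : TF (Un n) (fun z => L0x s h z * Gax s uu f z) :=
    (tf_Gax hs.sm su_uu hf).smul (su_L0x hs.sm hh.su)
  have t3 : TF (Un n) (fun z => L0x s f z * (kax s z * h z)) :=
    (hh.smul hk).smul (su_L0x hs.sm hf.su)
  have t4 : TF (Un n) (fun z => L0x s h z * (kax s z * f z)) :=
    (hf.smul hk).smul (su_L0x hs.sm hh.su)
  have t7 : TF (Un n) (fun z => vx s z * (f z * Kxs s h z + h z * Kxs s f z)) :=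
    (((tf_Kxs hs.sm hh).smul hf.su).add ((tf_Kxs hs.sm hf).smul hh.su)).smul (su_vx hs.sm)
  have l1 : EE (fun z => Dxs s f z * Kxs s h z + Dxs s h z * Kxs s f z) =
      2 * EE (fun z => L0x s f z * Gax s uu h z) + 2 * EE (fun z => L0x s h z * Gax s uu f z)
      + EE (fun z => L0x s f z * (kax s z * h z)) + EE (fun z => L0x s h z * (kax s z * f z))
      + EE (fun z => vx s z * (f z * Kxs s h z + h z * Kxs s f z)) := by
    rw [← EE_const_mul, ← EE_const_mul, ← EE_add (t1.const_mul 2) (t2.const_mul 2),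
      ← EE_add ((t1.const_mul 2).add (t2.const_mul 2)) t3,
      ← EE_add (((t1.const_mul 2).add (t2.const_mul 2)).add t3) t4,
      ← EE_add ((((t1.const_mul 2).add (t2.const_mul 2)).add t3).add t4) t7]
    refine EE_congr fun z _ => ?_
    rw [Dxs_eq, Dxs_eq, Kxs_eq, Kxs_eq, kax_eq]
    ring
  have g1 : TF (Un n) (Gax s f (Gax s uu h)) := tf_Gax' hs.sm hf (su_Gax hs.sm su_uu hh.su)
  have g2 : TF (Un n) (Gax s h (Gax s uu f)) := tf_Gax' hs.sm hh (su_Gax hs.sm su_uu hf.su)
  have g3 : TF (Un n) (Gax s uu (Gax s f h)) := tf_Gax hs.sm su_uu (tf_Gax hs.sm hf.su hh)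
  have g4 : TF (Un n) (fun z => L0x s (kax s) z * (f z * h z)) :=
    (hf.mul hh).smul (su_L0x hs.sm hk)
  have g5 : TF (Un n) (fun z => Gax s uu (vx s) z * (f z * h z)) :=
    (hf.mul hh).smul (su_Gax hs.sm su_uu (su_vx hs.sm))
  have l2 : EE (fun z => 2 * Gx s f h z - L0x s (kax s) z * (f z * h z) +
        2 * Gax s uu (vx s) z * (f z * h z)) =
      2 * EE (Gax s f (Gax s uu h)) + 2 * EE (Gax s h (Gax s uu f))
      - 2 * EE (Gax s uu (Gax s f h)) - EE (fun z => L0x s (kax s) z * (f z * h z))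
      + 2 * EE (fun z => Gax s uu (vx s) z * (f z * h z)) := by
    rw [← EE_const_mul, ← EE_const_mul, ← EE_const_mul, ← EE_const_mul,
      ← EE_add (g1.const_mul 2) (g2.const_mul 2),
      ← EE_sub ((g1.const_mul 2).add (g2.const_mul 2)) (g3.const_mul 2),
      ← EE_sub (((g1.const_mul 2).add (g2.const_mul 2)).sub (g3.const_mul 2)) g4,
      ← EE_add ((((g1.const_mul 2).add (g2.const_mul 2)).sub (g3.const_mul 2)).sub g4)
        (g5.const_mul 2)]
    refine EE_congr fun z _ => ?_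
    unfold Gx
    ring
  have l3 : EE (fun z => h z * Gax s f (kax s) z) + EE (fun z => f z * Gax s h (kax s) z) =
      -EE (fun z => L0x s (kax s) z * (f z * h z)) := by
    rw [← b6]; linarith
  rw [l1, l2, a7, a1, a2, a3, a4, b3, b4]
  have l4 : EE (fun z => L0x s uu z * Gax s f h z) = -EE (Gax s uu (Gax s f h)) := a5
  linarith

/-! ### The second factor -/

/-- The entries as functions of `z`, second factor. -/
def sy (s : MF n) (i j : Fin n) (z : VV n) : ℝ := s z.2 i j

lemma su_sy {s : MF n} (h : SmM s) (i j : Fin n) : SU (sy s i j) :=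
  ((h i j).comp contDiff_snd).contDiffOn

lemma By_sy {s : MF n} (h : SmM s) (i j k : Fin n) (z : VV n) :
    By k (sy s i j) z = r2 z * pd k (fun x => s x i j) z.2 := by
  show rr z.2 * dy k (fun z : VV n => s z.2 i j) z = _
  rw [dy_comp_snd (g := fun x => s x i j) ((h i j).differentiable (by simp) _)]
  rfl

lemma Ax_sy (s : MF n) (i j k : Fin n) (z : VV n) : Ax k (sy s i j) z = 0 := by
  show rr z.1 * dx k (fun z : VV n => s z.2 i j) z = _
  rw [dx_comp_snd (fun x => s x i j), mul_zero]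

lemma Gay_eq (s : MF n) (f h : VV n → ℝ) :
    Gay s f h = fun z => ∑ i, ∑ j, sy s i j z * By i f z * By j h z := rfl

lemma L0y_eq (s : MF n) (f : VV n → ℝ) :
    L0y s f = fun z => ∑ i, ∑ j, sy s i j z * (By i (By j f) z + (n - 1) * z.2 i * By j f z) :=
  rfl

lemma su_Gay {s : MF n} (hs : SmM s) {f h : VV n → ℝ} (hf : SU f) (hh : SU h) :
    SU (Gay s f h) :=
  contDiffOn_sum _ fun i => contDiffOn_sum _ fun j =>
    ((su_sy hs i j).mul (su_By hf i)).mul (su_By hh j)

lemma tf_Gay {s : MF n} (hs : SmM s) {f h : VV n → ℝ} (hf : SU f) (hh : TF (Un n) h) :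
    TF (Un n) (Gay s f h) :=
  TF.sum _ fun i => TF.sum _ fun j => (hh.By j).smul ((su_sy hs i j).mul (su_By hf i))

lemma Gay_comm {s : MF n} (hs : ∀ x, (s x).IsSymm) (f h : VV n → ℝ) (z : VV n) :
    Gay s f h z = Gay s h f z := by
  unfold Gay
  rw [Finset.sum_comm]
  refine Finset.sum_congr rfl fun i _ => Finset.sum_congr rfl fun j _ => ?_
  rw [(hs z.2).apply i j]
  ring

lemma tf_Gay' {s : MF n} (hs : SmM s) {f h : VV n → ℝ} (hf : TF (Un n) f) (hh : SU h) :
    TF (Un n) (Gay s f h) :=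
  TF.sum _ fun i => TF.sum _ fun j =>
    TF.mul_su ((hf.By i).smul (su_sy hs i j)) (su_By hh j)

lemma su_L0y {s : MF n} (hs : SmM s) {f : VV n → ℝ} (hf : SU f) : SU (L0y s f) :=
  contDiffOn_sum _ fun i => contDiffOn_sum _ fun j => (su_sy hs i j).mul
    ((su_By (su_By hf j) i).add ((contDiffOn_const.mul (su_y i)).mul (su_By hf j)))

lemma tf_L0y {s : MF n} (hs : SmM s) {f : VV n → ℝ} (hf : TF (Un n) f) :
    TF (Un n) (L0y s f) :=
  TF.sum _ fun i => TF.sum _ fun j => TF.smul (((hf.By j).By i).add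
    ((hf.By j).smul (contDiffOn_const.mul (su_y i)))) (su_sy hs i j)

/-- The divergence vanishes. -/
lemma div_sy {s : MF n} (hs : TD s) {z : VV n} (hz : z ∈ Un n) (j : Fin n) :
    ∑ i, By i (sy s i j) z = 0 := by
  simp only [By_sy hs.sm]
  rw [← Finset.mul_sum, hs.dv z.2 hz.2 j, mul_zero]

/-- The energy identity. -/
lemma EE_L0y {s : MF n} (hs : TD s) {f h : VV n → ℝ} (hf : SU f) (hh : TF (Un n) h) :
    EE (fun z => L0y s f z * h z) = -EE (Gay s f h) := by
  have hF : ∀ i, TF (Un n) (fun z => (∑ j, sy s i j z * By j f z) * h z) := fun i =>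
    hh.smul (contDiffOn_sum _ fun j => (su_sy hs.sm i j).mul (su_By hf j))
  have h1 : ∑ i, EE (fun z => By i (fun z => (∑ j, sy s i j z * By j f z) * h z) z +
      (n - 1) * (z.2 i * ((∑ j, sy s i j z * By j f z) * h z))) = 0 := by
    refine Finset.sum_eq_zero fun i _ => ?_
    rw [EE_add ((hF i).By i) (((hF i).smul (su_y i)).const_mul _), EE_const_mul, EE_By (hF i)]
    ring
  rw [← EE_sum _ fun i => ((hF i).By i).add (((hF i).smul (su_y i)).const_mul _)] at h1
  have h2 : EE (fun z => ∑ i, (By i (fun z => (∑ j, sy s i j z * By j f z) * h z) z +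
      (n - 1) * (z.2 i * ((∑ j, sy s i j z * By j f z) * h z)))) =
      EE (fun z => L0y s f z * h z + Gay s f h z) := by
    refine EE_congr fun z hz => ?_
    have e1 : ∀ i, By i (fun z => (∑ j, sy s i j z * By j f z) * h z) z =
        (∑ j, (By i (sy s i j) z * By j f z + sy s i j z * By i (By j f) z)) * h z +
          (∑ j, sy s i j z * By j f z) * By i h z := by
      intro i
      rw [By_eq, Dr_mul (contDiffOn_sum _ fun j => (su_sy hs.sm i j).mul (su_By hf j)) hh.su hz,
        Dr_sum _ (fun j => (su_sy hs.sm i j).mul (su_By hf j)) hz]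
      congr 2
      exact Finset.sum_congr rfl fun j _ => Dr_mul (su_sy hs.sm i j) (su_By hf j) hz
    have e2 : ∑ i, ∑ j, By i (sy s i j) z * By j f z = 0 := by
      rw [Finset.sum_comm]
      refine Finset.sum_eq_zero fun j _ => ?_
      rw [← Finset.sum_mul, div_sy hs hz, zero_mul]
    have e3 : ∀ i, (∑ j, (By i (sy s i j) z * By j f z + sy s i j z * By i (By j f) z)) * h z +
          (∑ j, sy s i j z * By j f z) * By i h z +
        (n - 1) * (z.2 i * ((∑ j, sy s i j z * By j f z) * h z)) =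
        (∑ j, By i (sy s i j) z * By j f z) * h z +
        (∑ j, sy s i j z * (By i (By j f) z + (n - 1) * z.2 i * By j f z)) * h z +
        ∑ j, sy s i j z * By i h z * By j f z := by
      intro i
      simp only [Finset.sum_mul, Finset.mul_sum, ← Finset.sum_add_distrib]
      refine Finset.sum_congr rfl fun j _ => ?_
      ring
    have e4 := fun i => (congrArg (fun t => t + (n - 1) *
      (z.2 i * ((∑ j, sy s i j z * By j f z) * h z))) (e1 i)).trans (e3 i)
    refine (Finset.sum_congr rfl fun i _ => e4 i).trans ?_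
    rw [Finset.sum_add_distrib, Finset.sum_add_distrib, ← Finset.sum_mul, ← Finset.sum_mul,
      e2, zero_mul, zero_add, Gay_comm hs.sy f h]
    rfl
  rw [h2, EE_add ((hh.smul (su_L0y hs.sm hf))) (tf_Gay hs.sm hf hh)] at h1
  have e4 : EE (fun z => Gay s f h z) = EE (Gay s f h) := rfl
  linarith

lemma Gay_mul (s : MF n) {f g h : VV n → ℝ} (hf : SU f) (hg : SU g) {z : VV n}
    (hz : z ∈ Un n) :
    Gay s h (fun z => f z * g z) z = f z * Gay s h g z + g z * Gay s h f z := by
  unfold Gay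
  simp only [Finset.mul_sum, ← Finset.sum_add_distrib]
  refine Finset.sum_congr rfl fun i _ => Finset.sum_congr rfl fun j _ => ?_
  have e : By j (fun z => f z * g z) z = By j f z * g z + f z * By j g z := by
    rw [By_eq]; exact Dr_mul hf hg hz
  rw [e]
  ring

lemma Gay_add (s : MF n) {f g h : VV n → ℝ} (hf : SU f) (hg : SU g) {z : VV n}
    (hz : z ∈ Un n) :
    Gay s h (fun z => f z + g z) z = Gay s h f z + Gay s h g z := by
  unfold Gay
  simp only [← Finset.sum_add_distrib]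
  refine Finset.sum_congr rfl fun i _ => Finset.sum_congr rfl fun j _ => ?_
  have e : By j (fun z => f z + g z) z = By j f z + By j g z := by
    rw [By_eq]; exact Dr_add hf hg hz
  rw [e]
  ring

lemma Gay_sub (s : MF n) {f g h : VV n → ℝ} (hf : SU f) (hg : SU g) {z : VV n}
    (hz : z ∈ Un n) :
    Gay s h (fun z => f z - g z) z = Gay s h f z - Gay s h g z := by
  unfold Gay
  simp only [← Finset.sum_sub_distrib]
  refine Finset.sum_congr rfl fun i _ => Finset.sum_congr rfl fun j _ => ?_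
  have e : By j (fun z => f z - g z) z = By j f z - By j g z := by
    rw [By_eq]; exact Dr_sub hf hg hz
  rw [e]
  ring

lemma Gay_cmul (s : MF n) (c : ℝ) (f h : VV n → ℝ) (z : VV n) :
    Gay s h (fun z => c * f z) z = c * Gay s h f z := by
  unfold Gay
  simp only [Finset.mul_sum]
  refine Finset.sum_congr rfl fun i _ => Finset.sum_congr rfl fun j _ => ?_
  have e : By j (fun z => c * f z) z = c * By j f z := by
    rw [By_eq]; exact Dr_cmul c
  rw [e]
  ring

lemma kay_eq (s : MF n) : kay s = L0y s uu := by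
  funext z
  show L0y s uu z + vp s z.2 * uu z - vp s z.2 * uu z = _
  ring

lemma Kys_eq (s : MF n) (f : VV n → ℝ) (z : VV n) :
    Kys s f z = 2 * Gay s uu f z + L0y s uu z * f z := by
  rw [← kay_eq]; rfl

lemma Dys_eq (s : MF n) (f : VV n → ℝ) (z : VV n) :
    Dys s f z = L0y s f z + vy s z * f z := rfl

lemma Fys_eq (s : MF n) : Fys s = Gay s uu uu := rfl

lemma su_vy {s : MF n} (hs : SmM s) : SU (vy s) :=
  ((contDiff_vp hs).comp contDiff_snd).contDiffOn

lemma su_kay {s : MF n} (hs : SmM s) : SU (kay s) := by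
  rw [kay_eq]; exact su_L0y hs su_uu

lemma su_Fys {s : MF n} (hs : SmM s) : SU (Fys s) := su_Gay hs su_uu su_uu

lemma tf_Kys {s : MF n} (hs : SmM s) {f : VV n → ℝ} (hf : TF (Un n) f) :
    TF (Un n) (Kys s f) := by
  have h : Kys s f = fun z => 2 * Gay s uu f z + L0y s uu z * f z := by
    funext z; exact Kys_eq s f z
  rw [h]
  exact ((tf_Gay hs su_uu hf).const_mul 2).add (hf.smul (su_L0y hs su_uu))

lemma su_Kys {s : MF n} (hs : SmM s) {f : VV n → ℝ} (hf : SU f) : SU (Kys s f) := by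
  have h : Kys s f = fun z => 2 * Gay s uu f z + L0y s uu z * f z := by
    funext z; exact Kys_eq s f z
  rw [h]
  exact (contDiffOn_const.mul (su_Gay hs su_uu hf)).add ((su_L0y hs su_uu).mul hf)

lemma tf_Dys {s : MF n} (hs : SmM s) {f : VV n → ℝ} (hf : TF (Un n) f) :
    TF (Un n) (Dys s f) := (tf_L0y hs hf).add (hf.smul (su_vy hs))

lemma su_Dys {s : MF n} (hs : SmM s) {f : VV n → ℝ} (hf : SU f) :
    SU (Dys s f) := (su_L0y hs hf).add ((su_vy hs).mul hf)

/-- `K` is antisymmetric, with a weight. -/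
lemma EE_Kys {s : MF n} (hs : TD s) {f h φ : VV n → ℝ} (hf : TF (Un n) f) (hh : TF (Un n) h)
    (hφ : SU φ) :
    EE (fun z => φ z * (f z * Kys s h z + h z * Kys s f z)) =
      -2 * EE (fun z => Gay s uu φ z * (f z * h z)) := by
  have h1 := EE_L0y hs su_uu ((hf.mul hh).smul hφ)
  have h2 : EE (Gay s uu (fun z => φ z * (f z * h z))) =
      EE (fun z => φ z * (f z * Gay s uu h z + h z * Gay s uu f z) +
        Gay s uu φ z * (f z * h z)) := by
    refine EE_congr fun z hz => ?_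
    rw [Gay_mul s hφ (hf.su.mul hh.su) hz, Gay_mul s hf.su hh.su hz]
    ring
  have h3 : EE (fun z => φ z * (f z * Kys s h z + h z * Kys s f z)) =
      2 * EE (fun z => φ z * (f z * Gay s uu h z + h z * Gay s uu f z)) +
      2 * EE (fun z => L0y s uu z * (φ z * (f z * h z))) := by
    rw [← EE_const_mul, ← EE_const_mul, ← EE_add]
    · refine EE_congr fun z _ => ?_
      rw [Kys_eq, Kys_eq]
      ring
    · exact ((((tf_Gay hs.sm su_uu hh).smul hf.su).add
        ((tf_Gay hs.sm su_uu hf).smul hh.su)).smul hφ).const_mul 2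
    · exact (((hf.mul hh).smul hφ).smul (su_L0y hs.sm su_uu)).const_mul 2
  rw [h2, EE_add (((((tf_Gay hs.sm su_uu hh).smul hf.su).add
        ((tf_Gay hs.sm su_uu hf).smul hh.su)).smul hφ))
      ((hf.mul hh).smul (su_Gay hs.sm su_uu hφ))] at h1
  rw [h3, h1]
  ring

/-- The commutator `[𝖣_y, K_y]` as a form. -/
lemma EE_YY {s : MF n} (hs : TD s) {f h : VV n → ℝ} (hf : TF (Un n) f) (hh : TF (Un n) h) :
    EE (fun z => Dys s f z * Kys s h z + Dys s h z * Kys s f z) =
      -EE (fun z => 2 * Gy s f h z - L0y s (kay s) z * (f z * h z) +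
        2 * Gay s uu (vy s) z * (f z * h z)) := by
  have a1 := EE_L0y hs hf.su (tf_Gay hs.sm su_uu hh)
  have a2 := EE_L0y hs hh.su (tf_Gay hs.sm su_uu hf)
  have hk := su_kay hs.sm
  have a3 := EE_L0y hs hf.su (hh.smul hk)
  have a4 := EE_L0y hs hh.su (hf.smul hk)
  have a5 := EE_L0y hs su_uu (tf_Gay hs.sm hf.su hh)
  have a6 := EE_L0y hs hk (hf.mul hh)
  have a7 := EE_Kys hs hf hh (su_vy hs.sm)
  have b3 : EE (Gay s f (fun z => kay s z * h z)) =
      EE (fun z => L0y s uu z * Gay s f h z) + EE (fun z => h z * Gay s f (kay s) z) := by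
    rw [← EE_add ((tf_Gay hs.sm hf.su hh).smul (su_L0y hs.sm su_uu))
      (hh.mul_su (su_Gay hs.sm hf.su hk))]
    refine EE_congr fun z hz => ?_
    rw [Gay_mul s hk hh.su hz, kay_eq]
  have b4 : EE (Gay s h (fun z => kay s z * f z)) =
      EE (fun z => L0y s uu z * Gay s f h z) + EE (fun z => f z * Gay s h (kay s) z) := by
    rw [← EE_add ((tf_Gay hs.sm hf.su hh).smul (su_L0y hs.sm su_uu))
      (hf.mul_su (su_Gay hs.sm hh.su hk))]
    refine EE_congr fun z hz => ?_
    rw [Gay_mul s hk hf.su hz, kay_eq, Gay_comm hs.sy f h]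
  have b6 : EE (Gay s (kay s) (fun z => f z * h z)) =
      EE (fun z => h z * Gay s f (kay s) z) + EE (fun z => f z * Gay s h (kay s) z) := by
    rw [← EE_add (hh.mul_su (su_Gay hs.sm hf.su hk)) (hf.mul_su (su_Gay hs.sm hh.su hk))]
    refine EE_congr fun z hz => ?_
    rw [Gay_mul s hf.su hh.su hz, Gay_comm hs.sy f (kay s), Gay_comm hs.sy h (kay s)]
    ring
  have t1 : TF (Un n) (fun z => L0y s f z * Gay s uu h z) :=
    (tf_Gay hs.sm su_uu hh).smul (su_L0y hs.sm hf.su)
  have t2 : TF (Un n) (fun z => L0y s h z * Gay s uu f z) :=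
    (tf_Gay hs.sm su_uu hf).smul (su_L0y hs.sm hh.su)
  have t3 : TF (Un n) (fun z => L0y s f z * (kay s z * h z)) :=
    (hh.smul hk).smul (su_L0y hs.sm hf.su)
  have t4 : TF (Un n) (fun z => L0y s h z * (kay s z * f z)) :=
    (hf.smul hk).smul (su_L0y hs.sm hh.su)
  have t7 : TF (Un n) (fun z => vy s z * (f z * Kys s h z + h z * Kys s f z)) :=
    (((tf_Kys hs.sm hh).smul hf.su).add ((tf_Kys hs.sm hf).smul hh.su)).smul (su_vy hs.sm)
  have l1 : EE (fun z => Dys s f z * Kys s h z + Dys s h z * Kys s f z) =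
      2 * EE (fun z => L0y s f z * Gay s uu h z) + 2 * EE (fun z => L0y s h z * Gay s uu f z)
      + EE (fun z => L0y s f z * (kay s z * h z)) + EE (fun z => L0y s h z * (kay s z * f z))
      + EE (fun z => vy s z * (f z * Kys s h z + h z * Kys s f z)) := by
    rw [← EE_const_mul, ← EE_const_mul, ← EE_add (t1.const_mul 2) (t2.const_mul 2),
      ← EE_add ((t1.const_mul 2).add (t2.const_mul 2)) t3,
      ← EE_add (((t1.const_mul 2).add (t2.const_mul 2)).add t3) t4,
      ← EE_add ((((t1.const_mul 2).add (t2.const_mul 2)).add t3).add t4) t7]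
    refine EE_congr fun z _ => ?_
    rw [Dys_eq, Dys_eq, Kys_eq, Kys_eq, kay_eq]
    ring
  have g1 : TF (Un n) (Gay s f (Gay s uu h)) := tf_Gay' hs.sm hf (su_Gay hs.sm su_uu hh.su)
  have g2 : TF (Un n) (Gay s h (Gay s uu f)) := tf_Gay' hs.sm hh (su_Gay hs.sm su_uu hf.su)
  have g3 : TF (Un n) (Gay s uu (Gay s f h)) := tf_Gay hs.sm su_uu (tf_Gay hs.sm hf.su hh)
  have g4 : TF (Un n) (fun z => L0y s (kay s) z * (f z * h z)) :=
    (hf.mul hh).smul (su_L0y hs.sm hk)
  have g5 : TF (Un n) (fun z => Gay s uu (vy s) z * (f z * h z)) :=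
    (hf.mul hh).smul (su_Gay hs.sm su_uu (su_vy hs.sm))
  have l2 : EE (fun z => 2 * Gy s f h z - L0y s (kay s) z * (f z * h z) +
        2 * Gay s uu (vy s) z * (f z * h z)) =
      2 * EE (Gay s f (Gay s uu h)) + 2 * EE (Gay s h (Gay s uu f))
      - 2 * EE (Gay s uu (Gay s f h)) - EE (fun z => L0y s (kay s) z * (f z * h z))
      + 2 * EE (fun z => Gay s uu (vy s) z * (f z * h z)) := by
    rw [← EE_const_mul, ← EE_const_mul, ← EE_const_mul, ← EE_const_mul,
      ← EE_add (g1.const_mul 2) (g2.const_mul 2),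
      ← EE_sub ((g1.const_mul 2).add (g2.const_mul 2)) (g3.const_mul 2),
      ← EE_sub (((g1.const_mul 2).add (g2.const_mul 2)).sub (g3.const_mul 2)) g4,
      ← EE_add ((((g1.const_mul 2).add (g2.const_mul 2)).sub (g3.const_mul 2)).sub g4)
        (g5.const_mul 2)]
    refine EE_congr fun z _ => ?_
    unfold Gy
    ring
  have l3 : EE (fun z => h z * Gay s f (kay s) z) + EE (fun z => f z * Gay s h (kay s) z) =
      -EE (fun z => L0y s (kay s) z * (f z * h z)) := by
    rw [← b6]; linarith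
  rw [l1, l2, a7, a1, a2, a3, a4, b3, b4]
  have l4 : EE (fun z => L0y s uu z * Gay s f h z) = -EE (Gay s uu (Gay s f h)) := a5
  linarith

end Vale.Agent.P088.HY
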