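import Vale.Agent.P088.R2.H558.E5

/-!
# P088, the exact identities (EID), (EIK)
-/

open MeasureTheory Set Filter
open scoped ContDiff Matrix Topology

noncomputable section

namespace Vale.Agent.P088.HY

open Vale.Agent.P088.LR

variable {n : ℕ}

/-- Symmetry of `𝖣_x`. -/
lemma EE_Dxs_symm {s : MF n} (hs : TD s) {f h : VV n → ℝ} (hf : TF (Un n) f)
    (hh : TF (Un n) h) : EE (fun z => Dxs s f z * h z) = EE (fun z => f z * Dxs s h z) := by
  have a1 := EE_L0x hs hf.su hh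
  have a2 := EE_L0x hs hh.su hf
  have a3 : EE (Gax s f h) = EE (Gax s h f) := EE_congr fun z _ => Gax_comm hs.sy f h z
  have t1 : TF (Un n) (fun z => L0x s f z * h z) := hh.smul (su_L0x hs.sm hf.su)
  have t2 : TF (Un n) (fun z => L0x s h z * f z) := hf.smul (su_L0x hs.sm hh.su)
  have t3 : TF (Un n) (fun z => vx s z * (f z * h z)) := (hf.mul hh).smul (su_vx hs.sm)
  have b1 : EE (fun z => Dxs s f z * h z) =
      EE (fun z => L0x s f z * h z) + EE (fun z => vx s z * (f z * h z)) := by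
    rw [← EE_add t1 t3]
    exact EE_congr fun z _ => by rw [Dxs_eq]; ring
  have b2 : EE (fun z => f z * Dxs s h z) =
      EE (fun z => L0x s h z * f z) + EE (fun z => vx s z * (f z * h z)) := by
    rw [← EE_add t2 t3]
    exact EE_congr fun z _ => by rw [Dxs_eq]; ring
  rw [b1, b2, a1, a2, a3]

/-- Symmetry of `𝖣_y`. -/
lemma EE_Dys_symm {s : MF n} (hs : TD s) {f h : VV n → ℝ} (hf : TF (Un n) f)
    (hh : TF (Un n) h) : EE (fun z => Dys s f z * h z) = EE (fun z => f z * Dys s h z) := by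
  have a1 := EE_L0y hs hf.su hh
  have a2 := EE_L0y hs hh.su hf
  have a3 : EE (Gay s f h) = EE (Gay s h f) := EE_congr fun z _ => Gay_comm hs.sy f h z
  have t1 : TF (Un n) (fun z => L0y s f z * h z) := hh.smul (su_L0y hs.sm hf.su)
  have t2 : TF (Un n) (fun z => L0y s h z * f z) := hf.smul (su_L0y hs.sm hh.su)
  have t3 : TF (Un n) (fun z => vy s z * (f z * h z)) := (hf.mul hh).smul (su_vy hs.sm)
  have b1 : EE (fun z => Dys s f z * h z) =
      EE (fun z => L0y s f z * h z) + EE (fun z => vy s z * (f z * h z)) := by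
    rw [← EE_add t1 t3]
    exact EE_congr fun z _ => by rw [Dys_eq]; ring
  have b2 : EE (fun z => f z * Dys s h z) =
      EE (fun z => L0y s h z * f z) + EE (fun z => vy s z * (f z * h z)) := by
    rw [← EE_add t2 t3]
    exact EE_congr fun z _ => by rw [Dys_eq]; ring
  rw [b1, b2, a1, a2, a3]

/-! ### Derivatives of `Γ_y(u, h)` in the direction `x` and conversely -/

lemma Ax_sum {ι : Type*} (t : Finset ι) {F : ι → VV n → ℝ} (h : ∀ i, SU (F i)) {z : VV n}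
    (hz : z ∈ Un n) (i : Fin n) :
    Ax i (fun z => ∑ k ∈ t, F k z) z = ∑ k ∈ t, Ax i (F k) z := by
  rw [Ax_eq]; exact Dr_sum t h hz

lemma By_sum {ι : Type*} (t : Finset ι) {F : ι → VV n → ℝ} (h : ∀ i, SU (F i)) {z : VV n}
    (hz : z ∈ Un n) (i : Fin n) :
    By i (fun z => ∑ k ∈ t, F k z) z = ∑ k ∈ t, By i (F k) z := by
  rw [By_eq]; exact Dr_sum t h hz

lemma Ax_mul {f g : VV n → ℝ} (hf : SU f) (hg : SU g) {z : VV n} (hz : z ∈ Un n) (i : Fin n) :
    Ax i (fun z => f z * g z) z = Ax i f z * g z + f z * Ax i g z := by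
  rw [Ax_eq]; exact Dr_mul hf hg hz

lemma By_mul {f g : VV n → ℝ} (hf : SU f) (hg : SU g) {z : VV n} (hz : z ∈ Un n) (i : Fin n) :
    By i (fun z => f z * g z) z = By i f z * g z + f z * By i g z := by
  rw [By_eq]; exact Dr_mul hf hg hz

lemma Ax_Gay {s : MF n} (hs : SmM s) {f h : VV n → ℝ} (hf : SU f) (hh : SU h) {z : VV n}
    (hz : z ∈ Un n) (i : Fin n) :
    Ax i (Gay s f h) z =
      ∑ k, ∑ l, sy s k l z * (Ax i (By k f) z * By l h z + By k f z * Ax i (By l h) z) := by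
  rw [Gay_eq, Ax_sum _ (fun k => contDiffOn_sum _ fun l =>
    ((su_sy hs k l).mul (su_By hf k)).mul (su_By hh l)) hz]
  refine Finset.sum_congr rfl fun k _ => ?_
  rw [Ax_sum _ (fun l => ((su_sy hs k l).mul (su_By hf k)).mul (su_By hh l)) hz]
  refine Finset.sum_congr rfl fun l _ => ?_
  rw [Ax_mul ((su_sy hs k l).mul (su_By hf k)) (su_By hh l) hz,
    Ax_mul (su_sy hs k l) (su_By hf k) hz, Ax_sy]
  ring

lemma By_Gax {s : MF n} (hs : SmM s) {f h : VV n → ℝ} (hf : SU f) (hh : SU h) {z : VV n}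
    (hz : z ∈ Un n) (i : Fin n) :
    By i (Gax s f h) z =
      ∑ k, ∑ l, sx s k l z * (By i (Ax k f) z * Ax l h z + Ax k f z * By i (Ax l h) z) := by
  rw [Gax_eq, By_sum _ (fun k => contDiffOn_sum _ fun l =>
    ((su_sx hs k l).mul (su_Ax hf k)).mul (su_Ax hh l)) hz]
  refine Finset.sum_congr rfl fun k _ => ?_
  rw [By_sum _ (fun l => ((su_sx hs k l).mul (su_Ax hf k)).mul (su_Ax hh l)) hz]
  refine Finset.sum_congr rfl fun l _ => ?_
  rw [By_mul ((su_sx hs k l).mul (su_Ax hf k)) (su_Ax hh l) hz,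
    By_mul (su_sx hs k l) (su_Ax hf k) hz, By_sx]
  ring

/-- `Γ_x(f, Γ_y(u, h)) + Γ_x(h, Γ_y(u, f)) - Γ_y(u, Γ_x(f, h))`, pointwise. -/
lemma Gxy_eq {s₁ s₂ : MF n} (h1 : TD s₁) (h2 : TD s₂) {f h : VV n → ℝ} (hf : SU f) (hh : SU h)
    {z : VV n} (hz : z ∈ Un n) :
    Gax s₁ f (Gay s₂ uu h) z + Gax s₁ h (Gay s₂ uu f) z - Gay s₂ uu (Gax s₁ f h) z =
      Gm s₁ s₂ f h z + Gm s₁ s₂ h f z := by
  have e1 : ∀ {f h : VV n → ℝ}, SU f → SU h → Gax s₁ f (Gay s₂ uu h) z =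
      ∑ i, ∑ j, ∑ k, ∑ l, (sx s₁ i j z * sy s₂ k l z) * (Ax i f z * (mm j k z * By l h z)) +
      ∑ i, ∑ j, ∑ k, ∑ l, (sx s₁ i j z * sy s₂ k l z) *
        (Ax i f z * (be k z * Ax j (By l h) z)) := by
    intro f h hf hh
    rw [Gax_eq]
    simp only [Ax_Gay h2.sm su_uu hh hz, Finset.mul_sum, ← Finset.sum_add_distrib]
    refine Finset.sum_congr rfl fun i _ => Finset.sum_congr rfl fun j _ =>
      Finset.sum_congr rfl fun k _ => Finset.sum_congr rfl fun l _ => ?_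
    rw [By_uu]
    have : Ax j (By k uu) z = mm j k z := rfl
    rw [this]
    ring
  have e2 : Gay s₂ uu (Gax s₁ f h) z =
      ∑ i, ∑ j, ∑ k, ∑ l, (sx s₁ i j z * sy s₂ k l z) *
        (be k z * (By l (Ax i f) z * Ax j h z)) +
      ∑ i, ∑ j, ∑ k, ∑ l, (sx s₁ i j z * sy s₂ k l z) *
        (be k z * (Ax i f z * By l (Ax j h) z)) := by
    rw [Gay_eq]
    simp only [By_Gax h1.sm hf hh hz, Finset.mul_sum]
    have r : ∀ (G : Fin n → Fin n → Fin n → Fin n → ℝ),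
        ∑ k, ∑ l, ∑ i, ∑ j, G k l i j = ∑ i, ∑ j, ∑ k, ∑ l, G k l i j := by
      intro G
      calc ∑ k, ∑ l, ∑ i, ∑ j, G k l i j = ∑ k, ∑ i, ∑ l, ∑ j, G k l i j :=
            Finset.sum_congr rfl fun k _ => Finset.sum_comm
        _ = ∑ i, ∑ k, ∑ l, ∑ j, G k l i j := Finset.sum_comm
        _ = ∑ i, ∑ k, ∑ j, ∑ l, G k l i j := Finset.sum_congr rfl fun i _ =>
            Finset.sum_congr rfl fun k _ => Finset.sum_comm
        _ = ∑ i, ∑ j, ∑ k, ∑ l, G k l i j := Finset.sum_congr rfl fun i _ => Finset.sum_comm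
    rw [r]
    simp only [← Finset.sum_add_distrib]
    refine Finset.sum_congr rfl fun i _ => Finset.sum_congr rfl fun j _ =>
      Finset.sum_congr rfl fun k _ => Finset.sum_congr rfl fun l _ => ?_
    rw [By_uu]
    ring
  have swap : ∀ (G : Fin n → Fin n → ℝ), ∑ i, ∑ j, G i j = ∑ i, ∑ j, G j i := fun G =>
    Finset.sum_comm
  have e3 : ∀ {f h : VV n → ℝ}, Gm s₁ s₂ f h z =
      ∑ i, ∑ j, ∑ k, ∑ l, (sx s₁ i j z * sy s₂ k l z) * (Ax i f z * (mm j k z * By l h z)) := by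
    intro f h
    unfold Gm
    rw [swap]
    refine Finset.sum_congr rfl fun i _ => Finset.sum_congr rfl fun j _ =>
      Finset.sum_congr rfl fun k _ => Finset.sum_congr rfl fun l _ => ?_
    rw [show s₁ z.1 j i = sx s₁ i j z from (h1.sy z.1).apply i j]
    unfold sy
    ring
  have e4 : ∑ i, ∑ j, ∑ k, ∑ l, (sx s₁ i j z * sy s₂ k l z) *
        (Ax i h z * (be k z * Ax j (By l f) z)) =
      ∑ i, ∑ j, ∑ k, ∑ l, (sx s₁ i j z * sy s₂ k l z) *
        (be k z * (By l (Ax i f) z * Ax j h z)) := by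
    rw [swap]
    refine Finset.sum_congr rfl fun i _ => Finset.sum_congr rfl fun j _ =>
      Finset.sum_congr rfl fun k _ => Finset.sum_congr rfl fun l _ => ?_
    rw [Ax_By_comm hf hz, show sx s₁ j i z = sx s₁ i j z from (h1.sy z.1).apply i j]
    ring
  have e5 : ∑ i, ∑ j, ∑ k, ∑ l, (sx s₁ i j z * sy s₂ k l z) *
        (Ax i f z * (be k z * Ax j (By l h) z)) =
      ∑ i, ∑ j, ∑ k, ∑ l, (sx s₁ i j z * sy s₂ k l z) *
        (be k z * (Ax i f z * By l (Ax j h) z)) := by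
    refine Finset.sum_congr rfl fun i _ => Finset.sum_congr rfl fun j _ =>
      Finset.sum_congr rfl fun k _ => Finset.sum_congr rfl fun l _ => ?_
    rw [Ax_By_comm hh hz]
    ring
  rw [e1 hf hh, e1 hh hf, e2, e3, e3, e4, e5]
  ring

end Vale.Agent.P088.HY
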