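import Vale.Agent.P088.R2.H558.E6

/-!
# P088, mixed commutators, commutation of `P_x` and `P_y`
-/

open MeasureTheory Set Filter
open scoped ContDiff Matrix Topology

noncomputable section

namespace Vale.Agent.P088.HY

open Vale.Agent.P088.LR

variable {n : ℕ}

lemma By_vx (s : MF n) (i : Fin n) (z : VV n) : By i (vx s) z = 0 := by
  show rr z.2 * dy i (fun z : VV n => vp s z.1) z = _
  rw [dy_comp_fst (vp s), mul_zero]

lemma Ax_vy (s : MF n) (i : Fin n) (z : VV n) : Ax i (vy s) z = 0 := by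
  show rr z.1 * dx i (fun z : VV n => vp s z.2) z = _
  rw [dx_comp_snd (vp s), mul_zero]

lemma Gay_vx (s s' : MF n) (z : VV n) : Gay s uu (vx s') z = 0 := by
  unfold Gay
  simp [By_vx]

lemma Gax_vy (s s' : MF n) (z : VV n) : Gax s uu (vy s') z = 0 := by
  unfold Gax
  simp [Ax_vy]


/-- The commutator `[𝖣_x, K_y]` as a form. -/
lemma EE_XY {s₁ s₂ : MF n} (h1 : TD s₁) (h2 : TD s₂) {f h : VV n → ℝ} (hf : TF (Un n) f)
    (hh : TF (Un n) h) :
    EE (fun z => Dxs s₁ f z * Kys s₂ h z + Dxs s₁ h z * Kys s₂ f z) =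
      -EE (fun z => 2 * (Gm s₁ s₂ f h z + Gm s₁ s₂ h f z) -
        L0x s₁ (kay s₂) z * (f z * h z)) := by
  have a1 := EE_L0x h1 hf.su (tf_Gay h2.sm su_uu hh)
  have a2 := EE_L0x h1 hh.su (tf_Gay h2.sm su_uu hf)
  have hk := su_kay h2.sm
  have a3 := EE_L0x h1 hf.su (hh.smul hk)
  have a4 := EE_L0x h1 hh.su (hf.smul hk)
  have a5 := EE_L0y h2 su_uu (tf_Gax h1.sm hf.su hh)
  have a6 := EE_L0x h1 hk (hf.mul hh)
  have a7 := EE_Kys h2 hf hh (su_vx h1.sm)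
  have a8 : EE (fun z => Gay s₂ uu (vx s₁) z * (f z * h z)) = 0 := by
    have : EE (fun z => Gay s₂ uu (vx s₁) z * (f z * h z)) = EE (fun _ : VV n => 0) :=
      EE_congr fun z _ => by rw [Gay_vx, zero_mul]
    rw [this]; simp [EE]
  rw [a8, mul_zero] at a7
  have b3 : EE (Gax s₁ f (fun z => kay s₂ z * h z)) =
      EE (fun z => L0y s₂ uu z * Gax s₁ f h z) + EE (fun z => h z * Gax s₁ f (kay s₂) z) := by
    rw [← EE_add ((tf_Gax h1.sm hf.su hh).smul (su_L0y h2.sm su_uu))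
      (hh.mul_su (su_Gax h1.sm hf.su hk))]
    refine EE_congr fun z hz => ?_
    rw [Gax_mul s₁ hk hh.su hz, kay_eq]
  have b4 : EE (Gax s₁ h (fun z => kay s₂ z * f z)) =
      EE (fun z => L0y s₂ uu z * Gax s₁ f h z) + EE (fun z => f z * Gax s₁ h (kay s₂) z) := by
    rw [← EE_add ((tf_Gax h1.sm hf.su hh).smul (su_L0y h2.sm su_uu))
      (hf.mul_su (su_Gax h1.sm hh.su hk))]
    refine EE_congr fun z hz => ?_
    rw [Gax_mul s₁ hk hf.su hz, kay_eq, Gax_comm h1.sy f h]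
  have b6 : EE (Gax s₁ (kay s₂) (fun z => f z * h z)) =
      EE (fun z => h z * Gax s₁ f (kay s₂) z) + EE (fun z => f z * Gax s₁ h (kay s₂) z) := by
    rw [← EE_add (hh.mul_su (su_Gax h1.sm hf.su hk)) (hf.mul_su (su_Gax h1.sm hh.su hk))]
    refine EE_congr fun z hz => ?_
    rw [Gax_mul s₁ hf.su hh.su hz, Gax_comm h1.sy f (kay s₂), Gax_comm h1.sy h (kay s₂)]
    ring
  have t1 : TF (Un n) (fun z => L0x s₁ f z * Gay s₂ uu h z) :=
    (tf_Gay h2.sm su_uu hh).smul (su_L0x h1.sm hf.su)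
  have t2 : TF (Un n) (fun z => L0x s₁ h z * Gay s₂ uu f z) :=
    (tf_Gay h2.sm su_uu hf).smul (su_L0x h1.sm hh.su)
  have t3 : TF (Un n) (fun z => L0x s₁ f z * (kay s₂ z * h z)) :=
    (hh.smul hk).smul (su_L0x h1.sm hf.su)
  have t4 : TF (Un n) (fun z => L0x s₁ h z * (kay s₂ z * f z)) :=
    (hf.smul hk).smul (su_L0x h1.sm hh.su)
  have t7 : TF (Un n) (fun z => vx s₁ z * (f z * Kys s₂ h z + h z * Kys s₂ f z)) :=
    (((tf_Kys h2.sm hh).smul hf.su).add ((tf_Kys h2.sm hf).smul hh.su)).smul (su_vx h1.sm)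
  have l1 : EE (fun z => Dxs s₁ f z * Kys s₂ h z + Dxs s₁ h z * Kys s₂ f z) =
      2 * EE (fun z => L0x s₁ f z * Gay s₂ uu h z) +
      2 * EE (fun z => L0x s₁ h z * Gay s₂ uu f z)
      + EE (fun z => L0x s₁ f z * (kay s₂ z * h z))
      + EE (fun z => L0x s₁ h z * (kay s₂ z * f z))
      + EE (fun z => vx s₁ z * (f z * Kys s₂ h z + h z * Kys s₂ f z)) := by
    rw [← EE_const_mul, ← EE_const_mul, ← EE_add (t1.const_mul 2) (t2.const_mul 2),
      ← EE_add ((t1.const_mul 2).add (t2.const_mul 2)) t3,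
      ← EE_add (((t1.const_mul 2).add (t2.const_mul 2)).add t3) t4,
      ← EE_add ((((t1.const_mul 2).add (t2.const_mul 2)).add t3).add t4) t7]
    refine EE_congr fun z _ => ?_
    rw [Dxs_eq, Dxs_eq, Kys_eq, Kys_eq, kay_eq]
    ring
  have g1 : TF (Un n) (Gax s₁ f (Gay s₂ uu h)) := tf_Gax' h1.sm hf (su_Gay h2.sm su_uu hh.su)
  have g2 : TF (Un n) (Gax s₁ h (Gay s₂ uu f)) := tf_Gax' h1.sm hh (su_Gay h2.sm su_uu hf.su)
  have g3 : TF (Un n) (Gay s₂ uu (Gax s₁ f h)) := tf_Gay h2.sm su_uu (tf_Gax h1.sm hf.su hh)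
  have g4 : TF (Un n) (fun z => L0x s₁ (kay s₂) z * (f z * h z)) :=
    (hf.mul hh).smul (su_L0x h1.sm hk)
  have l2 : EE (fun z => 2 * (Gm s₁ s₂ f h z + Gm s₁ s₂ h f z) -
        L0x s₁ (kay s₂) z * (f z * h z)) =
      2 * EE (Gax s₁ f (Gay s₂ uu h)) + 2 * EE (Gax s₁ h (Gay s₂ uu f))
      - 2 * EE (Gay s₂ uu (Gax s₁ f h)) - EE (fun z => L0x s₁ (kay s₂) z * (f z * h z)) := by
    rw [← EE_const_mul, ← EE_const_mul, ← EE_const_mul,
      ← EE_add (g1.const_mul 2) (g2.const_mul 2),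
      ← EE_sub ((g1.const_mul 2).add (g2.const_mul 2)) (g3.const_mul 2),
      ← EE_sub (((g1.const_mul 2).add (g2.const_mul 2)).sub (g3.const_mul 2)) g4]
    refine EE_congr fun z hz => ?_
    rw [← Gxy_eq h1 h2 hf.su hh.su hz]
    ring
  have l3 : EE (fun z => h z * Gax s₁ f (kay s₂) z) + EE (fun z => f z * Gax s₁ h (kay s₂) z) =
      -EE (fun z => L0x s₁ (kay s₂) z * (f z * h z)) := by
    rw [← b6]; linarith
  rw [l1, l2, a7, a1, a2, a3, a4, b3, b4]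
  have l4 : EE (fun z => L0y s₂ uu z * Gax s₁ f h z) = -EE (Gay s₂ uu (Gax s₁ f h)) := a5
  linarith

/-- The same with the roles of the factors exchanged. -/
lemma Gyx_eq {s₁ s₂ : MF n} (h1 : TD s₁) (h2 : TD s₂) {f h : VV n → ℝ} (hf : SU f) (hh : SU h)
    {z : VV n} (hz : z ∈ Un n) :
    Gay s₂ f (Gax s₁ uu h) z + Gay s₂ h (Gax s₁ uu f) z - Gax s₁ uu (Gay s₂ f h) z =
      Gm s₁ s₂ f h z + Gm s₁ s₂ h f z := by
  have r : ∀ (G : Fin n → Fin n → Fin n → Fin n → ℝ),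
      ∑ k, ∑ l, ∑ i, ∑ j, G k l i j = ∑ i, ∑ j, ∑ k, ∑ l, G k l i j := by
    intro G
    calc ∑ k, ∑ l, ∑ i, ∑ j, G k l i j = ∑ k, ∑ i, ∑ l, ∑ j, G k l i j :=
          Finset.sum_congr rfl fun k _ => Finset.sum_comm
      _ = ∑ i, ∑ k, ∑ l, ∑ j, G k l i j := Finset.sum_comm
      _ = ∑ i, ∑ k, ∑ j, ∑ l, G k l i j := Finset.sum_congr rfl fun i _ =>
          Finset.sum_congr rfl fun k _ => Finset.sum_comm
      _ = ∑ i, ∑ j, ∑ k, ∑ l, G k l i j := Finset.sum_congr rfl fun i _ => Finset.sum_comm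
  have swap : ∀ (G : Fin n → Fin n → ℝ), ∑ i, ∑ j, G i j = ∑ i, ∑ j, G j i := fun G =>
    Finset.sum_comm
  have e1 : ∀ {f h : VV n → ℝ}, SU f → SU h → Gay s₂ f (Gax s₁ uu h) z =
      ∑ i, ∑ j, ∑ k, ∑ l, (sy s₂ i j z * sx s₁ k l z) * (By i f z * (mm k j z * Ax l h z)) +
      ∑ i, ∑ j, ∑ k, ∑ l, (sy s₂ i j z * sx s₁ k l z) *
        (By i f z * (al k z * By j (Ax l h) z)) := by
    intro f h hf hh
    rw [Gay_eq]
    simp only [By_Gax h1.sm su_uu hh hz, Finset.mul_sum, ← Finset.sum_add_distrib]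
    refine Finset.sum_congr rfl fun i _ => Finset.sum_congr rfl fun j _ =>
      Finset.sum_congr rfl fun k _ => Finset.sum_congr rfl fun l _ => ?_
    rw [Ax_uu]
    have : By j (Ax k uu) z = mm k j z := By_al hz k j
    rw [this]
    ring
  have e2 : Gax s₁ uu (Gay s₂ f h) z =
      ∑ i, ∑ j, ∑ k, ∑ l, (sy s₂ i j z * sx s₁ k l z) *
        (al k z * (Ax l (By i f) z * By j h z)) +
      ∑ i, ∑ j, ∑ k, ∑ l, (sy s₂ i j z * sx s₁ k l z) *
        (al k z * (By i f z * Ax l (By j h) z)) := by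
    rw [Gax_eq]
    simp only [Ax_Gay h2.sm hf hh hz, Finset.mul_sum]
    rw [r]
    simp only [← Finset.sum_add_distrib]
    refine Finset.sum_congr rfl fun i _ => Finset.sum_congr rfl fun j _ =>
      Finset.sum_congr rfl fun k _ => Finset.sum_congr rfl fun l _ => ?_
    rw [Ax_uu]
    ring
  have e3 : ∀ {f h : VV n → ℝ}, Gm s₁ s₂ h f z =
      ∑ i, ∑ j, ∑ k, ∑ l, (sy s₂ i j z * sx s₁ k l z) * (By i f z * (mm k j z * Ax l h z)) := by
    intro f h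
    unfold Gm
    rw [r, swap]
    refine Finset.sum_congr rfl fun i _ => Finset.sum_congr rfl fun j _ =>
      Finset.sum_congr rfl fun k _ => Finset.sum_congr rfl fun l _ => ?_
    rw [show s₂ z.2 j i = sy s₂ i j z from (h2.sy z.2).apply i j]
    unfold sx
    ring
  have e4 : ∑ i, ∑ j, ∑ k, ∑ l, (sy s₂ i j z * sx s₁ k l z) *
        (By i h z * (al k z * By j (Ax l f) z)) =
      ∑ i, ∑ j, ∑ k, ∑ l, (sy s₂ i j z * sx s₁ k l z) *
        (al k z * (Ax l (By i f) z * By j h z)) := by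
    rw [swap]
    refine Finset.sum_congr rfl fun i _ => Finset.sum_congr rfl fun j _ =>
      Finset.sum_congr rfl fun k _ => Finset.sum_congr rfl fun l _ => ?_
    rw [← Ax_By_comm hf hz, show sy s₂ j i z = sy s₂ i j z from (h2.sy z.2).apply i j]
    ring
  have e5 : ∑ i, ∑ j, ∑ k, ∑ l, (sy s₂ i j z * sx s₁ k l z) *
        (By i f z * (al k z * By j (Ax l h) z)) =
      ∑ i, ∑ j, ∑ k, ∑ l, (sy s₂ i j z * sx s₁ k l z) *
        (al k z * (By i f z * Ax l (By j h) z)) := by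
    refine Finset.sum_congr rfl fun i _ => Finset.sum_congr rfl fun j _ =>
      Finset.sum_congr rfl fun k _ => Finset.sum_congr rfl fun l _ => ?_
    rw [← Ax_By_comm hh hz]
    ring
  rw [e1 hf hh, e1 hh hf, e2, e3 (f := h) (h := f), e3 (f := f) (h := h), e4, e5]
  ring

/-- The commutator `[𝖣_y, K_x]` as a form. -/
lemma EE_YX {s₁ s₂ : MF n} (h1 : TD s₁) (h2 : TD s₂) {f h : VV n → ℝ} (hf : TF (Un n) f)
    (hh : TF (Un n) h) :
    EE (fun z => Dys s₂ f z * Kxs s₁ h z + Dys s₂ h z * Kxs s₁ f z) =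
      -EE (fun z => 2 * (Gm s₁ s₂ f h z + Gm s₁ s₂ h f z) -
        L0y s₂ (kax s₁) z * (f z * h z)) := by
  have a1 := EE_L0y h2 hf.su (tf_Gax h1.sm su_uu hh)
  have a2 := EE_L0y h2 hh.su (tf_Gax h1.sm su_uu hf)
  have hk := su_kax h1.sm
  have a3 := EE_L0y h2 hf.su (hh.smul hk)
  have a4 := EE_L0y h2 hh.su (hf.smul hk)
  have a5 := EE_L0x h1 su_uu (tf_Gay h2.sm hf.su hh)
  have a6 := EE_L0y h2 hk (hf.mul hh)
  have a7 := EE_Kxs h1 hf hh (su_vy h2.sm)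
  have a8 : EE (fun z => Gax s₁ uu (vy s₂) z * (f z * h z)) = 0 := by
    have : EE (fun z => Gax s₁ uu (vy s₂) z * (f z * h z)) = EE (fun _ : VV n => 0) :=
      EE_congr fun z _ => by rw [Gax_vy, zero_mul]
    rw [this]; simp [EE]
  rw [a8, mul_zero] at a7
  have b3 : EE (Gay s₂ f (fun z => kax s₁ z * h z)) =
      EE (fun z => L0x s₁ uu z * Gay s₂ f h z) + EE (fun z => h z * Gay s₂ f (kax s₁) z) := by
    rw [← EE_add ((tf_Gay h2.sm hf.su hh).smul (su_L0x h1.sm su_uu))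
      (hh.mul_su (su_Gay h2.sm hf.su hk))]
    refine EE_congr fun z hz => ?_
    rw [Gay_mul s₂ hk hh.su hz, kax_eq]
  have b4 : EE (Gay s₂ h (fun z => kax s₁ z * f z)) =
      EE (fun z => L0x s₁ uu z * Gay s₂ f h z) + EE (fun z => f z * Gay s₂ h (kax s₁) z) := by
    rw [← EE_add ((tf_Gay h2.sm hf.su hh).smul (su_L0x h1.sm su_uu))
      (hf.mul_su (su_Gay h2.sm hh.su hk))]
    refine EE_congr fun z hz => ?_
    rw [Gay_mul s₂ hk hf.su hz, kax_eq, Gay_comm h2.sy f h]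
  have b6 : EE (Gay s₂ (kax s₁) (fun z => f z * h z)) =
      EE (fun z => h z * Gay s₂ f (kax s₁) z) + EE (fun z => f z * Gay s₂ h (kax s₁) z) := by
    rw [← EE_add (hh.mul_su (su_Gay h2.sm hf.su hk)) (hf.mul_su (su_Gay h2.sm hh.su hk))]
    refine EE_congr fun z hz => ?_
    rw [Gay_mul s₂ hf.su hh.su hz, Gay_comm h2.sy f (kax s₁), Gay_comm h2.sy h (kax s₁)]
    ring
  have t1 : TF (Un n) (fun z => L0y s₂ f z * Gax s₁ uu h z) :=
    (tf_Gax h1.sm su_uu hh).smul (su_L0y h2.sm hf.su)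
  have t2 : TF (Un n) (fun z => L0y s₂ h z * Gax s₁ uu f z) :=
    (tf_Gax h1.sm su_uu hf).smul (su_L0y h2.sm hh.su)
  have t3 : TF (Un n) (fun z => L0y s₂ f z * (kax s₁ z * h z)) :=
    (hh.smul hk).smul (su_L0y h2.sm hf.su)
  have t4 : TF (Un n) (fun z => L0y s₂ h z * (kax s₁ z * f z)) :=
    (hf.smul hk).smul (su_L0y h2.sm hh.su)
  have t7 : TF (Un n) (fun z => vy s₂ z * (f z * Kxs s₁ h z + h z * Kxs s₁ f z)) :=
    (((tf_Kxs h1.sm hh).smul hf.su).add ((tf_Kxs h1.sm hf).smul hh.su)).smul (su_vy h2.sm)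
  have l1 : EE (fun z => Dys s₂ f z * Kxs s₁ h z + Dys s₂ h z * Kxs s₁ f z) =
      2 * EE (fun z => L0y s₂ f z * Gax s₁ uu h z) +
      2 * EE (fun z => L0y s₂ h z * Gax s₁ uu f z)
      + EE (fun z => L0y s₂ f z * (kax s₁ z * h z))
      + EE (fun z => L0y s₂ h z * (kax s₁ z * f z))
      + EE (fun z => vy s₂ z * (f z * Kxs s₁ h z + h z * Kxs s₁ f z)) := by
    rw [← EE_const_mul, ← EE_const_mul, ← EE_add (t1.const_mul 2) (t2.const_mul 2),
      ← EE_add ((t1.const_mul 2).add (t2.const_mul 2)) t3,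
      ← EE_add (((t1.const_mul 2).add (t2.const_mul 2)).add t3) t4,
      ← EE_add ((((t1.const_mul 2).add (t2.const_mul 2)).add t3).add t4) t7]
    refine EE_congr fun z _ => ?_
    rw [Dys_eq, Dys_eq, Kxs_eq, Kxs_eq, kax_eq]
    ring
  have g1 : TF (Un n) (Gay s₂ f (Gax s₁ uu h)) := tf_Gay' h2.sm hf (su_Gax h1.sm su_uu hh.su)
  have g2 : TF (Un n) (Gay s₂ h (Gax s₁ uu f)) := tf_Gay' h2.sm hh (su_Gax h1.sm su_uu hf.su)
  have g3 : TF (Un n) (Gax s₁ uu (Gay s₂ f h)) := tf_Gax h1.sm su_uu (tf_Gay h2.sm hf.su hh)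
  have g4 : TF (Un n) (fun z => L0y s₂ (kax s₁) z * (f z * h z)) :=
    (hf.mul hh).smul (su_L0y h2.sm hk)
  have l2 : EE (fun z => 2 * (Gm s₁ s₂ f h z + Gm s₁ s₂ h f z) -
        L0y s₂ (kax s₁) z * (f z * h z)) =
      2 * EE (Gay s₂ f (Gax s₁ uu h)) + 2 * EE (Gay s₂ h (Gax s₁ uu f))
      - 2 * EE (Gax s₁ uu (Gay s₂ f h)) - EE (fun z => L0y s₂ (kax s₁) z * (f z * h z)) := by
    rw [← EE_const_mul, ← EE_const_mul, ← EE_const_mul,
      ← EE_add (g1.const_mul 2) (g2.const_mul 2),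
      ← EE_sub ((g1.const_mul 2).add (g2.const_mul 2)) (g3.const_mul 2),
      ← EE_sub (((g1.const_mul 2).add (g2.const_mul 2)).sub (g3.const_mul 2)) g4]
    refine EE_congr fun z hz => ?_
    rw [← Gyx_eq h1 h2 hf.su hh.su hz]
    ring
  have l3 : EE (fun z => h z * Gay s₂ f (kax s₁) z) + EE (fun z => f z * Gay s₂ h (kax s₁) z) =
      -EE (fun z => L0y s₂ (kax s₁) z * (f z * h z)) := by
    rw [← b6]; linarith
  rw [l1, l2, a7, a1, a2, a3, a4, b3, b4]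
  have l4 : EE (fun z => L0x s₁ uu z * Gay s₂ f h z) = -EE (Gax s₁ uu (Gay s₂ f h)) := a5
  linarith

end Vale.Agent.P088.HY
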