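import Vale.Agent.P088.R2.H558.E7

/-!
# P088, conjugation, commutation of `P_x` and `P_y`
-/

open MeasureTheory Set Filter
open scoped ContDiff Matrix Topology

noncomputable section

namespace Vale.Agent.P088.HY

open Vale.Agent.P088.LR

variable {n : ℕ}

lemma Ax_congr {f g : VV n → ℝ} (h : ∀ z ∈ Un n, f z = g z) {z : VV n} (hz : z ∈ Un n)
    (i : Fin n) : Ax i f z = Ax i g z := by
  rw [Ax_eq]; exact Dr_congr h hz

lemma By_congr {f g : VV n → ℝ} (h : ∀ z ∈ Un n, f z = g z) {z : VV n} (hz : z ∈ Un n)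
    (i : Fin n) : By i f z = By i g z := by
  rw [By_eq]; exact Dr_congr h hz

lemma Ax_add {f g : VV n → ℝ} (hf : SU f) (hg : SU g) {z : VV n} (hz : z ∈ Un n) (i : Fin n) :
    Ax i (fun z => f z + g z) z = Ax i f z + Ax i g z := by
  rw [Ax_eq]; exact Dr_add hf hg hz

lemma By_add {f g : VV n → ℝ} (hf : SU f) (hg : SU g) {z : VV n} (hz : z ∈ Un n) (i : Fin n) :
    By i (fun z => f z + g z) z = By i f z + By i g z := by
  rw [By_eq]; exact Dr_add hf hg hz

lemma Ax_cmul (c : ℝ) (f : VV n → ℝ) (z : VV n) (i : Fin n) :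
    Ax i (fun z => c * f z) z = c * Ax i f z := by
  rw [Ax_eq]; exact Dr_cmul c

lemma By_cmul (c : ℝ) (f : VV n → ℝ) (z : VV n) (i : Fin n) :
    By i (fun z => c * f z) z = c * By i f z := by
  rw [By_eq]; exact Dr_cmul c

/-! ### Locality and linearity of `L0x`, `L0y` -/

lemma L0x_congr (s : MF n) {f g : VV n → ℝ} (h : ∀ z ∈ Un n, f z = g z) {z : VV n}
    (hz : z ∈ Un n) : L0x s f z = L0x s g z := by
  unfold L0x
  refine Finset.sum_congr rfl fun i _ => Finset.sum_congr rfl fun j _ => ?_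
  rw [Ax_congr (fun w hw => Ax_congr h hw j) hz, Ax_congr h hz]

lemma L0y_congr (s : MF n) {f g : VV n → ℝ} (h : ∀ z ∈ Un n, f z = g z) {z : VV n}
    (hz : z ∈ Un n) : L0y s f z = L0y s g z := by
  unfold L0y
  refine Finset.sum_congr rfl fun i _ => Finset.sum_congr rfl fun j _ => ?_
  rw [By_congr (fun w hw => By_congr h hw j) hz, By_congr h hz]

lemma L0x_add (s : MF n) {f g : VV n → ℝ} (hf : SU f) (hg : SU g) {z : VV n}
    (hz : z ∈ Un n) : L0x s (fun z => f z + g z) z = L0x s f z + L0x s g z := by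
  unfold L0x
  simp only [← Finset.sum_add_distrib]
  refine Finset.sum_congr rfl fun i _ => Finset.sum_congr rfl fun j _ => ?_
  rw [Ax_congr (fun w hw => Ax_add hf hg hw j) hz, Ax_add (su_Ax hf j) (su_Ax hg j) hz,
    Ax_add hf hg hz]
  ring

lemma L0y_add (s : MF n) {f g : VV n → ℝ} (hf : SU f) (hg : SU g) {z : VV n}
    (hz : z ∈ Un n) : L0y s (fun z => f z + g z) z = L0y s f z + L0y s g z := by
  unfold L0y
  simp only [← Finset.sum_add_distrib]
  refine Finset.sum_congr rfl fun i _ => Finset.sum_congr rfl fun j _ => ?_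
  rw [By_congr (fun w hw => By_add hf hg hw j) hz, By_add (su_By hf j) (su_By hg j) hz,
    By_add hf hg hz]
  ring

lemma L0y_cmul (s : MF n) (c : ℝ) (f : VV n → ℝ) (z : VV n) :
    L0y s (fun z => c * f z) z = c * L0y s f z := by
  unfold L0y
  simp only [Finset.mul_sum]
  refine Finset.sum_congr rfl fun i _ => Finset.sum_congr rfl fun j _ => ?_
  rw [show By j (fun z => c * f z) = fun z => c * By j f z from funext fun w => By_cmul c f w j,
    By_cmul]
  ring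

lemma L0x_cmul (s : MF n) (c : ℝ) (f : VV n → ℝ) (z : VV n) :
    L0x s (fun z => c * f z) z = c * L0x s f z := by
  unfold L0x
  simp only [Finset.mul_sum]
  refine Finset.sum_congr rfl fun i _ => Finset.sum_congr rfl fun j _ => ?_
  rw [show Ax j (fun z => c * f z) = fun z => c * Ax j f z from funext fun w => Ax_cmul c f w j,
    Ax_cmul]
  ring

lemma L0y_sum (s : MF n) {ι : Type*} (t : Finset ι) {F : ι → VV n → ℝ} (h : ∀ i, SU (F i))
    {z : VV n} (hz : z ∈ Un n) :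
    L0y s (fun z => ∑ i ∈ t, F i z) z = ∑ i ∈ t, L0y s (F i) z := by
  classical
  induction t using Finset.induction_on with
  | empty =>
    simp only [Finset.sum_empty]
    have := L0y_cmul s 0 (fun _ => (0 : ℝ)) z
    simpa using this
  | insert a t ha ih =>
    simp only [Finset.sum_insert ha]
    rw [L0y_add s (h a) (contDiffOn_sum _ h) hz, ih]

/-- Multiplication by a function of `x` commutes with `L0y`. -/
lemma L0y_mulx (s : MF n) {φ g : VV n → ℝ} (hφ : SU φ) (hg : SU g)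
    (h0 : ∀ i, ∀ z ∈ Un n, By i φ z = 0) {z : VV n} (hz : z ∈ Un n) :
    L0y s (fun z => φ z * g z) z = φ z * L0y s g z := by
  have e : ∀ {g : VV n → ℝ}, SU g → ∀ w ∈ Un n, ∀ j, By j (fun z => φ z * g z) w =
      φ w * By j g w := by
    intro g hg w hw j
    rw [By_mul hφ hg hw, h0 j w hw]
    ring
  unfold L0y
  simp only [Finset.mul_sum]
  refine Finset.sum_congr rfl fun i _ => Finset.sum_congr rfl fun j _ => ?_
  rw [By_congr (fun w hw => e hg w hw j) hz, e (su_By hg j) z hz, e hg z hz]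
  ring

/-- Multiplication by a function of `y` commutes with `L0x`. -/
lemma L0x_muly (s : MF n) {φ g : VV n → ℝ} (hφ : SU φ) (hg : SU g)
    (h0 : ∀ i, ∀ z ∈ Un n, Ax i φ z = 0) {z : VV n} (hz : z ∈ Un n) :
    L0x s (fun z => φ z * g z) z = φ z * L0x s g z := by
  have e : ∀ {g : VV n → ℝ}, SU g → ∀ w ∈ Un n, ∀ j, Ax j (fun z => φ z * g z) w =
      φ w * Ax j g w := by
    intro g hg w hw j
    rw [Ax_mul hφ hg hw, h0 j w hw]
    ring
  unfold L0x
  simp only [Finset.mul_sum]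
  refine Finset.sum_congr rfl fun i _ => Finset.sum_congr rfl fun j _ => ?_
  rw [Ax_congr (fun w hw => e hg w hw j) hz, e (su_Ax hg j) z hz, e hg z hz]
  ring

/-- `A_i` commutes with `L0y`. -/
lemma Ax_L0y {s : MF n} (hs : SmM s) {g : VV n → ℝ} (hg : SU g) {z : VV n} (hz : z ∈ Un n)
    (i : Fin n) : Ax i (L0y s g) z = L0y s (Ax i g) z := by
  have t : ∀ k l, SU (fun z => By k (By l g) z + (n - 1) * z.2 k * By l g z) := fun k l =>
    (su_By (su_By hg l) k).add ((contDiffOn_const.mul (su_y k)).mul (su_By hg l))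
  rw [L0y_eq, Ax_sum _ (fun k => contDiffOn_sum _ fun l => (su_sy hs k l).mul (t k l)) hz,
    L0y_eq]
  refine Finset.sum_congr rfl fun k _ => ?_
  rw [Ax_sum _ (fun l => (su_sy hs k l).mul (t k l)) hz]
  refine Finset.sum_congr rfl fun l _ => ?_
  have e1 : Ax i (By k (By l g)) z = By k (By l (Ax i g)) z := by
    rw [Ax_By_comm (su_By hg l) hz]
    exact By_congr (fun w hw => Ax_By_comm hg hw i l) hz k
  have e2 : Ax i (fun z : VV n => (n - 1) * z.2 k) z = 0 := by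
    rw [Ax_cmul, Ax_y, mul_zero]
  rw [Ax_mul (su_sy hs k l) (t k l) hz, Ax_sy,
    Ax_add (su_By (su_By hg l) k) ((contDiffOn_const.mul (su_y k)).mul (su_By hg l)) hz,
    Ax_mul (contDiffOn_const.mul (su_y k)) (su_By hg l) hz, e2, e1, Ax_By_comm hg hz]
  ring

/-- `L0x` and `L0y` commute. -/
lemma L0_comm {s₁ s₂ : MF n} (h1 : SmM s₁) (h2 : SmM s₂) {g : VV n → ℝ} (hg : SU g) {z : VV n}
    (hz : z ∈ Un n) : L0x s₁ (L0y s₂ g) z = L0y s₂ (L0x s₁ g) z := by
  have t : ∀ i j, SU (fun z => Ax i (Ax j g) z + (n - 1) * z.1 i * Ax j g z) := fun i j =>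
    (su_Ax (su_Ax hg j) i).add ((contDiffOn_const.mul (su_x i)).mul (su_Ax hg j))
  rw [L0x_eq s₁ g, L0y_sum s₂ _ (fun i => contDiffOn_sum _ fun j => (su_sx h1 i j).mul (t i j)) hz,
    L0x_eq]
  refine Finset.sum_congr rfl fun i _ => ?_
  rw [L0y_sum s₂ _ (fun j => (su_sx h1 i j).mul (t i j)) hz]
  refine Finset.sum_congr rfl fun j _ => ?_
  have e1 : Ax i (Ax j (L0y s₂ g)) z = L0y s₂ (Ax i (Ax j g)) z := by
    rw [Ax_congr (fun w hw => Ax_L0y h2 hg hw j) hz, Ax_L0y h2 (su_Ax hg j) hz]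
  have e2 : L0y s₂ (fun z => (n - 1) * z.1 i * Ax j g z) z =
      (n - 1) * z.1 i * L0y s₂ (Ax j g) z :=
    L0y_mulx s₂ (contDiffOn_const.mul (su_x i)) (su_Ax hg j)
      (fun k w _ => by rw [By_cmul, By_x, mul_zero]) hz
  rw [L0y_mulx s₂ (su_sx h1 i j) (t i j) (fun k w _ => By_sx s₁ i j k w) hz,
    L0y_add s₂ (su_Ax (su_Ax hg j) i) ((contDiffOn_const.mul (su_x i)).mul (su_Ax hg j)) hz,
    e1, e2, Ax_L0y h2 hg hz]

lemma D_comm {s₁ s₂ : MF n} (h1 : SmM s₁) (h2 : SmM s₂) {g : VV n → ℝ} (hg : SU g) {z : VV n}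
    (hz : z ∈ Un n) : Dxs s₁ (Dys s₂ g) z = Dys s₂ (Dxs s₁ g) z := by
  have a1 : Dxs s₁ (Dys s₂ g) z =
      L0x s₁ (L0y s₂ g) z + vy s₂ z * L0x s₁ g z + vx s₁ z * (L0y s₂ g z + vy s₂ z * g z) := by
    rw [Dxs_eq]
    have : Dys s₂ g = fun z => L0y s₂ g z + vy s₂ z * g z := rfl
    rw [this, L0x_add s₁ (su_L0y h2 hg) ((su_vy h2).mul hg) hz,
      L0x_muly s₁ (su_vy h2) hg (fun i w _ => Ax_vy s₂ i w) hz]
  have a2 : Dys s₂ (Dxs s₁ g) z =
      L0y s₂ (L0x s₁ g) z + vx s₁ z * L0y s₂ g z + vy s₂ z * (L0x s₁ g z + vx s₁ z * g z) := by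
    rw [Dys_eq]
    have : Dxs s₁ g = fun z => L0x s₁ g z + vx s₁ z * g z := rfl
    rw [this, L0y_add s₂ (su_L0x h1 hg) ((su_vx h1).mul hg) hz,
      L0y_mulx s₂ (su_vx h1) hg (fun i w _ => By_vx s₁ i w) hz]
  rw [a1, a2, L0_comm h1 h2 hg hz]
  ring

/-! ### Conjugation -/

/-- `e^{τu}`. -/
def eu (τ : ℝ) (z : VV n) : ℝ := Real.exp (τ * uu z)

lemma su_eu (τ : ℝ) : SU (eu τ : VV n → ℝ) := (contDiffOn_const.mul su_uu).exp

lemma Ax_eu (τ : ℝ) {z : VV n} (hz : z ∈ Un n) (i : Fin n) :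
    Ax i (eu τ) z = τ * al i z * eu τ z := by
  have h : HasDerivAt (fun t : ℝ => Real.exp (τ * t)) (Real.exp (τ * uu z) * (τ * 1)) (uu z) :=
    ((hasDerivAt_id (uu z)).const_mul τ).exp
  have h2 := Dr_comp (ρ := r1) (e := (Pi.single i 1, 0)) h su_uu hz
  have h3 : Ax i (eu τ) z = Real.exp (τ * uu z) * (τ * 1) * Ax i uu z := h2
  rw [h3, Ax_uu]
  unfold eu
  ring

lemma By_eu (τ : ℝ) {z : VV n} (hz : z ∈ Un n) (i : Fin n) :
    By i (eu τ) z = τ * be i z * eu τ z := by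
  have h : HasDerivAt (fun t : ℝ => Real.exp (τ * t)) (Real.exp (τ * uu z) * (τ * 1)) (uu z) :=
    ((hasDerivAt_id (uu z)).const_mul τ).exp
  have h2 := Dr_comp (ρ := r2) (e := (0, Pi.single i 1)) h su_uu hz
  have h3 : By i (eu τ) z = Real.exp (τ * uu z) * (τ * 1) * By i uu z := h2
  rw [h3, By_uu]
  unfold eu
  ring

lemma Dxs_conj {s : MF n} (hs : TD s) (τ : ℝ) {g : VV n → ℝ} (hg : SU g) {z : VV n}
    (hz : z ∈ Un n) : Dxs s (fun z => eu τ z * g z) z = eu τ z * Px s τ g z := by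
  have hc : ∀ j, SU (fun z => τ * al j z * g z + Ax j g z) := fun j =>
    ((contDiffOn_const.mul (su_al j)).mul hg).add (su_Ax hg j)
  have e1 : ∀ j, ∀ w ∈ Un n, Ax j (fun z => eu τ z * g z) w =
      eu τ w * (τ * al j w * g w + Ax j g w) := by
    intro j w hw
    rw [Ax_mul (su_eu τ) hg hw, Ax_eu τ hw]
    ring
  have e2 : ∀ i j, Ax i (Ax j (fun z => eu τ z * g z)) z =
      eu τ z * (τ * al i z * (τ * al j z * g z + Ax j g z) +
        (τ * Ax i (al j) z * g z + τ * al j z * Ax i g z + Ax i (Ax j g) z)) := by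
    intro i j
    rw [Ax_congr (e1 j) hz, Ax_mul (su_eu τ) (hc j) hz, Ax_eu τ hz,
      Ax_add ((contDiffOn_const.mul (su_al j)).mul hg) (su_Ax hg j) hz,
      Ax_mul (contDiffOn_const.mul (su_al j)) hg hz, Ax_cmul]
    ring
  have e3 : Dxs s (fun z => eu τ z * g z) z = eu τ z * (
      τ ^ 2 * (∑ i, ∑ j, s z.1 i j * al i z * al j z) * g z +
      τ * (∑ i, ∑ j, s z.1 i j * al i z * Ax j g z) +
      τ * (∑ i, ∑ j, s z.1 i j * Ax i g z * al j z) +
      τ * (∑ i, ∑ j, s z.1 i j * (Ax i (al j) z + (n - 1) * z.1 i * al j z)) * g z +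
      ∑ i, ∑ j, s z.1 i j * (Ax i (Ax j g) z + (n - 1) * z.1 i * Ax j g z)) +
      vp s z.1 * (eu τ z * g z) := by
    show ∑ i, ∑ j, s z.1 i j * (Ax i (Ax j (fun z => eu τ z * g z)) z + (n - 1) * z.1 i *
      Ax j (fun z => eu τ z * g z) z) + vp s z.1 * (eu τ z * g z) = _
    congr 1
    simp only [Finset.mul_sum, Finset.sum_mul, ← Finset.sum_add_distrib]
    refine Finset.sum_congr rfl fun i _ => Finset.sum_congr rfl fun j _ => ?_
    rw [e2, e1 j z hz]
    ring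
  have e4 : ∑ i, ∑ j, s z.1 i j * Ax i g z * al j z = Gax s uu g z := by
    rw [Gax_comm hs.sy]
    rfl
  have e5 : Px s τ g z = (L0x s g z + vp s z.1 * g z) + τ * (2 * Gax s uu g z +
      L0x s uu z * g z) + τ ^ 2 * Fxs s z * g z := by
    unfold Px
    rw [Kxs_eq, Dxs_eq]
    rfl
  rw [e3, e4, e5]
  unfold L0x Fxs Gax
  simp only [Ax_uu]
  have e6 : ∀ i j, Ax i (Ax j uu) z = Ax i (al j) z := fun i j => rfl
  simp only [e6]
  ring

lemma Dys_conj {s : MF n} (hs : TD s) (τ : ℝ) {g : VV n → ℝ} (hg : SU g) {z : VV n}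
    (hz : z ∈ Un n) : Dys s (fun z => eu τ z * g z) z = eu τ z * Py s τ g z := by
  have hc : ∀ j, SU (fun z => τ * be j z * g z + By j g z) := fun j =>
    ((contDiffOn_const.mul (su_be j)).mul hg).add (su_By hg j)
  have e1 : ∀ j, ∀ w ∈ Un n, By j (fun z => eu τ z * g z) w =
      eu τ w * (τ * be j w * g w + By j g w) := by
    intro j w hw
    rw [By_mul (su_eu τ) hg hw, By_eu τ hw]
    ring
  have e2 : ∀ i j, By i (By j (fun z => eu τ z * g z)) z =
      eu τ z * (τ * be i z * (τ * be j z * g z + By j g z) +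
        (τ * By i (be j) z * g z + τ * be j z * By i g z + By i (By j g) z)) := by
    intro i j
    rw [By_congr (e1 j) hz, By_mul (su_eu τ) (hc j) hz, By_eu τ hz,
      By_add ((contDiffOn_const.mul (su_be j)).mul hg) (su_By hg j) hz,
      By_mul (contDiffOn_const.mul (su_be j)) hg hz, By_cmul]
    ring
  have e3 : Dys s (fun z => eu τ z * g z) z = eu τ z * (
      τ ^ 2 * (∑ i, ∑ j, s z.2 i j * be i z * be j z) * g z +
      τ * (∑ i, ∑ j, s z.2 i j * be i z * By j g z) +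
      τ * (∑ i, ∑ j, s z.2 i j * By i g z * be j z) +
      τ * (∑ i, ∑ j, s z.2 i j * (By i (be j) z + (n - 1) * z.2 i * be j z)) * g z +
      ∑ i, ∑ j, s z.2 i j * (By i (By j g) z + (n - 1) * z.2 i * By j g z)) +
      vp s z.2 * (eu τ z * g z) := by
    show ∑ i, ∑ j, s z.2 i j * (By i (By j (fun z => eu τ z * g z)) z + (n - 1) * z.2 i *
      By j (fun z => eu τ z * g z) z) + vp s z.2 * (eu τ z * g z) = _
    congr 1
    simp only [Finset.mul_sum, Finset.sum_mul, ← Finset.sum_add_distrib]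
    refine Finset.sum_congr rfl fun i _ => Finset.sum_congr rfl fun j _ => ?_
    rw [e2, e1 j z hz]
    ring
  have e4 : ∑ i, ∑ j, s z.2 i j * By i g z * be j z = Gay s uu g z := by
    rw [Gay_comm hs.sy]
    rfl
  have e5 : Py s τ g z = (L0y s g z + vp s z.2 * g z) + τ * (2 * Gay s uu g z +
      L0y s uu z * g z) + τ ^ 2 * Fys s z * g z := by
    unfold Py
    rw [Kys_eq, Dys_eq]
    rfl
  rw [e3, e4, e5]
  unfold L0y Fys Gay
  simp only [By_uu]
  have e6 : ∀ i j, By i (By j uu) z = By i (be j) z := fun i j => rfl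
  simp only [e6]
  ring

lemma Dxs_congr (s : MF n) {f g : VV n → ℝ} (h : ∀ z ∈ Un n, f z = g z) {z : VV n}
    (hz : z ∈ Un n) : Dxs s f z = Dxs s g z := by
  rw [Dxs_eq, Dxs_eq, L0x_congr s h hz, h z hz]

lemma Dys_congr (s : MF n) {f g : VV n → ℝ} (h : ∀ z ∈ Un n, f z = g z) {z : VV n}
    (hz : z ∈ Un n) : Dys s f z = Dys s g z := by
  rw [Dys_eq, Dys_eq, L0y_congr s h hz, h z hz]

lemma su_Px {s : MF n} (hs : SmM s) (τ : ℝ) {f : VV n → ℝ} (hf : SU f) : SU (Px s τ f) :=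
  ((su_Dxs hs hf).add (contDiffOn_const.mul (su_Kxs hs hf))).add
    ((contDiffOn_const.mul (su_Fxs hs)).mul hf)

lemma su_Py {s : MF n} (hs : SmM s) (τ : ℝ) {f : VV n → ℝ} (hf : SU f) : SU (Py s τ f) :=
  ((su_Dys hs hf).add (contDiffOn_const.mul (su_Kys hs hf))).add
    ((contDiffOn_const.mul (su_Fys hs)).mul hf)

/-- `P_x` and `P_y` commute. -/
lemma P_comm {s₁ s₂ : MF n} (h1 : TD s₁) (h2 : TD s₂) (τ : ℝ) {g : VV n → ℝ} (hg : SU g)
    {z : VV n} (hz : z ∈ Un n) :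
    Px s₁ τ (Py s₂ τ g) z = Py s₂ τ (Px s₁ τ g) z := by
  have h0 : eu τ z ≠ 0 := (Real.exp_pos _).ne'
  have hE : SU (fun z => eu τ z * g z) := (su_eu τ).mul hg
  have e1 : eu τ z * Px s₁ τ (Py s₂ τ g) z = Dxs s₁ (Dys s₂ (fun z => eu τ z * g z)) z := by
    rw [← Dxs_conj h1 τ (su_Py h2.sm τ hg) hz]
    exact Dxs_congr s₁ (fun w hw => (Dys_conj h2 τ hg hw).symm) hz
  have e2 : eu τ z * Py s₂ τ (Px s₁ τ g) z = Dys s₂ (Dxs s₁ (fun z => eu τ z * g z)) z := by
    rw [← Dys_conj h2 τ (su_Px h1.sm τ hg) hz]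
    exact Dys_congr s₂ (fun w hw => (Dxs_conj h1 τ hg hw).symm) hz
  refine mul_left_cancel₀ h0 ?_
  rw [e1, e2, D_comm h1.sm h2.sm hE hz]

end Vale.Agent.P088.HY
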