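import Vale.Agent.P088.R2.H558.E8

/-!
# P088, the rows (EID), (EIK)
-/

open MeasureTheory Set Filter
open scoped ContDiff Matrix Topology

noncomputable section

namespace Vale.Agent.P088.HY

open Vale.Agent.P088.LR

variable {n : ℕ}

lemma EE_lc6 {F₁ F₂ F₃ F₄ F₅ F₆ g : VV n → ℝ} (c₁ c₂ c₃ c₄ c₅ c₆ : ℝ)
    (h₁ : TF (Un n) F₁) (h₂ : TF (Un n) F₂) (h₃ : TF (Un n) F₃) (h₄ : TF (Un n) F₄)
    (h₅ : TF (Un n) F₅) (h₆ : TF (Un n) F₆)
    (h : ∀ z ∈ Un n, g z = c₁ * F₁ z + c₂ * F₂ z + c₃ * F₃ z + c₄ * F₄ z + c₅ * F₅ z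
      + c₆ * F₆ z) :
    EE g = c₁ * EE F₁ + c₂ * EE F₂ + c₃ * EE F₃ + c₄ * EE F₄ + c₅ * EE F₅ + c₆ * EE F₆ := by
  have a₂ := (h₁.const_mul c₁).add (h₂.const_mul c₂)
  have a₃ := a₂.add (h₃.const_mul c₃)
  have a₄ := a₃.add (h₄.const_mul c₄)
  have a₅ := a₄.add (h₅.const_mul c₅)
  rw [EE_congr h, EE_add a₅ (h₆.const_mul c₆), EE_add a₄ (h₅.const_mul c₅),
    EE_add a₃ (h₄.const_mul c₄), EE_add a₂ (h₃.const_mul c₃),
    EE_add (h₁.const_mul c₁) (h₂.const_mul c₂)]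
  simp only [EE_const_mul]

lemma tf_Gx {s : MF n} (hs : SmM s) {f h : VV n → ℝ} (hf : TF (Un n) f) (hh : TF (Un n) h) :
    TF (Un n) (Gx s f h) :=
  ((tf_Gax' hs hf (su_Gax hs su_uu hh.su)).add (tf_Gax' hs hh (su_Gax hs su_uu hf.su))).sub
    (tf_Gax hs su_uu (tf_Gax hs hf.su hh))

lemma tf_Gy {s : MF n} (hs : SmM s) {f h : VV n → ℝ} (hf : TF (Un n) f) (hh : TF (Un n) h) :
    TF (Un n) (Gy s f h) :=
  ((tf_Gay' hs hf (su_Gay hs su_uu hh.su)).add (tf_Gay' hs hh (su_Gay hs su_uu hf.su))).sub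
    (tf_Gay hs su_uu (tf_Gay hs hf.su hh))

lemma tf_Gm {s₁ s₂ : MF n} (h1 : SmM s₁) (h2 : SmM s₂) {f h : VV n → ℝ} (hf : SU f)
    (hh : TF (Un n) h) : TF (Un n) (Gm s₁ s₂ f h) :=
  TF.sum _ fun i => TF.sum _ fun j => TF.sum _ fun k => TF.sum _ fun l =>
    (hh.By l).smul ((((su_sx h1 i j).mul (su_Ax hf j)).mul (su_mm i k)).mul (su_sy h2 k l))

section lin

variable (s : MF n) {f g : VV n → ℝ} (hf : SU f) (hg : SU g) (a b : ℝ) {z : VV n}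
  (hz : z ∈ Un n)

include hf hg hz

lemma Dxs_lin : Dxs s (fun z => a * f z + b * g z) z = a * Dxs s f z + b * Dxs s g z := by
  rw [Dxs_eq, L0x_add s (contDiffOn_const.mul hf) (contDiffOn_const.mul hg) hz, L0x_cmul,
    L0x_cmul, Dxs_eq, Dxs_eq]
  ring

lemma Dys_lin : Dys s (fun z => a * f z + b * g z) z = a * Dys s f z + b * Dys s g z := by
  rw [Dys_eq, L0y_add s (contDiffOn_const.mul hf) (contDiffOn_const.mul hg) hz, L0y_cmul,
    L0y_cmul, Dys_eq, Dys_eq]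
  ring

lemma Kxs_lin : Kxs s (fun z => a * f z + b * g z) z = a * Kxs s f z + b * Kxs s g z := by
  rw [Kxs_eq, Gax_add s (contDiffOn_const.mul hf) (contDiffOn_const.mul hg) hz, Gax_cmul,
    Gax_cmul, Kxs_eq, Kxs_eq]
  ring

lemma Kys_lin : Kys s (fun z => a * f z + b * g z) z = a * Kys s f z + b * Kys s g z := by
  rw [Kys_eq, Gay_add s (contDiffOn_const.mul hf) (contDiffOn_const.mul hg) hz, Gay_cmul,
    Gay_cmul, Kys_eq, Kys_eq]
  ring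

lemma Px_lin (τ : ℝ) :
    Px s τ (fun z => a * f z + b * g z) z = a * Px s τ f z + b * Px s τ g z := by
  unfold Px
  rw [Dxs_lin s hf hg a b hz, Kxs_lin s hf hg a b hz]
  ring

lemma Py_lin (τ : ℝ) :
    Py s τ (fun z => a * f z + b * g z) z = a * Py s τ f z + b * Py s τ g z := by
  unfold Py
  rw [Dys_lin s hf hg a b hz, Kys_lin s hf hg a b hz]
  ring

end lin

/-- The symmetric part of `P_x`. -/
def X0 (s : MF n) (τ : ℝ) (f : VV n → ℝ) (z : VV n) : ℝ := Dxs s f z + τ ^ 2 * Fxs s z * f z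

/-- The antisymmetric part of `P_x`. -/
def X1 (s : MF n) (τ : ℝ) (f : VV n → ℝ) (z : VV n) : ℝ := τ * Kxs s f z

/-- The symmetric part of `P_y`. -/
def Y0 (s : MF n) (τ : ℝ) (f : VV n → ℝ) (z : VV n) : ℝ := Dys s f z + τ ^ 2 * Fys s z * f z

/-- The antisymmetric part of `P_y`. -/
def Y1 (s : MF n) (τ : ℝ) (f : VV n → ℝ) (z : VV n) : ℝ := τ * Kys s f z

lemma Px_eq (s : MF n) (τ : ℝ) (f : VV n → ℝ) (z : VV n) :
    Px s τ f z = X0 s τ f z + X1 s τ f z := by unfold Px X0 X1; ring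

lemma Py_eq (s : MF n) (τ : ℝ) (f : VV n → ℝ) (z : VV n) :
    Py s τ f z = Y0 s τ f z + Y1 s τ f z := by unfold Py Y0 Y1; ring

lemma Px_neg (s : MF n) (τ : ℝ) (f : VV n → ℝ) (z : VV n) :
    Px s (-τ) f z = X0 s τ f z - X1 s τ f z := by unfold Px X0 X1; ring

lemma Py_neg (s : MF n) (τ : ℝ) (f : VV n → ℝ) (z : VV n) :
    Py s (-τ) f z = Y0 s τ f z - Y1 s τ f z := by unfold Py Y0 Y1; ring

section tf

variable {s : MF n} (hs : SmM s) (τ : ℝ) {f : VV n → ℝ} (hf : TF (Un n) f)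

include hs hf

lemma tf_X0 : TF (Un n) (X0 s τ f) :=
  (tf_Dxs hs hf).add (hf.smul (contDiffOn_const.mul (su_Fxs hs)))

lemma tf_X1 : TF (Un n) (X1 s τ f) := (tf_Kxs hs hf).const_mul τ

lemma tf_Y0 : TF (Un n) (Y0 s τ f) :=
  (tf_Dys hs hf).add (hf.smul (contDiffOn_const.mul (su_Fys hs)))

lemma tf_Y1 : TF (Un n) (Y1 s τ f) := (tf_Kys hs hf).const_mul τ

lemma tf_Px : TF (Un n) (Px s τ f) := by
  have h : Px s τ f = fun z => X0 s τ f z + X1 s τ f z := funext fun z => Px_eq s τ f z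
  rw [h]
  exact (tf_X0 hs τ hf).add (tf_X1 hs τ hf)

lemma tf_Py : TF (Un n) (Py s τ f) := by
  have h : Py s τ f = fun z => Y0 s τ f z + Y1 s τ f z := funext fun z => Py_eq s τ f z
  rw [h]
  exact (tf_Y0 hs τ hf).add (tf_Y1 hs τ hf)

end tf

lemma su_Fsum {s₁ s₂ : MF n} (h1 : SmM s₁) (h2 : SmM s₂) :
    SU (fun z => Fxs s₁ z + Fys s₂ z) := (su_Fxs h1).add (su_Fys h2)

lemma su_Fdif {s₁ s₂ : MF n} (h1 : SmM s₁) (h2 : SmM s₂) :
    SU (fun z => Fxs s₁ z - Fys s₂ z) := (su_Fxs h1).sub (su_Fys h2)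

/-- `EE (qB f) = - EE ((X₀ f + Y₀ f) (X₁ f + Y₁ f))`. -/
lemma EE_qB {s₁ s₂ : MF n} (h1 : TD s₁) (h2 : TD s₂) (τ : ℝ) {f : VV n → ℝ}
    (hf : TF (Un n) f) :
    EE (qB s₁ s₂ τ f) =
      -EE (fun z => (X0 s₁ τ f z + Y0 s₂ τ f z) * (X1 s₁ τ f z + Y1 s₂ τ f z)) := by
  have hS := su_Fsum h1.sm h2.sm
  have a1 := EE_XX h1 hf hf
  have a2 := EE_YY h2 hf hf
  have a3 := EE_XY h1 h2 hf hf
  have a4 := EE_YX h1 h2 hf hf
  have a5 := EE_Kxs h1 hf hf hS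
  have a6 := EE_Kys h2 hf hf hS
  have hff := hf.mul hf
  have kx := tf_Kxs h1.sm hf
  have ky := tf_Kys h2.sm hf
  have sdx := su_Dxs h1.sm hf.su
  have sdy := su_Dys h2.sm hf.su
  have L := EE_lc6 (g := fun z => (X0 s₁ τ f z + Y0 s₂ τ f z) * (X1 s₁ τ f z + Y1 s₂ τ f z))
    (τ / 2) (τ / 2) (τ / 2) (τ / 2) (τ ^ 3 / 2) (τ ^ 3 / 2)
    (F₁ := fun z => Dxs s₁ f z * Kxs s₁ f z + Dxs s₁ f z * Kxs s₁ f z)
    (F₂ := fun z => Dys s₂ f z * Kys s₂ f z + Dys s₂ f z * Kys s₂ f z)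
    (F₃ := fun z => Dxs s₁ f z * Kys s₂ f z + Dxs s₁ f z * Kys s₂ f z)
    (F₄ := fun z => Dys s₂ f z * Kxs s₁ f z + Dys s₂ f z * Kxs s₁ f z)
    (F₅ := fun z => (Fxs s₁ z + Fys s₂ z) * (f z * Kxs s₁ f z + f z * Kxs s₁ f z))
    (F₆ := fun z => (Fxs s₁ z + Fys s₂ z) * (f z * Kys s₂ f z + f z * Kys s₂ f z))
    ((kx.smul sdx).add (kx.smul sdx)) ((ky.smul sdy).add (ky.smul sdy))
    ((ky.smul sdx).add (ky.smul sdx)) ((kx.smul sdy).add (kx.smul sdy))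
    (((kx.smul hf.su).add (kx.smul hf.su)).smul hS)
    (((ky.smul hf.su).add (ky.smul hf.su)).smul hS)
    (fun z _ => by unfold X0 X1 Y0 Y1; ring)
  have R := EE_lc6 (g := qB s₁ s₂ τ f) (τ / 2) (τ / 2) (τ / 2) (τ / 2) (τ ^ 3) (τ ^ 3)
    (F₁ := fun z => 2 * Gx s₁ f f z - L0x s₁ (kax s₁) z * (f z * f z) +
        2 * Gax s₁ uu (vx s₁) z * (f z * f z))
    (F₂ := fun z => 2 * Gy s₂ f f z - L0y s₂ (kay s₂) z * (f z * f z) +
        2 * Gay s₂ uu (vy s₂) z * (f z * f z))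
    (F₃ := fun z => 2 * (Gm s₁ s₂ f f z + Gm s₁ s₂ f f z) - L0x s₁ (kay s₂) z * (f z * f z))
    (F₄ := fun z => 2 * (Gm s₁ s₂ f f z + Gm s₁ s₂ f f z) - L0y s₂ (kax s₁) z * (f z * f z))
    (F₅ := fun z => Gax s₁ uu (fun z => Fxs s₁ z + Fys s₂ z) z * (f z * f z))
    (F₆ := fun z => Gay s₂ uu (fun z => Fxs s₁ z + Fys s₂ z) z * (f z * f z))
    ((((tf_Gx h1.sm hf hf).const_mul 2).sub (hff.smul (su_L0x h1.sm (su_kax h1.sm)))).add
      (hff.smul (contDiffOn_const.mul (su_Gax h1.sm su_uu (su_vx h1.sm)))))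
    ((((tf_Gy h2.sm hf hf).const_mul 2).sub (hff.smul (su_L0y h2.sm (su_kay h2.sm)))).add
      (hff.smul (contDiffOn_const.mul (su_Gay h2.sm su_uu (su_vy h2.sm)))))
    ((((tf_Gm h1.sm h2.sm hf.su hf).add (tf_Gm h1.sm h2.sm hf.su hf)).const_mul 2).sub
      (hff.smul (su_L0x h1.sm (su_kay h2.sm))))
    ((((tf_Gm h1.sm h2.sm hf.su hf).add (tf_Gm h1.sm h2.sm hf.su hf)).const_mul 2).sub
      (hff.smul (su_L0y h2.sm (su_kax h1.sm))))
    (hff.smul (su_Gax h1.sm su_uu hS)) (hff.smul (su_Gay h2.sm su_uu hS))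
    (fun z _ => by unfold qB; ring)
  rw [L, R, a1, a2, a3, a4, a5, a6]
  ring

/-- `EE (qC f) = - EE ((X₀ f - Y₀ f) (X₁ f - Y₁ f))`. -/
lemma EE_qC {s₁ s₂ : MF n} (h1 : TD s₁) (h2 : TD s₂) (τ : ℝ) {f : VV n → ℝ}
    (hf : TF (Un n) f) :
    EE (qC s₁ s₂ τ f) =
      -EE (fun z => (X0 s₁ τ f z - Y0 s₂ τ f z) * (X1 s₁ τ f z - Y1 s₂ τ f z)) := by
  have hS := su_Fdif h1.sm h2.sm
  have a1 := EE_XX h1 hf hf
  have a2 := EE_YY h2 hf hf
  have a3 := EE_XY h1 h2 hf hf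
  have a4 := EE_YX h1 h2 hf hf
  have a5 := EE_Kxs h1 hf hf hS
  have a6 := EE_Kys h2 hf hf hS
  have hff := hf.mul hf
  have kx := tf_Kxs h1.sm hf
  have ky := tf_Kys h2.sm hf
  have sdx := su_Dxs h1.sm hf.su
  have sdy := su_Dys h2.sm hf.su
  have L := EE_lc6 (g := fun z => (X0 s₁ τ f z - Y0 s₂ τ f z) * (X1 s₁ τ f z - Y1 s₂ τ f z))
    (τ / 2) (τ / 2) (-(τ / 2)) (-(τ / 2)) (τ ^ 3 / 2) (-(τ ^ 3 / 2))
    (F₁ := fun z => Dxs s₁ f z * Kxs s₁ f z + Dxs s₁ f z * Kxs s₁ f z)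
    (F₂ := fun z => Dys s₂ f z * Kys s₂ f z + Dys s₂ f z * Kys s₂ f z)
    (F₃ := fun z => Dxs s₁ f z * Kys s₂ f z + Dxs s₁ f z * Kys s₂ f z)
    (F₄ := fun z => Dys s₂ f z * Kxs s₁ f z + Dys s₂ f z * Kxs s₁ f z)
    (F₅ := fun z => (Fxs s₁ z - Fys s₂ z) * (f z * Kxs s₁ f z + f z * Kxs s₁ f z))
    (F₆ := fun z => (Fxs s₁ z - Fys s₂ z) * (f z * Kys s₂ f z + f z * Kys s₂ f z))
    ((kx.smul sdx).add (kx.smul sdx)) ((ky.smul sdy).add (ky.smul sdy))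
    ((ky.smul sdx).add (ky.smul sdx)) ((kx.smul sdy).add (kx.smul sdy))
    (((kx.smul hf.su).add (kx.smul hf.su)).smul hS)
    (((ky.smul hf.su).add (ky.smul hf.su)).smul hS)
    (fun z _ => by unfold X0 X1 Y0 Y1; ring)
  have R := EE_lc6 (g := qC s₁ s₂ τ f) (τ / 2) (τ / 2) (-(τ / 2)) (-(τ / 2)) (τ ^ 3) (-(τ ^ 3))
    (F₁ := fun z => 2 * Gx s₁ f f z - L0x s₁ (kax s₁) z * (f z * f z) +
        2 * Gax s₁ uu (vx s₁) z * (f z * f z))
    (F₂ := fun z => 2 * Gy s₂ f f z - L0y s₂ (kay s₂) z * (f z * f z) +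
        2 * Gay s₂ uu (vy s₂) z * (f z * f z))
    (F₃ := fun z => 2 * (Gm s₁ s₂ f f z + Gm s₁ s₂ f f z) - L0x s₁ (kay s₂) z * (f z * f z))
    (F₄ := fun z => 2 * (Gm s₁ s₂ f f z + Gm s₁ s₂ f f z) - L0y s₂ (kax s₁) z * (f z * f z))
    (F₅ := fun z => Gax s₁ uu (fun z => Fxs s₁ z - Fys s₂ z) z * (f z * f z))
    (F₆ := fun z => Gay s₂ uu (fun z => Fxs s₁ z - Fys s₂ z) z * (f z * f z))
    ((((tf_Gx h1.sm hf hf).const_mul 2).sub (hff.smul (su_L0x h1.sm (su_kax h1.sm)))).add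
      (hff.smul (contDiffOn_const.mul (su_Gax h1.sm su_uu (su_vx h1.sm)))))
    ((((tf_Gy h2.sm hf hf).const_mul 2).sub (hff.smul (su_L0y h2.sm (su_kay h2.sm)))).add
      (hff.smul (contDiffOn_const.mul (su_Gay h2.sm su_uu (su_vy h2.sm)))))
    ((((tf_Gm h1.sm h2.sm hf.su hf).add (tf_Gm h1.sm h2.sm hf.su hf)).const_mul 2).sub
      (hff.smul (su_L0x h1.sm (su_kay h2.sm))))
    ((((tf_Gm h1.sm h2.sm hf.su hf).add (tf_Gm h1.sm h2.sm hf.su hf)).const_mul 2).sub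
      (hff.smul (su_L0y h2.sm (su_kax h1.sm))))
    (hff.smul (su_Gax h1.sm su_uu hS)) (hff.smul (su_Gay h2.sm su_uu hS))
    (fun z _ => by unfold qC; ring)
  rw [L, R, a1, a2, a3, a4, a5, a6]
  ring

/-- **(EIK)** -/
theorem rowEIK : RowEIK := by
  intro n ε s₁ s₂ H1 H2 τ f hf
  have h1 := H1.td
  have h2 := H2.td
  have e := EE_qB h1 h2 τ hf
  have tx0 := tf_X0 h1.sm τ hf
  have tx1 := tf_X1 h1.sm τ hf
  have ty0 := tf_Y0 h2.sm τ hf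
  have ty1 := tf_Y1 h2.sm τ hf
  have tS0 : TF (Un n) (S0 s₁ s₂ τ f) := by
    have : S0 s₁ s₂ τ f = fun z => 1 / 2 * (X0 s₁ τ f z + Y0 s₂ τ f z) := by
      funext z; unfold S0 X0 Y0; ring
    rw [this]; exact (tx0.add ty0).const_mul _
  have tS1 : TF (Un n) (S1 s₁ s₂ τ f) := by
    have : S1 s₁ s₂ τ f = fun z => 1 / 2 * (X1 s₁ τ f z + Y1 s₂ τ f z) := by
      funext z; unfold S1 X1 Y1; ring
    rw [this]; exact (tx1.add ty1).const_mul _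
  have tz : TF (Un n) (fun _ : VV n => (0 : ℝ)) := TF.zero
  have L := EE_lc6 (g := fun z => (Px s₁ τ f z + Py s₂ τ f z) ^ 2) 4 4 2 0 0 0
    (F₁ := fun z => S0 s₁ s₂ τ f z ^ 2) (F₂ := fun z => S1 s₁ s₂ τ f z ^ 2)
    (F₃ := fun z => (X0 s₁ τ f z + Y0 s₂ τ f z) * (X1 s₁ τ f z + Y1 s₂ τ f z))
    (F₄ := fun _ => 0) (F₅ := fun _ => 0) (F₆ := fun _ => 0)
    tS0.pow2 tS1.pow2 ((tx0.add ty0).mul (tx1.add ty1)) tz tz tz
    (fun z _ => by
      rw [Px_eq, Py_eq]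
      unfold S0 S1 X0 X1 Y0 Y1
      ring)
  rw [L, e]
  ring

/-- The commutation relation in the form used for the mixed term. -/
lemma XY_comm {s₁ s₂ : MF n} (h1 : TD s₁) (h2 : TD s₂) (τ : ℝ) {g : VV n → ℝ} (hg : SU g)
    {z : VV n} (hz : z ∈ Un n) :
    X0 s₁ τ (Y0 s₂ τ g) z + X1 s₁ τ (Y1 s₂ τ g) z =
      Y0 s₂ τ (X0 s₁ τ g) z + Y1 s₂ τ (X1 s₁ τ g) z := by
  have sx0 : SU (X0 s₁ τ g) :=
    (su_Dxs h1.sm hg).add ((contDiffOn_const.mul (su_Fxs h1.sm)).mul hg)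
  have sy0 : SU (Y0 s₂ τ g) :=
    (su_Dys h2.sm hg).add ((contDiffOn_const.mul (su_Fys h2.sm)).mul hg)
  have sx1 : SU (X1 s₁ τ g) := contDiffOn_const.mul (su_Kxs h1.sm hg)
  have sy1 : SU (Y1 s₂ τ g) := contDiffOn_const.mul (su_Kys h2.sm hg)
  have p := P_comm h1 h2 τ hg hz
  have m := P_comm h1 h2 (-τ) hg hz
  have e1 : Py s₂ τ g = fun z => 1 * Y0 s₂ τ g z + 1 * Y1 s₂ τ g z := by
    funext w; rw [Py_eq]; ring
  have e2 : Px s₁ τ g = fun z => 1 * X0 s₁ τ g z + 1 * X1 s₁ τ g z := by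
    funext w; rw [Px_eq]; ring
  have e3 : Py s₂ (-τ) g = fun z => 1 * Y0 s₂ τ g z + (-1) * Y1 s₂ τ g z := by
    funext w; rw [Py_neg]; ring
  have e4 : Px s₁ (-τ) g = fun z => 1 * X0 s₁ τ g z + (-1) * X1 s₁ τ g z := by
    funext w; rw [Px_neg]; ring
  rw [e1, e2, Px_lin s₁ sy0 sy1 _ _ hz, Py_lin s₂ sx0 sx1 _ _ hz, Px_eq, Px_eq, Py_eq,
    Py_eq] at p
  rw [e3, e4, Px_lin s₁ sy0 sy1 _ _ hz, Py_lin s₂ sx0 sx1 _ _ hz, Px_neg, Px_neg, Py_neg,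
    Py_neg] at m
  linarith

/-- Symmetry of `X₀`. -/
lemma EE_X0_symm {s : MF n} (hs : TD s) (τ : ℝ) {f h : VV n → ℝ} (hf : TF (Un n) f)
    (hh : TF (Un n) h) : EE (fun z => X0 s τ f z * h z) = EE (fun z => f z * X0 s τ h z) := by
  have a := EE_Dxs_symm hs hf hh
  have t1 : TF (Un n) (fun z => Dxs s f z * h z) := (tf_Dxs hs.sm hf).mul hh
  have t2 : TF (Un n) (fun z => f z * Dxs s h z) := hf.mul (tf_Dxs hs.sm hh)
  have t3 : TF (Un n) (fun z => τ ^ 2 * Fxs s z * (f z * h z)) :=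
    (hf.mul hh).smul (contDiffOn_const.mul (su_Fxs hs.sm))
  have b1 : EE (fun z => X0 s τ f z * h z) =
      EE (fun z => Dxs s f z * h z) + EE (fun z => τ ^ 2 * Fxs s z * (f z * h z)) := by
    rw [← EE_add t1 t3]
    exact EE_congr fun z _ => by unfold X0; ring
  have b2 : EE (fun z => f z * X0 s τ h z) =
      EE (fun z => f z * Dxs s h z) + EE (fun z => τ ^ 2 * Fxs s z * (f z * h z)) := by
    rw [← EE_add t2 t3]
    exact EE_congr fun z _ => by unfold X0; ring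
  rw [b1, b2, a]

lemma EE_Y0_symm {s : MF n} (hs : TD s) (τ : ℝ) {f h : VV n → ℝ} (hf : TF (Un n) f)
    (hh : TF (Un n) h) : EE (fun z => Y0 s τ f z * h z) = EE (fun z => f z * Y0 s τ h z) := by
  have a := EE_Dys_symm hs hf hh
  have t1 : TF (Un n) (fun z => Dys s f z * h z) := (tf_Dys hs.sm hf).mul hh
  have t2 : TF (Un n) (fun z => f z * Dys s h z) := hf.mul (tf_Dys hs.sm hh)
  have t3 : TF (Un n) (fun z => τ ^ 2 * Fys s z * (f z * h z)) :=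
    (hf.mul hh).smul (contDiffOn_const.mul (su_Fys hs.sm))
  have b1 : EE (fun z => Y0 s τ f z * h z) =
      EE (fun z => Dys s f z * h z) + EE (fun z => τ ^ 2 * Fys s z * (f z * h z)) := by
    rw [← EE_add t1 t3]
    exact EE_congr fun z _ => by unfold Y0; ring
  have b2 : EE (fun z => f z * Y0 s τ h z) =
      EE (fun z => f z * Dys s h z) + EE (fun z => τ ^ 2 * Fys s z * (f z * h z)) := by
    rw [← EE_add t2 t3]
    exact EE_congr fun z _ => by unfold Y0; ring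
  rw [b1, b2, a]

/-- Antisymmetry of `X₁`. -/
lemma EE_X1_anti {s : MF n} (hs : TD s) (τ : ℝ) {f h : VV n → ℝ} (hf : TF (Un n) f)
    (hh : TF (Un n) h) : EE (fun z => X1 s τ f z * h z) = -EE (fun z => f z * X1 s τ h z) := by
  have a := EE_Kxs hs hf hh (su_const 1)
  have a0 : EE (fun z => Gax s uu (fun _ => 1) z * (f z * h z)) = 0 := by
    have : EE (fun z => Gax s uu (fun _ => 1) z * (f z * h z)) = EE (fun _ : VV n => 0) := by
      refine EE_congr fun z _ => ?_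
      have : Gax s uu (fun _ => 1) z = 0 := by
        unfold Gax
        refine Finset.sum_eq_zero fun i _ => Finset.sum_eq_zero fun j _ => ?_
        rw [Ax_eq j, Dr_const, mul_zero]
      rw [this, zero_mul]
    rw [this]; simp [EE]
  rw [a0, mul_zero] at a
  have t1 : TF (Un n) (fun z => X1 s τ f z * h z) := (tf_X1 hs.sm τ hf).mul hh
  have t2 : TF (Un n) (fun z => f z * X1 s τ h z) := hf.mul (tf_X1 hs.sm τ hh)
  have b : EE (fun z => X1 s τ f z * h z) + EE (fun z => f z * X1 s τ h z) =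
      τ * EE (fun z => 1 * (f z * Kxs s h z + h z * Kxs s f z)) := by
    rw [← EE_add t1 t2, ← EE_const_mul]
    exact EE_congr fun z _ => by unfold X1; ring
  rw [a] at b
  linarith

lemma EE_Y1_anti {s : MF n} (hs : TD s) (τ : ℝ) {f h : VV n → ℝ} (hf : TF (Un n) f)
    (hh : TF (Un n) h) : EE (fun z => Y1 s τ f z * h z) = -EE (fun z => f z * Y1 s τ h z) := by
  have a := EE_Kys hs hf hh (su_const 1)
  have a0 : EE (fun z => Gay s uu (fun _ => 1) z * (f z * h z)) = 0 := by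
    have : EE (fun z => Gay s uu (fun _ => 1) z * (f z * h z)) = EE (fun _ : VV n => 0) := by
      refine EE_congr fun z _ => ?_
      have : Gay s uu (fun _ => 1) z = 0 := by
        unfold Gay
        refine Finset.sum_eq_zero fun i _ => Finset.sum_eq_zero fun j _ => ?_
        rw [By_eq j, Dr_const, mul_zero]
      rw [this, zero_mul]
    rw [this]; simp [EE]
  rw [a0, mul_zero] at a
  have t1 : TF (Un n) (fun z => Y1 s τ f z * h z) := (tf_Y1 hs.sm τ hf).mul hh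
  have t2 : TF (Un n) (fun z => f z * Y1 s τ h z) := hf.mul (tf_Y1 hs.sm τ hh)
  have b : EE (fun z => Y1 s τ f z * h z) + EE (fun z => f z * Y1 s τ h z) =
      τ * EE (fun z => 1 * (f z * Kys s h z + h z * Kys s f z)) := by
    rw [← EE_add t1 t2, ← EE_const_mul]
    exact EE_congr fun z _ => by unfold Y1; ring
  rw [a] at b
  linarith

end Vale.Agent.P088.HY
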